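import Mathlib


/-!
Polynomials in six variables with integer coefficients, as sorted lists of terms, in a form
that the kernel evaluates quickly.
-/

namespace Vale.Agent.P154q4.D5.P6

/-- A term `c x₁^e1 x₂^e2 x₃^e3 x₄^e4 x₅^e5 x₆^e6`, with a redundant comparison key `k`. -/
structure Tm where
  k : ℕ
  e1 : ℕ
  e2 : ℕ
  e3 : ℕ
  e4 : ℕ
  e5 : ℕ
  e6 : ℕ
  c : ℤ

/-- Polynomials as lists of terms. -/
abbrev Poly := List Tm

/-- Value of a term. -/
noncomputable def Tm.val (x1 x2 x3 x4 x5 x6 : ℝ) (m : Tm) : ℝ :=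
  (m.c : ℝ) * x1 ^ m.e1 * x2 ^ m.e2 * x3 ^ m.e3 * x4 ^ m.e4 * x5 ^ m.e5 * x6 ^ m.e6

/-- Value of a polynomial. -/
noncomputable def ev (p : Poly) (x1 x2 x3 x4 x5 x6 : ℝ) : ℝ :=
  List.rec (motive := fun _ => ℝ) 0 (fun m _ ih => m.val x1 x2 x3 x4 x5 x6 + ih) p

@[simp] lemma ev_nil (x1 x2 x3 x4 x5 x6 : ℝ) : ev [] x1 x2 x3 x4 x5 x6 = 0 := rfl
@[simp] lemma ev_cons (m : Tm) (p : Poly) (x1 x2 x3 x4 x5 x6 : ℝ) :
    ev (m :: p) x1 x2 x3 x4 x5 x6 = m.val x1 x2 x3 x4 x5 x6 + ev p x1 x2 x3 x4 x5 x6 := rfl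

/-- Zero test on integers. -/
def isZ : ℤ → Bool
  | Int.ofNat n => Nat.beq n 0
  | Int.negSucc _ => false

lemma isZ_spec (c : ℤ) (h : isZ c = true) : c = 0 := by
  cases c with
  | ofNat n =>
    have : n = 0 := Nat.eq_of_beq_eq_true h
    simp [this]
  | negSucc n => exact absurd h (by simp [isZ])

/-- Same exponents. -/
def sameE (a b : Tm) : Bool :=
  and (Nat.beq a.e1 b.e1) (and (Nat.beq a.e2 b.e2) (and (Nat.beq a.e3 b.e3) (and (Nat.beq a.e4 b.e4)
    (and (Nat.beq a.e5 b.e5) (Nat.beq a.e6 b.e6)))))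

lemma sameE_spec (a b : Tm) (h : sameE a b = true) :
    a.e1 = b.e1 ∧ a.e2 = b.e2 ∧ a.e3 = b.e3 ∧ a.e4 = b.e4 ∧ a.e5 = b.e5 ∧ a.e6 = b.e6 := by
  simp only [sameE, Bool.and_eq_true] at h
  exact ⟨Nat.eq_of_beq_eq_true h.1, Nat.eq_of_beq_eq_true h.2.1, Nat.eq_of_beq_eq_true h.2.2.1,
    Nat.eq_of_beq_eq_true h.2.2.2.1, Nat.eq_of_beq_eq_true h.2.2.2.2.1,
    Nat.eq_of_beq_eq_true h.2.2.2.2.2⟩

/-- Combine two terms of the same key into a list tail. -/
def combine (a b : Tm) (t1 t2 : Poly) : Poly :=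
  cond (sameE a b)
    (let c := Int.add a.c b.c
     cond (isZ c) t1 (⟨a.k, a.e1, a.e2, a.e3, a.e4, a.e5, a.e6, c⟩ :: t1))
    (a :: b :: t2)

/-- Merge a term into a list, given the merged tail function. -/
noncomputable def mergeAux (a : Tm) (ih : Poly → Poly) (q : Poly) : Poly :=
  List.rec (motive := fun _ => Poly) (a :: ih [])
    (fun b q' ihq =>
      cond (Nat.blt a.k b.k) (a :: ih (b :: q'))
        (cond (Nat.blt b.k a.k) (b :: ihq)
          (combine a b (ih q') (ih q'))))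
    q

/-- Merge of sorted lists (the sum of two polynomials). -/
noncomputable def add (p q : Poly) : Poly :=
  (List.rec (motive := fun _ => Poly → Poly) (fun q => q)
    (fun a _ ih q => mergeAux a ih q) p) q

@[simp] lemma add_nil_left (q : Poly) : add [] q = q := rfl
lemma add_cons (a : Tm) (p q : Poly) : add (a :: p) q = mergeAux a (add p) q := rfl

lemma ev_mergeAux (a : Tm) (p : Poly) (q : Poly) (x1 x2 x3 x4 x5 x6 : ℝ)
    (hp : ∀ r, ev (add p r) x1 x2 x3 x4 x5 x6 = ev p x1 x2 x3 x4 x5 x6 + ev r x1 x2 x3 x4 x5 x6) :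
    ev (mergeAux a (add p) q) x1 x2 x3 x4 x5 x6
      = a.val x1 x2 x3 x4 x5 x6 + ev p x1 x2 x3 x4 x5 x6 + ev q x1 x2 x3 x4 x5 x6 := by
  induction q with
  | nil =>
    show ev (a :: add p []) x1 x2 x3 x4 x5 x6 = _
    rw [ev_cons, hp]; simp
  | cons b q ih =>
    have e : mergeAux a (add p) (b :: q) =
      cond (Nat.blt a.k b.k) (a :: add p (b :: q))
        (cond (Nat.blt b.k a.k) (b :: mergeAux a (add p) q)
          (combine a b (add p q) (add p q))) := rfl
    rw [e]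
    cases h1 : Nat.blt a.k b.k
    · cases h2 : Nat.blt b.k a.k
      · simp only [cond_false]
        unfold combine
        cases h3 : sameE a b
        · simp only [cond_false, ev_cons, hp]
          ring
        · obtain ⟨e1, e2, e3, e4, e5', e6'⟩ := sameE_spec a b h3
          simp only [cond_true]
          cases h4 : isZ (Int.add a.c b.c)
          · simp only [cond_false, ev_cons, hp]
            simp only [Tm.val, e1, e2, e3, e4, e5', e6']
            have : ((Int.add a.c b.c : ℤ) : ℝ) = (a.c : ℝ) + b.c := by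
              show ((a.c + b.c : ℤ) : ℝ) = _
              push_cast; ring
            rw [this]; ring
          · simp only [cond_true, ev_cons, hp]
            have hz := isZ_spec _ h4
            have hz' : (a.c : ℝ) + b.c = 0 := by
              have : a.c + b.c = 0 := hz
              exact_mod_cast this
            simp only [Tm.val, e1, e2, e3, e4, e5', e6']
            have e7 : (b.c : ℝ) = - a.c := by linarith
            rw [e7]; ring
      · simp only [cond_false, cond_true, ev_cons, ih]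
        ring
    · simp only [cond_true, ev_cons, hp]
      ring

lemma ev_add (p q : Poly) (x1 x2 x3 x4 x5 x6 : ℝ) :
    ev (add p q) x1 x2 x3 x4 x5 x6 = ev p x1 x2 x3 x4 x5 x6 + ev q x1 x2 x3 x4 x5 x6 := by
  induction p generalizing q with
  | nil => simp
  | cons a p ih =>
    rw [add_cons, ev_mergeAux a p q x1 x2 x3 x4 x5 x6 ih, ev_cons]

/-- Product with a term. -/
noncomputable def mulTerm (a : Tm) (p : Poly) : Poly :=
  List.rec (motive := fun _ => Poly) []
    (fun b _ ih => ⟨Nat.add a.k b.k, Nat.add a.e1 b.e1, Nat.add a.e2 b.e2, Nat.add a.e3 b.e3,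
      Nat.add a.e4 b.e4, Nat.add a.e5 b.e5, Nat.add a.e6 b.e6, Int.mul a.c b.c⟩ :: ih) p

lemma ev_mulTerm (a : Tm) (p : Poly) (x1 x2 x3 x4 x5 x6 : ℝ) :
    ev (mulTerm a p) x1 x2 x3 x4 x5 x6 = a.val x1 x2 x3 x4 x5 x6 * ev p x1 x2 x3 x4 x5 x6 := by
  induction p with
  | nil => simp [mulTerm]
  | cons b p ih =>
    have e : mulTerm a (b :: p) = ⟨Nat.add a.k b.k, Nat.add a.e1 b.e1, Nat.add a.e2 b.e2,
      Nat.add a.e3 b.e3, Nat.add a.e4 b.e4, Nat.add a.e5 b.e5, Nat.add a.e6 b.e6, Int.mul a.c b.c⟩ :: mulTerm a p := rfl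
    rw [e, ev_cons, ev_cons, ih]
    have hm : Int.mul a.c b.c = a.c * b.c := rfl
    simp only [Tm.val, Nat.add_eq, pow_add, hm]
    push_cast
    ring

/-- Product of polynomials. -/
noncomputable def mul (p q : Poly) : Poly :=
  List.rec (motive := fun _ => Poly) [] (fun a _ ih => add (mulTerm a q) ih) p

lemma ev_mul (p q : Poly) (x1 x2 x3 x4 x5 x6 : ℝ) :
    ev (mul p q) x1 x2 x3 x4 x5 x6 = ev p x1 x2 x3 x4 x5 x6 * ev q x1 x2 x3 x4 x5 x6 := by
  induction p with
  | nil => simp [mul]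
  | cons a p ih =>
    have e : mul (a :: p) q = add (mulTerm a q) (mul p q) := rfl
    rw [e, ev_add, ev_mulTerm, ih, ev_cons]
    ring

/-- Multiplication by an integer constant. -/
noncomputable def smul (c : ℤ) (p : Poly) : Poly := mulTerm ⟨0, 0, 0, 0, 0, 0, 0, c⟩ p

lemma ev_smul (c : ℤ) (p : Poly) (x1 x2 x3 x4 x5 x6 : ℝ) :
    ev (smul c p) x1 x2 x3 x4 x5 x6 = (c : ℝ) * ev p x1 x2 x3 x4 x5 x6 := by
  unfold smul
  rw [ev_mulTerm]
  simp [Tm.val]

/-- The constant one. -/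
def one : Poly := [⟨0, 0, 0, 0, 0, 0, 0, 1⟩]

@[simp] lemma ev_one (x1 x2 x3 x4 x5 x6 : ℝ) : ev one x1 x2 x3 x4 x5 x6 = 1 := by
  simp [one, Tm.val]

/-- The six variables; keys order terms lexicographically by `e1, ..., e6` (base `64`). -/
def v1 : Poly := [⟨1073741824, 1, 0, 0, 0, 0, 0, 1⟩]
def v2 : Poly := [⟨16777216, 0, 1, 0, 0, 0, 0, 1⟩]
def v3 : Poly := [⟨262144, 0, 0, 1, 0, 0, 0, 1⟩]
def v4 : Poly := [⟨4096, 0, 0, 0, 1, 0, 0, 1⟩]
def v5 : Poly := [⟨64, 0, 0, 0, 0, 1, 0, 1⟩]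
def v6 : Poly := [⟨1, 0, 0, 0, 0, 0, 1, 1⟩]

@[simp] lemma ev_v1 (x1 x2 x3 x4 x5 x6 : ℝ) : ev v1 x1 x2 x3 x4 x5 x6 = x1 := by simp [v1, Tm.val]
@[simp] lemma ev_v2 (x1 x2 x3 x4 x5 x6 : ℝ) : ev v2 x1 x2 x3 x4 x5 x6 = x2 := by simp [v2, Tm.val]
@[simp] lemma ev_v3 (x1 x2 x3 x4 x5 x6 : ℝ) : ev v3 x1 x2 x3 x4 x5 x6 = x3 := by simp [v3, Tm.val]
@[simp] lemma ev_v4 (x1 x2 x3 x4 x5 x6 : ℝ) : ev v4 x1 x2 x3 x4 x5 x6 = x4 := by simp [v4, Tm.val]
@[simp] lemma ev_v5 (x1 x2 x3 x4 x5 x6 : ℝ) : ev v5 x1 x2 x3 x4 x5 x6 = x5 := by simp [v5, Tm.val]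
@[simp] lemma ev_v6 (x1 x2 x3 x4 x5 x6 : ℝ) : ev v6 x1 x2 x3 x4 x5 x6 = x6 := by simp [v6, Tm.val]

/-- Pairwise merging of a list of polynomials. -/
noncomputable def pairUp (l : List Poly) : List Poly :=
  (List.rec (motive := fun _ => Option Poly → List Poly)
    (fun o => o.elim [] fun a => [a])
    (fun b _ ih o => o.elim (ih (some b)) fun a => add a b :: ih none) l) none

/-- Sum of a list of polynomials. -/
noncomputable def sumP (l : List Poly) : Poly :=
  List.rec (motive := fun _ => Poly) [] (fun a _ ih => add a ih) l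

/-- Sum of a list of values. -/
noncomputable def evs (l : List Poly) (x1 x2 x3 x4 x5 x6 : ℝ) : ℝ :=
  (l.map fun p => ev p x1 x2 x3 x4 x5 x6).sum

lemma ev_sumP (l : List Poly) (x1 x2 x3 x4 x5 x6 : ℝ) :
    ev (sumP l) x1 x2 x3 x4 x5 x6 = evs l x1 x2 x3 x4 x5 x6 := by
  induction l with
  | nil => simp [sumP, evs]
  | cons a l ih =>
    have e : sumP (a :: l) = add a (sumP l) := rfl
    rw [e, ev_add, ih]
    simp [evs]

lemma evs_pairUp (l : List Poly) (x1 x2 x3 x4 x5 x6 : ℝ) :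
    evs (pairUp l) x1 x2 x3 x4 x5 x6 = evs l x1 x2 x3 x4 x5 x6 := by
  have key : ∀ (l : List Poly) (o : Option Poly),
      evs ((List.rec (motive := fun _ => Option Poly → List Poly)
        (fun o => o.elim [] fun a => [a])
        (fun b _ ih o => o.elim (ih (some b)) fun a => add a b :: ih none) l) o) x1 x2 x3 x4 x5 x6
      = (o.elim 0 fun a => ev a x1 x2 x3 x4 x5 x6) + evs l x1 x2 x3 x4 x5 x6 := by
    intro l
    induction l with
    | nil =>
      intro o
      cases o <;> simp [evs]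
    | cons b l ih =>
      intro o
      cases o with
      | none =>
        show evs ((List.rec (motive := fun _ => Option Poly → List Poly)
          (fun o => o.elim [] fun a => [a])
          (fun b _ ih o => o.elim (ih (some b)) fun a => add a b :: ih none) l) (some b)) x1 x2 x3 x4 x5 x6 = _
        rw [ih]
        simp [evs]
      | some a =>
        show evs (add a b :: (List.rec (motive := fun _ => Option Poly → List Poly)
          (fun o => o.elim [] fun a => [a])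
          (fun b _ ih o => o.elim (ih (some b)) fun a => add a b :: ih none) l) none) x1 x2 x3 x4 x5 x6 = _
        have : ∀ m : List Poly, evs (add a b :: m) x1 x2 x3 x4 x5 x6
            = ev a x1 x2 x3 x4 x5 x6 + ev b x1 x2 x3 x4 x5 x6 + evs m x1 x2 x3 x4 x5 x6 := by
          intro m; simp [evs, ev_add]
        rw [this, ih]
        simp [evs]
        ring
  unfold pairUp
  simpa using key l none

/-- Balanced summation: `n` rounds of pairwise merging. -/
noncomputable def mergeAll (n : ℕ) (l : List Poly) : Poly :=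
  sumP ((Nat.rec (motive := fun _ => List Poly → List Poly) (fun l => l)
    (fun _ ih l => ih (pairUp l)) n) l)

lemma ev_mergeAll (n : ℕ) (l : List Poly) (x1 x2 x3 x4 x5 x6 : ℝ) :
    ev (mergeAll n l) x1 x2 x3 x4 x5 x6 = evs l x1 x2 x3 x4 x5 x6 := by
  unfold mergeAll
  rw [ev_sumP]
  induction n generalizing l with
  | zero => rfl
  | succ n ih =>
    show evs ((Nat.rec (motive := fun _ => List Poly → List Poly) (fun l => l)
      (fun _ ih l => ih (pairUp l)) n) (pairUp l)) x1 x2 x3 x4 x5 x6 = _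
    rw [ih, evs_pairUp]

/-- Equality test of polynomials (as lists). -/
noncomputable def beqP (p q : Poly) : Bool :=
  (List.rec (motive := fun _ => Poly → Bool)
    (fun q => List.rec (motive := fun _ => Bool) true (fun _ _ _ => false) q)
    (fun a _ ih q => List.rec (motive := fun _ => Bool) false
      (fun b q' _ => and (sameE a b) (and (isZ (Int.sub a.c b.c)) (ih q'))) q) p) q

lemma ev_of_beqP (p q : Poly) (h : beqP p q = true) (x1 x2 x3 x4 x5 x6 : ℝ) :
    ev p x1 x2 x3 x4 x5 x6 = ev q x1 x2 x3 x4 x5 x6 := by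
  induction p generalizing q with
  | nil =>
    cases q with
    | nil => rfl
    | cons b q => exact absurd h (by simp [beqP])
  | cons a p ih =>
    cases q with
    | nil => exact absurd h (by simp [beqP])
    | cons b q =>
      have h' : and (sameE a b) (and (isZ (Int.sub a.c b.c)) (beqP p q)) = true := h
      simp only [Bool.and_eq_true] at h'
      obtain ⟨h1, h2, h3⟩ := h'
      obtain ⟨e1, e2, e3, e4, e5', e6'⟩ := sameE_spec a b h1
      have hz : a.c - b.c = 0 := isZ_spec _ h2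
      have hc : a.c = b.c := by omega
      rw [ev_cons, ev_cons, ih q h3]
      simp only [Tm.val, e1, e2, e3, e4, e5', e6', hc]


/-- Balanced product (the first factor should be the long one only if the second is short). -/
noncomputable def mulB (n : ℕ) (p q : Poly) : Poly :=
  mergeAll n (List.rec (motive := fun _ => List Poly) [] (fun a _ ih => mulTerm a q :: ih) p)

lemma ev_mulB (n : ℕ) (p q : Poly) (x1 x2 x3 x4 x5 x6 : ℝ) :
    ev (mulB n p q) x1 x2 x3 x4 x5 x6 = ev p x1 x2 x3 x4 x5 x6 * ev q x1 x2 x3 x4 x5 x6 := by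
  unfold mulB
  rw [ev_mergeAll]
  induction p with
  | nil => simp [evs]
  | cons a p ih =>
    have e : (List.rec (motive := fun _ => List Poly) [] (fun a _ ih => mulTerm a q :: ih) (a :: p))
        = mulTerm a q :: (List.rec (motive := fun _ => List Poly) [] (fun a _ ih => mulTerm a q :: ih) p) := rfl
    rw [e]
    have e2 : ∀ (h : Poly) (t : List Poly), evs (h :: t) x1 x2 x3 x4 x5 x6
        = ev h x1 x2 x3 x4 x5 x6 + evs t x1 x2 x3 x4 x5 x6 := by
      intro h t; simp [evs]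
    rw [e2, ih, ev_mulTerm, ev_cons]
    ring

/-- Sorting by merging singletons. -/
noncomputable def sortP (n : ℕ) (p : Poly) : Poly :=
  mergeAll n (List.rec (motive := fun _ => List Poly) [] (fun a _ ih => [a] :: ih) p)

lemma ev_sortP (n : ℕ) (p : Poly) (x1 x2 x3 x4 x5 x6 : ℝ) :
    ev (sortP n p) x1 x2 x3 x4 x5 x6 = ev p x1 x2 x3 x4 x5 x6 := by
  unfold sortP
  rw [ev_mergeAll]
  induction p with
  | nil => simp [evs]
  | cons a p ih =>
    have e : (List.rec (motive := fun _ => List Poly) [] (fun a _ ih => [a] :: ih) (a :: p))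
        = [a] :: (List.rec (motive := fun _ => List Poly) [] (fun a _ ih => [a] :: ih) p) := rfl
    rw [e]
    have e2 : ∀ (h : Poly) (t : List Poly), evs (h :: t) x1 x2 x3 x4 x5 x6
        = ev h x1 x2 x3 x4 x5 x6 + evs t x1 x2 x3 x4 x5 x6 := by
      intro h t; simp [evs]
    rw [e2, ih, ev_cons]
    simp

/-- The parity test for the sign changes of the last three variables. -/
def kOK (m : Tm) : Bool :=
  and (Nat.beq (Nat.mod m.e4 2) (Nat.mod m.e5 2)) (Nat.beq (Nat.mod m.e5 2) (Nat.mod m.e6 2))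

/-- The terms surviving the average over the even sign changes. -/
noncomputable def kfilter (p : Poly) : Poly :=
  List.rec (motive := fun _ => Poly) [] (fun a _ ih => cond (kOK a) (a :: ih) ih) p

lemma val_klein (m : Tm) (x1 x2 x3 x y w : ℝ) :
    m.val x1 x2 x3 x y w + m.val x1 x2 x3 x (-y) (-w) + m.val x1 x2 x3 (-x) y (-w)
      + m.val x1 x2 x3 (-x) (-y) w = cond (kOK m) (4 * m.val x1 x2 x3 x y w) 0 := by
  have key : ∀ (n : ℕ) (t : ℝ), (-t) ^ n = (-1) ^ (Nat.mod n 2) * t ^ n := by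
    intro n t
    rw [neg_pow]
    congr 1
    exact neg_one_pow_eq_pow_mod_two (R := ℝ) (n := n)
  simp only [Tm.val]
  rw [key m.e4 x, key m.e5 y, key m.e6 w]
  have hk : kOK m = and (Nat.beq (Nat.mod m.e4 2) (Nat.mod m.e5 2))
      (Nat.beq (Nat.mod m.e5 2) (Nat.mod m.e6 2)) := rfl
  rw [hk]
  have b00 : Nat.beq 0 0 = true := rfl
  have b01 : Nat.beq 0 1 = false := rfl
  have b10 : Nat.beq 1 0 = false := rfl
  have b11 : Nat.beq 1 1 = true := rfl
  have h4 : Nat.mod m.e4 2 = 0 ∨ Nat.mod m.e4 2 = 1 := Nat.mod_two_eq_zero_or_one m.e4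
  have h5 : Nat.mod m.e5 2 = 0 ∨ Nat.mod m.e5 2 = 1 := Nat.mod_two_eq_zero_or_one m.e5
  have h6 : Nat.mod m.e6 2 = 0 ∨ Nat.mod m.e6 2 = 1 := Nat.mod_two_eq_zero_or_one m.e6
  rcases h4 with h4 | h4 <;> rcases h5 with h5 | h5 <;> rcases h6 with h6 | h6 <;>
    simp only [h4, h5, h6, b00, b01, b10, b11, Bool.and_true, Bool.and_false, Bool.true_and,
      Bool.false_and, cond_true, cond_false, pow_zero, pow_one] <;> ring

lemma ev_klein (p : Poly) (x1 x2 x3 x y w : ℝ) :
    ev p x1 x2 x3 x y w + ev p x1 x2 x3 x (-y) (-w) + ev p x1 x2 x3 (-x) y (-w)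
      + ev p x1 x2 x3 (-x) (-y) w = 4 * ev (kfilter p) x1 x2 x3 x y w := by
  induction p with
  | nil => simp [kfilter]
  | cons a p ih =>
    have e : kfilter (a :: p) = cond (kOK a) (a :: kfilter p) (kfilter p) := rfl
    rw [e]
    simp only [ev_cons]
    have hv := val_klein a x1 x2 x3 x y w
    cases h : kOK a
    · simp only [h, cond_false] at hv ⊢
      linarith
    · simp only [h, cond_true, ev_cons] at hv ⊢
      linarith

/-- The key of an exponent vector. -/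
def keyOf (e1 e2 e3 e4 e5 e6 : ℕ) : ℕ :=
  Nat.add (Nat.mul e1 1073741824) (Nat.add (Nat.mul e2 16777216) (Nat.add (Nat.mul e3 262144)
    (Nat.add (Nat.mul e4 4096) (Nat.add (Nat.mul e5 64) e6))))

/-- Permuting the last three exponents (the key function is a parameter, so that the kernel never
sees the literals of `keyOf` in the proofs below). -/
def reTm (K : ℕ → ℕ → ℕ → ℕ → ℕ → ℕ → ℕ) (f1 f2 f3 : Tm → ℕ) (m : Tm) : Tm :=
  ⟨K m.e1 m.e2 m.e3 (f1 m) (f2 m) (f3 m), m.e1, m.e2, m.e3, f1 m, f2 m, f3 m, m.c⟩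

/-- Permuting the last three exponents in a list. -/
noncomputable def reP (K : ℕ → ℕ → ℕ → ℕ → ℕ → ℕ → ℕ) (f1 f2 f3 : Tm → ℕ) (p : Poly) : Poly :=
  List.rec (motive := fun _ => Poly) [] (fun a _ ih => reTm K f1 f2 f3 a :: ih) p

lemma ev_reP (K : ℕ → ℕ → ℕ → ℕ → ℕ → ℕ → ℕ) (f1 f2 f3 : Tm → ℕ) (p : Poly) (x1 x2 x3 x y w A B C : ℝ)
    (h : ∀ m : Tm, x ^ f1 m * y ^ f2 m * w ^ f3 m = A ^ m.e4 * B ^ m.e5 * C ^ m.e6) :
    ev (reP K f1 f2 f3 p) x1 x2 x3 x y w = ev p x1 x2 x3 A B C := by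
  induction p with
  | nil => rfl
  | cons a p ih =>
    have e : reP K f1 f2 f3 (a :: p) = reTm K f1 f2 f3 a :: reP K f1 f2 f3 p := rfl
    rw [e, ev_cons, ev_cons, ih]
    congr 1
    simp only [Tm.val, reTm]
    have := h a
    calc _ = (a.c : ℝ) * x1 ^ a.e1 * x2 ^ a.e2 * x3 ^ a.e3 * (x ^ f1 a * y ^ f2 a * w ^ f3 a) := by ring
      _ = _ := by rw [this]; ring

/-- Symmetrisation in the last three variables (`K` is the key function). -/
noncomputable def symPK (K : ℕ → ℕ → ℕ → ℕ → ℕ → ℕ → ℕ) (n : ℕ) (p : Poly) : Poly :=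
  mergeAll 3 [p, sortP n (reP K Tm.e4 Tm.e6 Tm.e5 p), sortP n (reP K Tm.e5 Tm.e4 Tm.e6 p),
    sortP n (reP K Tm.e6 Tm.e4 Tm.e5 p), sortP n (reP K Tm.e5 Tm.e6 Tm.e4 p),
    sortP n (reP K Tm.e6 Tm.e5 Tm.e4 p)]

lemma ev_symPK (K : ℕ → ℕ → ℕ → ℕ → ℕ → ℕ → ℕ) (n : ℕ) (p : Poly) (x1 x2 x3 x y w : ℝ) :
    ev (symPK K n p) x1 x2 x3 x y w
      = ev p x1 x2 x3 x y w + ev p x1 x2 x3 x w y + ev p x1 x2 x3 y x w + ev p x1 x2 x3 y w x
        + ev p x1 x2 x3 w x y + ev p x1 x2 x3 w y x := by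
  unfold symPK
  rw [ev_mergeAll]
  simp only [evs, List.map_cons, List.map_nil, List.sum_cons, List.sum_nil, ev_sortP]
  rw [ev_reP K Tm.e4 Tm.e6 Tm.e5 p x1 x2 x3 x y w x w y (fun m => by ring),
    ev_reP K Tm.e5 Tm.e4 Tm.e6 p x1 x2 x3 x y w y x w (fun m => by ring),
    ev_reP K Tm.e6 Tm.e4 Tm.e5 p x1 x2 x3 x y w y w x (fun m => by ring),
    ev_reP K Tm.e5 Tm.e6 Tm.e4 p x1 x2 x3 x y w w x y (fun m => by ring),
    ev_reP K Tm.e6 Tm.e5 Tm.e4 p x1 x2 x3 x y w w y x (fun m => by ring)]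
  ring

end Vale.Agent.P154q4.D5.P6
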