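import Mathlib
import Vale.Agent.P154q4.D5.Params

/-!
Approximation of the powers of `(1+u)⁻¹` on `[-Lam, 3 Lam]`: generated Bernstein certificates on
subintervals with exact rationals.
-/

namespace Vale.Agent.P154q4.D5

private lemma bern4 (c0 c1 c2 c3 c4 s t : ℝ) (h0 : 0 ≤ c0) (h1 : 0 ≤ c1) (h2 : 0 ≤ c2) (h3 : 0 ≤ c3)
    (h4 : 0 ≤ c4) (hs : 0 ≤ s) (ht : 0 ≤ t) :
    0 ≤ c0 * t ^ 4 + c1 * s * t ^ 3 + c2 * s ^ 2 * t ^ 2 + c3 * s ^ 3 * t + c4 * s ^ 4 := by
  positivity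

private lemma bern5 (c0 c1 c2 c3 c4 c5 s t : ℝ) (h0 : 0 ≤ c0) (h1 : 0 ≤ c1) (h2 : 0 ≤ c2)
    (h3 : 0 ≤ c3) (h4 : 0 ≤ c4) (h5 : 0 ≤ c5) (hs : 0 ≤ s) (ht : 0 ≤ t) :
    0 ≤ c0 * t ^ 5 + c1 * s * t ^ 4 + c2 * s ^ 2 * t ^ 3 + c3 * s ^ 3 * t ^ 2 + c4 * s ^ 4 * t
      + c5 * s ^ 5 := by
  positivity

private theorem a1p_nonneg (u : ℝ) (hl : -(9/20) ≤ u) (hr : u ≤ 27/20) :
    0 ≤ (3/100) * (1 + u) + (1 - (1 + u) * S1 u) := by
  have e : (3/100) * (1 + u) + (1 - (1 + u) * S1 u) =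
      (3597/102400) * u ^ 0 + (77163/409600) * u ^ 1 + (13/4096) * u ^ 2 + (-5633/8192) * u ^ 3 + (7577/16384) * u ^ 4 := by
    simp only [S1]; ring
  rw [e]
  by_cases hc0 : u ≤ (-27/80)
  · have hs : 0 ≤ (u - (-9/20)) := by linarith
    have ht : 0 ≤ ((-27/80) - u) := by linarith
    have b := bern4 (28503179/139968) (74615567/139968) (184914551/373248) (431371763/2239488) (971493539/35831808) (u - (-9/20)) ((-27/80) - u) (by norm_num) (by norm_num) (by norm_num) (by norm_num) (by norm_num) hs ht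
    have key : (3597/102400) * u ^ 0 + (77163/409600) * u ^ 1 + (13/4096) * u ^ 2 + (-5633/8192) * u ^ 3 + (7577/16384) * u ^ 4 =
        (28503179/139968) * ((-27/80) - u) ^ 4 + (74615567/139968) * (u - (-9/20)) ^ 1 * ((-27/80) - u) ^ 3 + (184914551/373248) * (u - (-9/20)) ^ 2 * ((-27/80) - u) ^ 2 + (431371763/2239488) * (u - (-9/20)) ^ 3 * ((-27/80) - u) ^ 1 + (971493539/35831808) * (u - (-9/20)) ^ 4 := by ring
    rw [key]
    have b2 : 0 ≤ (28503179/139968) * ((-27/80) - u) ^ 4 + (74615567/139968) * (u - (-9/20)) ^ 1 * ((-27/80) - u) ^ 3 + (184914551/373248) * (u - (-9/20)) ^ 2 * ((-27/80) - u) ^ 2 + (431371763/2239488) * (u - (-9/20)) ^ 3 * ((-27/80) - u) ^ 1 + (971493539/35831808) * (u - (-9/20)) ^ 4 := by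
        have e2 : (28503179/139968) * ((-27/80) - u) ^ 4 + (74615567/139968) * (u - (-9/20)) ^ 1 * ((-27/80) - u) ^ 3 + (184914551/373248) * (u - (-9/20)) ^ 2 * ((-27/80) - u) ^ 2 + (431371763/2239488) * (u - (-9/20)) ^ 3 * ((-27/80) - u) ^ 1 + (971493539/35831808) * (u - (-9/20)) ^ 4 = (28503179/139968) * ((-27/80) - u) ^ 4 + (74615567/139968) * (u - (-9/20)) * ((-27/80) - u) ^ 3 + (184914551/373248) * (u - (-9/20)) ^ 2 * ((-27/80) - u) ^ 2 + (431371763/2239488) * (u - (-9/20)) ^ 3 * ((-27/80) - u) + (971493539/35831808) * (u - (-9/20)) ^ 4 := by ring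
        rw [e2]; exact b
    exact b2
  by_cases hc1 : u ≤ (-9/32)
  · have hs : 0 ≤ (u - (-27/80)) := by linarith [not_le.1 (show ¬ u ≤ (-27/80) from hc0)]
    have ht : 0 ≤ ((-9/32) - u) := by linarith
    have b := bern4 (971493539/2239488) (1188993565/1119744) (1349152355/1492992) (1494474205/4478976) (2096605475/35831808) (u - (-27/80)) ((-9/32) - u) (by norm_num) (by norm_num) (by norm_num) (by norm_num) (by norm_num) hs ht
    have key : (3597/102400) * u ^ 0 + (77163/409600) * u ^ 1 + (13/4096) * u ^ 2 + (-5633/8192) * u ^ 3 + (7577/16384) * u ^ 4 =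
        (971493539/2239488) * ((-9/32) - u) ^ 4 + (1188993565/1119744) * (u - (-27/80)) ^ 1 * ((-9/32) - u) ^ 3 + (1349152355/1492992) * (u - (-27/80)) ^ 2 * ((-9/32) - u) ^ 2 + (1494474205/4478976) * (u - (-27/80)) ^ 3 * ((-9/32) - u) ^ 1 + (2096605475/35831808) * (u - (-27/80)) ^ 4 := by ring
    rw [key]
    have b2 : 0 ≤ (971493539/2239488) * ((-9/32) - u) ^ 4 + (1188993565/1119744) * (u - (-27/80)) ^ 1 * ((-9/32) - u) ^ 3 + (1349152355/1492992) * (u - (-27/80)) ^ 2 * ((-9/32) - u) ^ 2 + (1494474205/4478976) * (u - (-27/80)) ^ 3 * ((-9/32) - u) ^ 1 + (2096605475/35831808) * (u - (-27/80)) ^ 4 := by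
        have e2 : (971493539/2239488) * ((-9/32) - u) ^ 4 + (1188993565/1119744) * (u - (-27/80)) ^ 1 * ((-9/32) - u) ^ 3 + (1349152355/1492992) * (u - (-27/80)) ^ 2 * ((-9/32) - u) ^ 2 + (1494474205/4478976) * (u - (-27/80)) ^ 3 * ((-9/32) - u) ^ 1 + (2096605475/35831808) * (u - (-27/80)) ^ 4 = (971493539/2239488) * ((-9/32) - u) ^ 4 + (1188993565/1119744) * (u - (-27/80)) * ((-9/32) - u) ^ 3 + (1349152355/1492992) * (u - (-27/80)) ^ 2 * ((-9/32) - u) ^ 2 + (1494474205/4478976) * (u - (-27/80)) ^ 3 * ((-9/32) - u) + (2096605475/35831808) * (u - (-27/80)) ^ 4 := by ring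
        rw [e2]; exact b
    exact b2
  by_cases hc2 : u ≤ (-9/40)
  · have hs : 0 ≤ (u - (-9/32)) := by linarith [not_le.1 (show ¬ u ≤ (-9/32) from hc1)]
    have ht : 0 ≤ ((-9/40) - u) := by linarith
    have b := bern4 (2096605475/35831808) (301065635/2239488) (114202355/373248) (58955795/139968) (26821379/139968) (u - (-9/32)) ((-9/40) - u) (by norm_num) (by norm_num) (by norm_num) (by norm_num) (by norm_num) hs ht
    have key : (3597/102400) * u ^ 0 + (77163/409600) * u ^ 1 + (13/4096) * u ^ 2 + (-5633/8192) * u ^ 3 + (7577/16384) * u ^ 4 =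
        (2096605475/35831808) * ((-9/40) - u) ^ 4 + (301065635/2239488) * (u - (-9/32)) ^ 1 * ((-9/40) - u) ^ 3 + (114202355/373248) * (u - (-9/32)) ^ 2 * ((-9/40) - u) ^ 2 + (58955795/139968) * (u - (-9/32)) ^ 3 * ((-9/40) - u) ^ 1 + (26821379/139968) * (u - (-9/32)) ^ 4 := by ring
    rw [key]
    have b2 : 0 ≤ (2096605475/35831808) * ((-9/40) - u) ^ 4 + (301065635/2239488) * (u - (-9/32)) ^ 1 * ((-9/40) - u) ^ 3 + (114202355/373248) * (u - (-9/32)) ^ 2 * ((-9/40) - u) ^ 2 + (58955795/139968) * (u - (-9/32)) ^ 3 * ((-9/40) - u) ^ 1 + (26821379/139968) * (u - (-9/32)) ^ 4 := by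
        have e2 : (2096605475/35831808) * ((-9/40) - u) ^ 4 + (301065635/2239488) * (u - (-9/32)) ^ 1 * ((-9/40) - u) ^ 3 + (114202355/373248) * (u - (-9/32)) ^ 2 * ((-9/40) - u) ^ 2 + (58955795/139968) * (u - (-9/32)) ^ 3 * ((-9/40) - u) ^ 1 + (26821379/139968) * (u - (-9/32)) ^ 4 = (2096605475/35831808) * ((-9/40) - u) ^ 4 + (301065635/2239488) * (u - (-9/32)) * ((-9/40) - u) ^ 3 + (114202355/373248) * (u - (-9/32)) ^ 2 * ((-9/40) - u) ^ 2 + (58955795/139968) * (u - (-9/32)) ^ 3 * ((-9/40) - u) + (26821379/139968) * (u - (-9/32)) ^ 4 := by ring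
        rw [e2]; exact b
    exact b2
  by_cases hc3 : u ≤ (0)
  · have hs : 0 ≤ (u - (-9/40)) := by linarith [not_le.1 (show ¬ u ≤ (-9/40) from hc2)]
    have ht : 0 ≤ ((0) - u) := by linarith
    have b := bern4 (26821379/35831808) (18787775/2239488) (1524835/46656) (2679355/69984) (29975/2187) (u - (-9/40)) ((0) - u) (by norm_num) (by norm_num) (by norm_num) (by norm_num) (by norm_num) hs ht
    have key : (3597/102400) * u ^ 0 + (77163/409600) * u ^ 1 + (13/4096) * u ^ 2 + (-5633/8192) * u ^ 3 + (7577/16384) * u ^ 4 =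
        (26821379/35831808) * ((0) - u) ^ 4 + (18787775/2239488) * (u - (-9/40)) ^ 1 * ((0) - u) ^ 3 + (1524835/46656) * (u - (-9/40)) ^ 2 * ((0) - u) ^ 2 + (2679355/69984) * (u - (-9/40)) ^ 3 * ((0) - u) ^ 1 + (29975/2187) * (u - (-9/40)) ^ 4 := by ring
    rw [key]
    have b2 : 0 ≤ (26821379/35831808) * ((0) - u) ^ 4 + (18787775/2239488) * (u - (-9/40)) ^ 1 * ((0) - u) ^ 3 + (1524835/46656) * (u - (-9/40)) ^ 2 * ((0) - u) ^ 2 + (2679355/69984) * (u - (-9/40)) ^ 3 * ((0) - u) ^ 1 + (29975/2187) * (u - (-9/40)) ^ 4 := by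
        have e2 : (26821379/35831808) * ((0) - u) ^ 4 + (18787775/2239488) * (u - (-9/40)) ^ 1 * ((0) - u) ^ 3 + (1524835/46656) * (u - (-9/40)) ^ 2 * ((0) - u) ^ 2 + (2679355/69984) * (u - (-9/40)) ^ 3 * ((0) - u) ^ 1 + (29975/2187) * (u - (-9/40)) ^ 4 = (26821379/35831808) * ((0) - u) ^ 4 + (18787775/2239488) * (u - (-9/40)) * ((0) - u) ^ 3 + (1524835/46656) * (u - (-9/40)) ^ 2 * ((0) - u) ^ 2 + (2679355/69984) * (u - (-9/40)) ^ 3 * ((0) - u) + (29975/2187) * (u - (-9/40)) ^ 4 := by ring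
        rw [e2]; exact b
    exact b2
  by_cases hc4 : u ≤ (9/20)
  · have hs : 0 ≤ (u - (0)) := by linarith [not_le.1 (show ¬ u ≤ (0) from hc3)]
    have ht : 0 ≤ ((9/20) - u) := by linarith
    have b := bern4 (29975/34992) (3075845/559872) (1059785/93312) (36422185/4478976) (67150619/35831808) (u - (0)) ((9/20) - u) (by norm_num) (by norm_num) (by norm_num) (by norm_num) (by norm_num) hs ht
    have key : (3597/102400) * u ^ 0 + (77163/409600) * u ^ 1 + (13/4096) * u ^ 2 + (-5633/8192) * u ^ 3 + (7577/16384) * u ^ 4 =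
        (29975/34992) * ((9/20) - u) ^ 4 + (3075845/559872) * (u - (0)) ^ 1 * ((9/20) - u) ^ 3 + (1059785/93312) * (u - (0)) ^ 2 * ((9/20) - u) ^ 2 + (36422185/4478976) * (u - (0)) ^ 3 * ((9/20) - u) ^ 1 + (67150619/35831808) * (u - (0)) ^ 4 := by ring
    rw [key]
    have b2 : 0 ≤ (29975/34992) * ((9/20) - u) ^ 4 + (3075845/559872) * (u - (0)) ^ 1 * ((9/20) - u) ^ 3 + (1059785/93312) * (u - (0)) ^ 2 * ((9/20) - u) ^ 2 + (36422185/4478976) * (u - (0)) ^ 3 * ((9/20) - u) ^ 1 + (67150619/35831808) * (u - (0)) ^ 4 := by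
        have e2 : (29975/34992) * ((9/20) - u) ^ 4 + (3075845/559872) * (u - (0)) ^ 1 * ((9/20) - u) ^ 3 + (1059785/93312) * (u - (0)) ^ 2 * ((9/20) - u) ^ 2 + (36422185/4478976) * (u - (0)) ^ 3 * ((9/20) - u) ^ 1 + (67150619/35831808) * (u - (0)) ^ 4 = (29975/34992) * ((9/20) - u) ^ 4 + (3075845/559872) * (u - (0)) * ((9/20) - u) ^ 3 + (1059785/93312) * (u - (0)) ^ 2 * ((9/20) - u) ^ 2 + (36422185/4478976) * (u - (0)) ^ 3 * ((9/20) - u) + (67150619/35831808) * (u - (0)) ^ 4 := by ring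
        rw [e2]; exact b
    exact b2
  by_cases hc5 : u ≤ (9/10)
  · have hs : 0 ≤ (u - (9/20)) := by linarith [not_le.1 (show ¬ u ≤ (9/20) from hc4)]
    have ht : 0 ≤ ((9/10) - u) := by linarith
    have b := bern4 (67150619/35831808) (15364217/2239488) (11262809/1492992) (1301027/559872) (512879/2239488) (u - (9/20)) ((9/10) - u) (by norm_num) (by norm_num) (by norm_num) (by norm_num) (by norm_num) hs ht
    have key : (3597/102400) * u ^ 0 + (77163/409600) * u ^ 1 + (13/4096) * u ^ 2 + (-5633/8192) * u ^ 3 + (7577/16384) * u ^ 4 =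
        (67150619/35831808) * ((9/10) - u) ^ 4 + (15364217/2239488) * (u - (9/20)) ^ 1 * ((9/10) - u) ^ 3 + (11262809/1492992) * (u - (9/20)) ^ 2 * ((9/10) - u) ^ 2 + (1301027/559872) * (u - (9/20)) ^ 3 * ((9/10) - u) ^ 1 + (512879/2239488) * (u - (9/20)) ^ 4 := by ring
    rw [key]
    have b2 : 0 ≤ (67150619/35831808) * ((9/10) - u) ^ 4 + (15364217/2239488) * (u - (9/20)) ^ 1 * ((9/10) - u) ^ 3 + (11262809/1492992) * (u - (9/20)) ^ 2 * ((9/10) - u) ^ 2 + (1301027/559872) * (u - (9/20)) ^ 3 * ((9/10) - u) ^ 1 + (512879/2239488) * (u - (9/20)) ^ 4 := by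
        have e2 : (67150619/35831808) * ((9/10) - u) ^ 4 + (15364217/2239488) * (u - (9/20)) ^ 1 * ((9/10) - u) ^ 3 + (11262809/1492992) * (u - (9/20)) ^ 2 * ((9/10) - u) ^ 2 + (1301027/559872) * (u - (9/20)) ^ 3 * ((9/10) - u) ^ 1 + (512879/2239488) * (u - (9/20)) ^ 4 = (67150619/35831808) * ((9/10) - u) ^ 4 + (15364217/2239488) * (u - (9/20)) * ((9/10) - u) ^ 3 + (11262809/1492992) * (u - (9/20)) ^ 2 * ((9/10) - u) ^ 2 + (1301027/559872) * (u - (9/20)) ^ 3 * ((9/10) - u) + (512879/2239488) * (u - (9/20)) ^ 4 := by ring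
        rw [e2]; exact b
    exact b2
  by_cases hc6 : u ≤ (81/80)
  · have hs : 0 ≤ (u - (9/10)) := by linarith [not_le.1 (show ¬ u ≤ (9/10) from hc5)]
    have ht : 0 ≤ ((81/80) - u) := by linarith
    have b := bern4 (512879/8748) (315842/2187) (10509629/93312) (9854659/279936) (316272659/35831808) (u - (9/10)) ((81/80) - u) (by norm_num) (by norm_num) (by norm_num) (by norm_num) (by norm_num) hs ht
    have key : (3597/102400) * u ^ 0 + (77163/409600) * u ^ 1 + (13/4096) * u ^ 2 + (-5633/8192) * u ^ 3 + (7577/16384) * u ^ 4 =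
        (512879/8748) * ((81/80) - u) ^ 4 + (315842/2187) * (u - (9/10)) ^ 1 * ((81/80) - u) ^ 3 + (10509629/93312) * (u - (9/10)) ^ 2 * ((81/80) - u) ^ 2 + (9854659/279936) * (u - (9/10)) ^ 3 * ((81/80) - u) ^ 1 + (316272659/35831808) * (u - (9/10)) ^ 4 := by ring
    rw [key]
    have b2 : 0 ≤ (512879/8748) * ((81/80) - u) ^ 4 + (315842/2187) * (u - (9/10)) ^ 1 * ((81/80) - u) ^ 3 + (10509629/93312) * (u - (9/10)) ^ 2 * ((81/80) - u) ^ 2 + (9854659/279936) * (u - (9/10)) ^ 3 * ((81/80) - u) ^ 1 + (316272659/35831808) * (u - (9/10)) ^ 4 := by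
        have e2 : (512879/8748) * ((81/80) - u) ^ 4 + (315842/2187) * (u - (9/10)) ^ 1 * ((81/80) - u) ^ 3 + (10509629/93312) * (u - (9/10)) ^ 2 * ((81/80) - u) ^ 2 + (9854659/279936) * (u - (9/10)) ^ 3 * ((81/80) - u) ^ 1 + (316272659/35831808) * (u - (9/10)) ^ 4 = (512879/8748) * ((81/80) - u) ^ 4 + (315842/2187) * (u - (9/10)) * ((81/80) - u) ^ 3 + (10509629/93312) * (u - (9/10)) ^ 2 * ((81/80) - u) ^ 2 + (9854659/279936) * (u - (9/10)) ^ 3 * ((81/80) - u) + (316272659/35831808) * (u - (9/10)) ^ 4 := by ring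
        rw [e2]; exact b
    exact b2
  by_cases hc7 : u ≤ (9/8)
  · have hs : 0 ≤ (u - (81/80)) := by linarith [not_le.1 (show ¬ u ≤ (81/80) from hc6)]
    have ht : 0 ≤ ((9/8) - u) := by linarith
    have b := bern4 (316272659/35831808) (158598115/4478976) (169077635/1492992) (186000115/1119744) (178951475/2239488) (u - (81/80)) ((9/8) - u) (by norm_num) (by norm_num) (by norm_num) (by norm_num) (by norm_num) hs ht
    have key : (3597/102400) * u ^ 0 + (77163/409600) * u ^ 1 + (13/4096) * u ^ 2 + (-5633/8192) * u ^ 3 + (7577/16384) * u ^ 4 =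
        (316272659/35831808) * ((9/8) - u) ^ 4 + (158598115/4478976) * (u - (81/80)) ^ 1 * ((9/8) - u) ^ 3 + (169077635/1492992) * (u - (81/80)) ^ 2 * ((9/8) - u) ^ 2 + (186000115/1119744) * (u - (81/80)) ^ 3 * ((9/8) - u) ^ 1 + (178951475/2239488) * (u - (81/80)) ^ 4 := by ring
    rw [key]
    have b2 : 0 ≤ (316272659/35831808) * ((9/8) - u) ^ 4 + (158598115/4478976) * (u - (81/80)) ^ 1 * ((9/8) - u) ^ 3 + (169077635/1492992) * (u - (81/80)) ^ 2 * ((9/8) - u) ^ 2 + (186000115/1119744) * (u - (81/80)) ^ 3 * ((9/8) - u) ^ 1 + (178951475/2239488) * (u - (81/80)) ^ 4 := by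
        have e2 : (316272659/35831808) * ((9/8) - u) ^ 4 + (158598115/4478976) * (u - (81/80)) ^ 1 * ((9/8) - u) ^ 3 + (169077635/1492992) * (u - (81/80)) ^ 2 * ((9/8) - u) ^ 2 + (186000115/1119744) * (u - (81/80)) ^ 3 * ((9/8) - u) ^ 1 + (178951475/2239488) * (u - (81/80)) ^ 4 = (316272659/35831808) * ((9/8) - u) ^ 4 + (158598115/4478976) * (u - (81/80)) * ((9/8) - u) ^ 3 + (169077635/1492992) * (u - (81/80)) ^ 2 * ((9/8) - u) ^ 2 + (186000115/1119744) * (u - (81/80)) ^ 3 * ((9/8) - u) + (178951475/2239488) * (u - (81/80)) ^ 4 := by ring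
        rw [e2]; exact b
    exact b2
  have hs : 0 ≤ (u - (9/8)) := by linarith [not_le.1 (show ¬ u ≤ (9/8) from hc7)]
  have ht : 0 ≤ ((27/20) - u) := by linarith
  have b := bern4 (178951475/35831808) (175427155/4478976) (165910055/1492992) (146598415/1119744) (121896539/2239488) (u - (9/8)) ((27/20) - u) (by norm_num) (by norm_num) (by norm_num) (by norm_num) (by norm_num) hs ht
  have key : (3597/102400) * u ^ 0 + (77163/409600) * u ^ 1 + (13/4096) * u ^ 2 + (-5633/8192) * u ^ 3 + (7577/16384) * u ^ 4 =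
        (178951475/35831808) * ((27/20) - u) ^ 4 + (175427155/4478976) * (u - (9/8)) ^ 1 * ((27/20) - u) ^ 3 + (165910055/1492992) * (u - (9/8)) ^ 2 * ((27/20) - u) ^ 2 + (146598415/1119744) * (u - (9/8)) ^ 3 * ((27/20) - u) ^ 1 + (121896539/2239488) * (u - (9/8)) ^ 4 := by ring
  rw [key]
  have b2 : 0 ≤ (178951475/35831808) * ((27/20) - u) ^ 4 + (175427155/4478976) * (u - (9/8)) ^ 1 * ((27/20) - u) ^ 3 + (165910055/1492992) * (u - (9/8)) ^ 2 * ((27/20) - u) ^ 2 + (146598415/1119744) * (u - (9/8)) ^ 3 * ((27/20) - u) ^ 1 + (121896539/2239488) * (u - (9/8)) ^ 4 := by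
        have e2 : (178951475/35831808) * ((27/20) - u) ^ 4 + (175427155/4478976) * (u - (9/8)) ^ 1 * ((27/20) - u) ^ 3 + (165910055/1492992) * (u - (9/8)) ^ 2 * ((27/20) - u) ^ 2 + (146598415/1119744) * (u - (9/8)) ^ 3 * ((27/20) - u) ^ 1 + (121896539/2239488) * (u - (9/8)) ^ 4 = (178951475/35831808) * ((27/20) - u) ^ 4 + (175427155/4478976) * (u - (9/8)) * ((27/20) - u) ^ 3 + (165910055/1492992) * (u - (9/8)) ^ 2 * ((27/20) - u) ^ 2 + (146598415/1119744) * (u - (9/8)) ^ 3 * ((27/20) - u) + (121896539/2239488) * (u - (9/8)) ^ 4 := by ring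
        rw [e2]; exact b
  exact b2

private theorem a1m_nonneg (u : ℝ) (hl : -(9/20) ≤ u) (hr : u ≤ 27/20) :
    0 ≤ (3/100) * (1 + u) - (1 - (1 + u) * S1 u) := by
  have e : (3/100) * (1 + u) - (1 - (1 + u) * S1 u) =
      (2547/102400) * u ^ 0 + (-52587/409600) * u ^ 1 + (-13/4096) * u ^ 2 + (5633/8192) * u ^ 3 + (-7577/16384) * u ^ 4 := by
    simp only [S1]; ring
  rw [e]
  by_cases hc0 : u ≤ (0)
  · have hs : 0 ≤ (u - (-9/20)) := by linarith
    have ht : 0 ≤ ((0) - u) := by linarith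
    have b := bern4 (110887/11943936) (7604675/1492992) (61045/7776) (715735/186624) (7075/11664) (u - (-9/20)) ((0) - u) (by norm_num) (by norm_num) (by norm_num) (by norm_num) (by norm_num) hs ht
    have key : (2547/102400) * u ^ 0 + (-52587/409600) * u ^ 1 + (-13/4096) * u ^ 2 + (5633/8192) * u ^ 3 + (-7577/16384) * u ^ 4 =
        (110887/11943936) * ((0) - u) ^ 4 + (7604675/1492992) * (u - (-9/20)) ^ 1 * ((0) - u) ^ 3 + (61045/7776) * (u - (-9/20)) ^ 2 * ((0) - u) ^ 2 + (715735/186624) * (u - (-9/20)) ^ 3 * ((0) - u) ^ 1 + (7075/11664) * (u - (-9/20)) ^ 4 := by ring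
    rw [key]
    have b2 : 0 ≤ (110887/11943936) * ((0) - u) ^ 4 + (7604675/1492992) * (u - (-9/20)) ^ 1 * ((0) - u) ^ 3 + (61045/7776) * (u - (-9/20)) ^ 2 * ((0) - u) ^ 2 + (715735/186624) * (u - (-9/20)) ^ 3 * ((0) - u) ^ 1 + (7075/11664) * (u - (-9/20)) ^ 4 := by
        have e2 : (110887/11943936) * ((0) - u) ^ 4 + (7604675/1492992) * (u - (-9/20)) ^ 1 * ((0) - u) ^ 3 + (61045/7776) * (u - (-9/20)) ^ 2 * ((0) - u) ^ 2 + (715735/186624) * (u - (-9/20)) ^ 3 * ((0) - u) ^ 1 + (7075/11664) * (u - (-9/20)) ^ 4 = (110887/11943936) * ((0) - u) ^ 4 + (7604675/1492992) * (u - (-9/20)) * ((0) - u) ^ 3 + (61045/7776) * (u - (-9/20)) ^ 2 * ((0) - u) ^ 2 + (715735/186624) * (u - (-9/20)) ^ 3 * ((0) - u) + (7075/11664) * (u - (-9/20)) ^ 4 := by ring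
        rw [e2]; exact b
    exact b2
  by_cases hc1 : u ≤ (9/40)
  · have hs : 0 ≤ (u - (0)) := by linarith [not_le.1 (show ¬ u ≤ (0) from hc0)]
    have ht : 0 ≤ ((9/40) - u) := by linarith
    have b := bern4 (7075/729) (642665/23328) (378755/15552) (5925205/746496) (11523487/11943936) (u - (0)) ((9/40) - u) (by norm_num) (by norm_num) (by norm_num) (by norm_num) (by norm_num) hs ht
    have key : (2547/102400) * u ^ 0 + (-52587/409600) * u ^ 1 + (-13/4096) * u ^ 2 + (5633/8192) * u ^ 3 + (-7577/16384) * u ^ 4 =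
        (7075/729) * ((9/40) - u) ^ 4 + (642665/23328) * (u - (0)) ^ 1 * ((9/40) - u) ^ 3 + (378755/15552) * (u - (0)) ^ 2 * ((9/40) - u) ^ 2 + (5925205/746496) * (u - (0)) ^ 3 * ((9/40) - u) ^ 1 + (11523487/11943936) * (u - (0)) ^ 4 := by ring
    rw [key]
    have b2 : 0 ≤ (7075/729) * ((9/40) - u) ^ 4 + (642665/23328) * (u - (0)) ^ 1 * ((9/40) - u) ^ 3 + (378755/15552) * (u - (0)) ^ 2 * ((9/40) - u) ^ 2 + (5925205/746496) * (u - (0)) ^ 3 * ((9/40) - u) ^ 1 + (11523487/11943936) * (u - (0)) ^ 4 := by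
        have e2 : (7075/729) * ((9/40) - u) ^ 4 + (642665/23328) * (u - (0)) ^ 1 * ((9/40) - u) ^ 3 + (378755/15552) * (u - (0)) ^ 2 * ((9/40) - u) ^ 2 + (5925205/746496) * (u - (0)) ^ 3 * ((9/40) - u) ^ 1 + (11523487/11943936) * (u - (0)) ^ 4 = (7075/729) * ((9/40) - u) ^ 4 + (642665/23328) * (u - (0)) * ((9/40) - u) ^ 3 + (378755/15552) * (u - (0)) ^ 2 * ((9/40) - u) ^ 2 + (5925205/746496) * (u - (0)) ^ 3 * ((9/40) - u) + (11523487/11943936) * (u - (0)) ^ 4 := by ring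
        rw [e2]; exact b
    exact b2
  by_cases hc2 : u ≤ (27/80)
  · have hs : 0 ≤ (u - (9/40)) := by linarith [not_le.1 (show ¬ u ≤ (9/40) from hc1)]
    have ht : 0 ≤ ((27/80) - u) := by linarith
    have b := bern4 (11523487/746496) (10869641/373248) (9987103/497664) (25276649/1492992) (120451807/11943936) (u - (9/40)) ((27/80) - u) (by norm_num) (by norm_num) (by norm_num) (by norm_num) (by norm_num) hs ht
    have key : (2547/102400) * u ^ 0 + (-52587/409600) * u ^ 1 + (-13/4096) * u ^ 2 + (5633/8192) * u ^ 3 + (-7577/16384) * u ^ 4 =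
        (11523487/746496) * ((27/80) - u) ^ 4 + (10869641/373248) * (u - (9/40)) ^ 1 * ((27/80) - u) ^ 3 + (9987103/497664) * (u - (9/40)) ^ 2 * ((27/80) - u) ^ 2 + (25276649/1492992) * (u - (9/40)) ^ 3 * ((27/80) - u) ^ 1 + (120451807/11943936) * (u - (9/40)) ^ 4 := by ring
    rw [key]
    have b2 : 0 ≤ (11523487/746496) * ((27/80) - u) ^ 4 + (10869641/373248) * (u - (9/40)) ^ 1 * ((27/80) - u) ^ 3 + (9987103/497664) * (u - (9/40)) ^ 2 * ((27/80) - u) ^ 2 + (25276649/1492992) * (u - (9/40)) ^ 3 * ((27/80) - u) ^ 1 + (120451807/11943936) * (u - (9/40)) ^ 4 := by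
        have e2 : (11523487/746496) * ((27/80) - u) ^ 4 + (10869641/373248) * (u - (9/40)) ^ 1 * ((27/80) - u) ^ 3 + (9987103/497664) * (u - (9/40)) ^ 2 * ((27/80) - u) ^ 2 + (25276649/1492992) * (u - (9/40)) ^ 3 * ((27/80) - u) ^ 1 + (120451807/11943936) * (u - (9/40)) ^ 4 = (11523487/746496) * ((27/80) - u) ^ 4 + (10869641/373248) * (u - (9/40)) * ((27/80) - u) ^ 3 + (9987103/497664) * (u - (9/40)) ^ 2 * ((27/80) - u) ^ 2 + (25276649/1492992) * (u - (9/40)) ^ 3 * ((27/80) - u) + (120451807/11943936) * (u - (9/40)) ^ 4 := by ring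
        rw [e2]; exact b
    exact b2
  by_cases hc3 : u ≤ (9/20)
  · have hs : 0 ≤ (u - (27/80)) := by linarith [not_le.1 (show ¬ u ≤ (27/80) from hc2)]
    have ht : 0 ≤ ((9/20) - u) := by linarith
    have b := bern4 (120451807/11943936) (47587579/746496) (19971403/124416) (7964191/46656) (2957047/46656) (u - (27/80)) ((9/20) - u) (by norm_num) (by norm_num) (by norm_num) (by norm_num) (by norm_num) hs ht
    have key : (2547/102400) * u ^ 0 + (-52587/409600) * u ^ 1 + (-13/4096) * u ^ 2 + (5633/8192) * u ^ 3 + (-7577/16384) * u ^ 4 =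
        (120451807/11943936) * ((9/20) - u) ^ 4 + (47587579/746496) * (u - (27/80)) ^ 1 * ((9/20) - u) ^ 3 + (19971403/124416) * (u - (27/80)) ^ 2 * ((9/20) - u) ^ 2 + (7964191/46656) * (u - (27/80)) ^ 3 * ((9/20) - u) ^ 1 + (2957047/46656) * (u - (27/80)) ^ 4 := by ring
    rw [key]
    have b2 : 0 ≤ (120451807/11943936) * ((9/20) - u) ^ 4 + (47587579/746496) * (u - (27/80)) ^ 1 * ((9/20) - u) ^ 3 + (19971403/124416) * (u - (27/80)) ^ 2 * ((9/20) - u) ^ 2 + (7964191/46656) * (u - (27/80)) ^ 3 * ((9/20) - u) ^ 1 + (2957047/46656) * (u - (27/80)) ^ 4 := by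
        have e2 : (120451807/11943936) * ((9/20) - u) ^ 4 + (47587579/746496) * (u - (27/80)) ^ 1 * ((9/20) - u) ^ 3 + (19971403/124416) * (u - (27/80)) ^ 2 * ((9/20) - u) ^ 2 + (7964191/46656) * (u - (27/80)) ^ 3 * ((9/20) - u) ^ 1 + (2957047/46656) * (u - (27/80)) ^ 4 = (120451807/11943936) * ((9/20) - u) ^ 4 + (47587579/746496) * (u - (27/80)) * ((9/20) - u) ^ 3 + (19971403/124416) * (u - (27/80)) ^ 2 * ((9/20) - u) ^ 2 + (7964191/46656) * (u - (27/80)) ^ 3 * ((9/20) - u) + (2957047/46656) * (u - (27/80)) ^ 4 := by ring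
        rw [e2]; exact b
    exact b2
  have hs : 0 ≤ (u - (9/20)) := by linarith [not_le.1 (show ¬ u ≤ (9/20) from hc3)]
  have ht : 0 ≤ ((27/20) - u) := by linarith
  have b := bern4 (2957047/191102976) (10685041/47775744) (32695543/31850496) (61301329/47775744) (437047/191102976) (u - (9/20)) ((27/20) - u) (by norm_num) (by norm_num) (by norm_num) (by norm_num) (by norm_num) hs ht
  have key : (2547/102400) * u ^ 0 + (-52587/409600) * u ^ 1 + (-13/4096) * u ^ 2 + (5633/8192) * u ^ 3 + (-7577/16384) * u ^ 4 =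
        (2957047/191102976) * ((27/20) - u) ^ 4 + (10685041/47775744) * (u - (9/20)) ^ 1 * ((27/20) - u) ^ 3 + (32695543/31850496) * (u - (9/20)) ^ 2 * ((27/20) - u) ^ 2 + (61301329/47775744) * (u - (9/20)) ^ 3 * ((27/20) - u) ^ 1 + (437047/191102976) * (u - (9/20)) ^ 4 := by ring
  rw [key]
  have b2 : 0 ≤ (2957047/191102976) * ((27/20) - u) ^ 4 + (10685041/47775744) * (u - (9/20)) ^ 1 * ((27/20) - u) ^ 3 + (32695543/31850496) * (u - (9/20)) ^ 2 * ((27/20) - u) ^ 2 + (61301329/47775744) * (u - (9/20)) ^ 3 * ((27/20) - u) ^ 1 + (437047/191102976) * (u - (9/20)) ^ 4 := by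
        have e2 : (2957047/191102976) * ((27/20) - u) ^ 4 + (10685041/47775744) * (u - (9/20)) ^ 1 * ((27/20) - u) ^ 3 + (32695543/31850496) * (u - (9/20)) ^ 2 * ((27/20) - u) ^ 2 + (61301329/47775744) * (u - (9/20)) ^ 3 * ((27/20) - u) ^ 1 + (437047/191102976) * (u - (9/20)) ^ 4 = (2957047/191102976) * ((27/20) - u) ^ 4 + (10685041/47775744) * (u - (9/20)) * ((27/20) - u) ^ 3 + (32695543/31850496) * (u - (9/20)) ^ 2 * ((27/20) - u) ^ 2 + (61301329/47775744) * (u - (9/20)) ^ 3 * ((27/20) - u) + (437047/191102976) * (u - (9/20)) ^ 4 := by ring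
        rw [e2]; exact b
  exact b2

private theorem a2p_nonneg (u : ℝ) (hl : -(9/20) ≤ u) (hr : u ≤ 27/20) :
    0 ≤ (413/2000) * (1 + u) ^ 2 + ((3 + 2 * u) - (1 + u) ^ 2 * S2 u) := by
  have e : (413/2000) * (1 + u) ^ 2 + ((3 + 2 * u) - (1 + u) ^ 2 * S2 u) =
      (66989/256000) * u ^ 0 + (3180449/2048000) * u ^ 1 + (2062037/2048000) * u ^ 2 + (-78995/16384) * u ^ 3 + (-12453/16384) * u ^ 4 + (22749/8192) * u ^ 5 := by
    simp only [S2]; ring
  rw [e]
  by_cases hc0 : u ≤ (-27/80)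
  · have hs : 0 ≤ (u - (-9/20)) := by linarith
    have ht : 0 ≤ ((-27/80) - u) := by linarith
    have b := bern5 (3242211233/472392) (47906291917/1889568) (134654390653/3779136) (356450146045/15116544) (882827616709/120932352) (418024674521/483729408) (u - (-9/20)) ((-27/80) - u) (by norm_num) (by norm_num) (by norm_num) (by norm_num) (by norm_num) (by norm_num) hs ht
    have key : (66989/256000) * u ^ 0 + (3180449/2048000) * u ^ 1 + (2062037/2048000) * u ^ 2 + (-78995/16384) * u ^ 3 + (-12453/16384) * u ^ 4 + (22749/8192) * u ^ 5 =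
        (3242211233/472392) * ((-27/80) - u) ^ 5 + (47906291917/1889568) * (u - (-9/20)) ^ 1 * ((-27/80) - u) ^ 4 + (134654390653/3779136) * (u - (-9/20)) ^ 2 * ((-27/80) - u) ^ 3 + (356450146045/15116544) * (u - (-9/20)) ^ 3 * ((-27/80) - u) ^ 2 + (882827616709/120932352) * (u - (-9/20)) ^ 4 * ((-27/80) - u) ^ 1 + (418024674521/483729408) * (u - (-9/20)) ^ 5 := by ring
    rw [key]
    have b2 : 0 ≤ (3242211233/472392) * ((-27/80) - u) ^ 5 + (47906291917/1889568) * (u - (-9/20)) ^ 1 * ((-27/80) - u) ^ 4 + (134654390653/3779136) * (u - (-9/20)) ^ 2 * ((-27/80) - u) ^ 3 + (356450146045/15116544) * (u - (-9/20)) ^ 3 * ((-27/80) - u) ^ 2 + (882827616709/120932352) * (u - (-9/20)) ^ 4 * ((-27/80) - u) ^ 1 + (418024674521/483729408) * (u - (-9/20)) ^ 5 := by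
        have e2 : (3242211233/472392) * ((-27/80) - u) ^ 5 + (47906291917/1889568) * (u - (-9/20)) ^ 1 * ((-27/80) - u) ^ 4 + (134654390653/3779136) * (u - (-9/20)) ^ 2 * ((-27/80) - u) ^ 3 + (356450146045/15116544) * (u - (-9/20)) ^ 3 * ((-27/80) - u) ^ 2 + (882827616709/120932352) * (u - (-9/20)) ^ 4 * ((-27/80) - u) ^ 1 + (418024674521/483729408) * (u - (-9/20)) ^ 5 = (3242211233/472392) * ((-27/80) - u) ^ 5 + (47906291917/1889568) * (u - (-9/20)) * ((-27/80) - u) ^ 4 + (134654390653/3779136) * (u - (-9/20)) ^ 2 * ((-27/80) - u) ^ 3 + (356450146045/15116544) * (u - (-9/20)) ^ 3 * ((-27/80) - u) ^ 2 + (882827616709/120932352) * (u - (-9/20)) ^ 4 * ((-27/80) - u) + (418024674521/483729408) * (u - (-9/20)) ^ 5 := by ring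
        rw [e2]; exact b
    exact b2
  by_cases hc1 : u ≤ (-9/32)
  · have hs : 0 ≤ (u - (-27/80)) := by linarith [not_le.1 (show ¬ u ≤ (-27/80) from hc0)]
    have ht : 0 ≤ ((-9/32) - u) := by linarith
    have b := bern5 (418024674521/15116544) (2739059650979/30233088) (3326449889149/30233088) (3798888484451/60466176) (4740827654845/241864704) (1866924135175/483729408) (u - (-27/80)) ((-9/32) - u) (by norm_num) (by norm_num) (by norm_num) (by norm_num) (by norm_num) (by norm_num) hs ht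
    have key : (66989/256000) * u ^ 0 + (3180449/2048000) * u ^ 1 + (2062037/2048000) * u ^ 2 + (-78995/16384) * u ^ 3 + (-12453/16384) * u ^ 4 + (22749/8192) * u ^ 5 =
        (418024674521/15116544) * ((-9/32) - u) ^ 5 + (2739059650979/30233088) * (u - (-27/80)) ^ 1 * ((-9/32) - u) ^ 4 + (3326449889149/30233088) * (u - (-27/80)) ^ 2 * ((-9/32) - u) ^ 3 + (3798888484451/60466176) * (u - (-27/80)) ^ 3 * ((-9/32) - u) ^ 2 + (4740827654845/241864704) * (u - (-27/80)) ^ 4 * ((-9/32) - u) ^ 1 + (1866924135175/483729408) * (u - (-27/80)) ^ 5 := by ring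
    rw [key]
    have b2 : 0 ≤ (418024674521/15116544) * ((-9/32) - u) ^ 5 + (2739059650979/30233088) * (u - (-27/80)) ^ 1 * ((-9/32) - u) ^ 4 + (3326449889149/30233088) * (u - (-27/80)) ^ 2 * ((-9/32) - u) ^ 3 + (3798888484451/60466176) * (u - (-27/80)) ^ 3 * ((-9/32) - u) ^ 2 + (4740827654845/241864704) * (u - (-27/80)) ^ 4 * ((-9/32) - u) ^ 1 + (1866924135175/483729408) * (u - (-27/80)) ^ 5 := by
        have e2 : (418024674521/15116544) * ((-9/32) - u) ^ 5 + (2739059650979/30233088) * (u - (-27/80)) ^ 1 * ((-9/32) - u) ^ 4 + (3326449889149/30233088) * (u - (-27/80)) ^ 2 * ((-9/32) - u) ^ 3 + (3798888484451/60466176) * (u - (-27/80)) ^ 3 * ((-9/32) - u) ^ 2 + (4740827654845/241864704) * (u - (-27/80)) ^ 4 * ((-9/32) - u) ^ 1 + (1866924135175/483729408) * (u - (-27/80)) ^ 5 = (418024674521/15116544) * ((-9/32) - u) ^ 5 + (2739059650979/30233088) * (u - (-27/80)) * ((-9/32) - u) ^ 4 + (3326449889149/30233088) * (u - (-27/80)) ^ 2 * ((-9/32)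 - u) ^ 3 + (3798888484451/60466176) * (u - (-27/80)) ^ 3 * ((-9/32) - u) ^ 2 + (4740827654845/241864704) * (u - (-27/80)) ^ 4 * ((-9/32) - u) + (1866924135175/483729408) * (u - (-27/80)) ^ 5 := by ring
        rw [e2]; exact b
    exact b2
  by_cases hc2 : u ≤ (-9/40)
  · have hs : 0 ≤ (u - (-9/32)) := by linarith [not_le.1 (show ¬ u ≤ (-9/32) from hc1)]
    have ht : 0 ≤ ((-9/40) - u) := by linarith
    have b := bern5 (1866924135175/483729408) (2296896510515/120932352) (912963462659/15116544) (397794159443/3779136) (162368816099/1889568) (12250270231/472392) (u - (-9/32)) ((-9/40) - u) (by norm_num) (by norm_num) (by norm_num) (by norm_num) (by norm_num) (by norm_num) hs ht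
    have key : (66989/256000) * u ^ 0 + (3180449/2048000) * u ^ 1 + (2062037/2048000) * u ^ 2 + (-78995/16384) * u ^ 3 + (-12453/16384) * u ^ 4 + (22749/8192) * u ^ 5 =
        (1866924135175/483729408) * ((-9/40) - u) ^ 5 + (2296896510515/120932352) * (u - (-9/32)) ^ 1 * ((-9/40) - u) ^ 4 + (912963462659/15116544) * (u - (-9/32)) ^ 2 * ((-9/40) - u) ^ 3 + (397794159443/3779136) * (u - (-9/32)) ^ 3 * ((-9/40) - u) ^ 2 + (162368816099/1889568) * (u - (-9/32)) ^ 4 * ((-9/40) - u) ^ 1 + (12250270231/472392) * (u - (-9/32)) ^ 5 := by ring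
    rw [key]
    have b2 : 0 ≤ (1866924135175/483729408) * ((-9/40) - u) ^ 5 + (2296896510515/120932352) * (u - (-9/32)) ^ 1 * ((-9/40) - u) ^ 4 + (912963462659/15116544) * (u - (-9/32)) ^ 2 * ((-9/40) - u) ^ 3 + (397794159443/3779136) * (u - (-9/32)) ^ 3 * ((-9/40) - u) ^ 2 + (162368816099/1889568) * (u - (-9/32)) ^ 4 * ((-9/40) - u) ^ 1 + (12250270231/472392) * (u - (-9/32)) ^ 5 := by
        have e2 : (1866924135175/483729408) * ((-9/40) - u) ^ 5 + (2296896510515/120932352) * (u - (-9/32)) ^ 1 * ((-9/40) - u) ^ 4 + (912963462659/15116544) * (u - (-9/32)) ^ 2 * ((-9/40) - u) ^ 3 + (397794159443/3779136) * (u - (-9/32)) ^ 3 * ((-9/40) - u) ^ 2 + (162368816099/1889568) * (u - (-9/32)) ^ 4 * ((-9/40) - u) ^ 1 + (12250270231/472392) * (u - (-9/32)) ^ 5 = (1866924135175/483729408) * ((-9/40) - u) ^ 5 + (2296896510515/120932352) * (u - (-9/32)) * ((-9/40) - u) ^ 4 + (912963462659/15116544) * (u - (-9/32)) ^ 2 * ((-9/40) - u) ^ 3 + (397794159443/3779136)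 * (u - (-9/32)) ^ 3 * ((-9/40) - u) ^ 2 + (162368816099/1889568) * (u - (-9/32)) ^ 4 * ((-9/40) - u) + (12250270231/472392) * (u - (-9/32)) ^ 5 := by ring
        rw [e2]; exact b
    exact b2
  by_cases hc3 : u ≤ (0)
  · have hs : 0 ≤ (u - (-9/40)) := by linarith [not_le.1 (show ¬ u ≤ (-9/40) from hc2)]
    have ht : 0 ≤ ((0) - u) := by linarith
    have b := bern5 (12250270231/483729408) (35971984919/120932352) (19086861083/15116544) (4161770437/1889568) (392791795/236196) (26795600/59049) (u - (-9/40)) ((0) - u) (by norm_num) (by norm_num) (by norm_num) (by norm_num) (by norm_num) (by norm_num) hs ht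
    have key : (66989/256000) * u ^ 0 + (3180449/2048000) * u ^ 1 + (2062037/2048000) * u ^ 2 + (-78995/16384) * u ^ 3 + (-12453/16384) * u ^ 4 + (22749/8192) * u ^ 5 =
        (12250270231/483729408) * ((0) - u) ^ 5 + (35971984919/120932352) * (u - (-9/40)) ^ 1 * ((0) - u) ^ 4 + (19086861083/15116544) * (u - (-9/40)) ^ 2 * ((0) - u) ^ 3 + (4161770437/1889568) * (u - (-9/40)) ^ 3 * ((0) - u) ^ 2 + (392791795/236196) * (u - (-9/40)) ^ 4 * ((0) - u) ^ 1 + (26795600/59049) * (u - (-9/40)) ^ 5 := by ring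
    rw [key]
    have b2 : 0 ≤ (12250270231/483729408) * ((0) - u) ^ 5 + (35971984919/120932352) * (u - (-9/40)) ^ 1 * ((0) - u) ^ 4 + (19086861083/15116544) * (u - (-9/40)) ^ 2 * ((0) - u) ^ 3 + (4161770437/1889568) * (u - (-9/40)) ^ 3 * ((0) - u) ^ 2 + (392791795/236196) * (u - (-9/40)) ^ 4 * ((0) - u) ^ 1 + (26795600/59049) * (u - (-9/40)) ^ 5 := by
        have e2 : (12250270231/483729408) * ((0) - u) ^ 5 + (35971984919/120932352) * (u - (-9/40)) ^ 1 * ((0) - u) ^ 4 + (19086861083/15116544) * (u - (-9/40)) ^ 2 * ((0) - u) ^ 3 + (4161770437/1889568) * (u - (-9/40)) ^ 3 * ((0) - u) ^ 2 + (392791795/236196) * (u - (-9/40)) ^ 4 * ((0) - u) ^ 1 + (26795600/59049) * (u - (-9/40)) ^ 5 = (12250270231/483729408) * ((0) - u) ^ 5 + (35971984919/120932352) * (u - (-9/40)) * ((0) - u) ^ 4 + (19086861083/15116544) * (u - (-9/40)) ^ 2 * ((0) - u) ^ 3 + (4161770437/1889568) * (u - (-9/40)) ^ 3 * ((0) - u) ^ 2 + (392791795/236196) * (u - (-9/40)) ^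 4 * ((0) - u) + (26795600/59049) * (u - (-9/40)) ^ 5 := by ring
        rw [e2]; exact b
    exact b2
  by_cases hc4 : u ≤ (9/20)
  · have hs : 0 ≤ (u - (0)) := by linarith [not_le.1 (show ¬ u ≤ (0) from hc3)]
    have ht : 0 ≤ ((9/20) - u) := by linarith
    have b := bern5 (1674725/118098) (411076205/3779136) (4600596277/15116544) (22878747769/60466176) (49879164671/241864704) (19532653115/483729408) (u - (0)) ((9/20) - u) (by norm_num) (by norm_num) (by norm_num) (by norm_num) (by norm_num) (by norm_num) hs ht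
    have key : (66989/256000) * u ^ 0 + (3180449/2048000) * u ^ 1 + (2062037/2048000) * u ^ 2 + (-78995/16384) * u ^ 3 + (-12453/16384) * u ^ 4 + (22749/8192) * u ^ 5 =
        (1674725/118098) * ((9/20) - u) ^ 5 + (411076205/3779136) * (u - (0)) ^ 1 * ((9/20) - u) ^ 4 + (4600596277/15116544) * (u - (0)) ^ 2 * ((9/20) - u) ^ 3 + (22878747769/60466176) * (u - (0)) ^ 3 * ((9/20) - u) ^ 2 + (49879164671/241864704) * (u - (0)) ^ 4 * ((9/20) - u) ^ 1 + (19532653115/483729408) * (u - (0)) ^ 5 := by ring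
    rw [key]
    have b2 : 0 ≤ (1674725/118098) * ((9/20) - u) ^ 5 + (411076205/3779136) * (u - (0)) ^ 1 * ((9/20) - u) ^ 4 + (4600596277/15116544) * (u - (0)) ^ 2 * ((9/20) - u) ^ 3 + (22878747769/60466176) * (u - (0)) ^ 3 * ((9/20) - u) ^ 2 + (49879164671/241864704) * (u - (0)) ^ 4 * ((9/20) - u) ^ 1 + (19532653115/483729408) * (u - (0)) ^ 5 := by
        have e2 : (1674725/118098) * ((9/20) - u) ^ 5 + (411076205/3779136) * (u - (0)) ^ 1 * ((9/20) - u) ^ 4 + (4600596277/15116544) * (u - (0)) ^ 2 * ((9/20) - u) ^ 3 + (22878747769/60466176) * (u - (0)) ^ 3 * ((9/20) - u) ^ 2 + (49879164671/241864704) * (u - (0)) ^ 4 * ((9/20) - u) ^ 1 + (19532653115/483729408) * (u - (0)) ^ 5 = (1674725/118098) * ((9/20) - u) ^ 5 + (411076205/3779136) * (u - (0)) * ((9/20) - u) ^ 4 + (4600596277/15116544) * (u - (0)) ^ 2 * ((9/20) - u) ^ 3 + (22878747769/60466176) * (u - (0)) ^ 3 * ((9/20) - u) ^ 2 + (49879164671/241864704) * (u - (0)) ^ 4 * ((9/20) - u)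 + (19532653115/483729408) * (u - (0)) ^ 5 := by ring
        rw [e2]; exact b
    exact b2
  by_cases hc5 : u ≤ (9/10)
  · have hs : 0 ≤ (u - (9/20)) := by linarith [not_le.1 (show ¬ u ≤ (9/20) from hc4)]
    have ht : 0 ≤ ((9/10) - u) := by linarith
    have b := bern5 (19532653115/483729408) (5973012613/30233088) (10391842001/30233088) (7460822315/30233088) (1902932929/30233088) (41421857/7558272) (u - (9/20)) ((9/10) - u) (by norm_num) (by norm_num) (by norm_num) (by norm_num) (by norm_num) (by norm_num) hs ht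
    have key : (66989/256000) * u ^ 0 + (3180449/2048000) * u ^ 1 + (2062037/2048000) * u ^ 2 + (-78995/16384) * u ^ 3 + (-12453/16384) * u ^ 4 + (22749/8192) * u ^ 5 =
        (19532653115/483729408) * ((9/10) - u) ^ 5 + (5973012613/30233088) * (u - (9/20)) ^ 1 * ((9/10) - u) ^ 4 + (10391842001/30233088) * (u - (9/20)) ^ 2 * ((9/10) - u) ^ 3 + (7460822315/30233088) * (u - (9/20)) ^ 3 * ((9/10) - u) ^ 2 + (1902932929/30233088) * (u - (9/20)) ^ 4 * ((9/10) - u) ^ 1 + (41421857/7558272) * (u - (9/20)) ^ 5 := by ring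
    rw [key]
    have b2 : 0 ≤ (19532653115/483729408) * ((9/10) - u) ^ 5 + (5973012613/30233088) * (u - (9/20)) ^ 1 * ((9/10) - u) ^ 4 + (10391842001/30233088) * (u - (9/20)) ^ 2 * ((9/10) - u) ^ 3 + (7460822315/30233088) * (u - (9/20)) ^ 3 * ((9/10) - u) ^ 2 + (1902932929/30233088) * (u - (9/20)) ^ 4 * ((9/10) - u) ^ 1 + (41421857/7558272) * (u - (9/20)) ^ 5 := by
        have e2 : (19532653115/483729408) * ((9/10) - u) ^ 5 + (5973012613/30233088) * (u - (9/20)) ^ 1 * ((9/10) - u) ^ 4 + (10391842001/30233088) * (u - (9/20)) ^ 2 * ((9/10) - u) ^ 3 + (7460822315/30233088) * (u - (9/20)) ^ 3 * ((9/10) - u) ^ 2 + (1902932929/30233088) * (u - (9/20)) ^ 4 * ((9/10) - u) ^ 1 + (41421857/7558272) * (u - (9/20)) ^ 5 = (19532653115/483729408) * ((9/10) - u) ^ 5 + (5973012613/30233088) * (u - (9/20)) * ((9/10) - u) ^ 4 + (10391842001/30233088) * (u - (9/20)) ^ 2 * ((9/10) - u) ^ 3 + (7460822315/30233088) * (u - (9/20)) ^ 3 * ((9/10) - u) ^ 2 + (1902932929/30233088)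 * (u - (9/20)) ^ 4 * ((9/10) - u) + (41421857/7558272) * (u - (9/20)) ^ 5 := by ring
        rw [e2]; exact b
    exact b2
  by_cases hc6 : u ≤ (81/80)
  · have hs : 0 ≤ (u - (9/10)) := by linarith [not_le.1 (show ¬ u ≤ (9/10) from hc5)]
    have ht : 0 ≤ ((81/80) - u) := by linarith
    have b := bern5 (331374856/59049) (2239252771/118098) (10824020735/472392) (11594919187/944784) (6980753557/1889568) (478258295525/483729408) (u - (9/10)) ((81/80) - u) (by norm_num) (by norm_num) (by norm_num) (by norm_num) (by norm_num) (by norm_num) hs ht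
    have key : (66989/256000) * u ^ 0 + (3180449/2048000) * u ^ 1 + (2062037/2048000) * u ^ 2 + (-78995/16384) * u ^ 3 + (-12453/16384) * u ^ 4 + (22749/8192) * u ^ 5 =
        (331374856/59049) * ((81/80) - u) ^ 5 + (2239252771/118098) * (u - (9/10)) ^ 1 * ((81/80) - u) ^ 4 + (10824020735/472392) * (u - (9/10)) ^ 2 * ((81/80) - u) ^ 3 + (11594919187/944784) * (u - (9/10)) ^ 3 * ((81/80) - u) ^ 2 + (6980753557/1889568) * (u - (9/10)) ^ 4 * ((81/80) - u) ^ 1 + (478258295525/483729408) * (u - (9/10)) ^ 5 := by ring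
    rw [key]
    have b2 : 0 ≤ (331374856/59049) * ((81/80) - u) ^ 5 + (2239252771/118098) * (u - (9/10)) ^ 1 * ((81/80) - u) ^ 4 + (10824020735/472392) * (u - (9/10)) ^ 2 * ((81/80) - u) ^ 3 + (11594919187/944784) * (u - (9/10)) ^ 3 * ((81/80) - u) ^ 2 + (6980753557/1889568) * (u - (9/10)) ^ 4 * ((81/80) - u) ^ 1 + (478258295525/483729408) * (u - (9/10)) ^ 5 := by
        have e2 : (331374856/59049) * ((81/80) - u) ^ 5 + (2239252771/118098) * (u - (9/10)) ^ 1 * ((81/80) - u) ^ 4 + (10824020735/472392) * (u - (9/10)) ^ 2 * ((81/80) - u) ^ 3 + (11594919187/944784) * (u - (9/10)) ^ 3 * ((81/80) - u) ^ 2 + (6980753557/1889568) * (u - (9/10)) ^ 4 * ((81/80) - u) ^ 1 + (478258295525/483729408) * (u - (9/10)) ^ 5 = (331374856/59049) * ((81/80) - u) ^ 5 + (2239252771/118098) * (u - (9/10)) * ((81/80) - u) ^ 4 + (10824020735/472392) * (u - (9/10)) ^ 2 * ((81/80) - u) ^ 3 + (11594919187/944784) * (u - (9/10)) ^ 3 * ((81/80) - u) ^ 2 + (6980753557/1889568)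 * (u - (9/10)) ^ 4 * ((81/80) - u) + (478258295525/483729408) * (u - (9/10)) ^ 5 := by ring
        rw [e2]; exact b
    exact b2
  by_cases hc7 : u ≤ (9/8)
  · have hs : 0 ≤ (u - (81/80)) := by linarith [not_le.1 (show ¬ u ≤ (81/80) from hc6)]
    have ht : 0 ≤ ((9/8) - u) := by linarith
    have b := bern5 (478258295525/483729408) (1497755022329/241864704) (1346293395001/60466176) (1244169268601/30233088) (1071894025465/30233088) (171813588325/15116544) (u - (81/80)) ((9/8) - u) (by norm_num) (by norm_num) (by norm_num) (by norm_num) (by norm_num) (by norm_num) hs ht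
    have key : (66989/256000) * u ^ 0 + (3180449/2048000) * u ^ 1 + (2062037/2048000) * u ^ 2 + (-78995/16384) * u ^ 3 + (-12453/16384) * u ^ 4 + (22749/8192) * u ^ 5 =
        (478258295525/483729408) * ((9/8) - u) ^ 5 + (1497755022329/241864704) * (u - (81/80)) ^ 1 * ((9/8) - u) ^ 4 + (1346293395001/60466176) * (u - (81/80)) ^ 2 * ((9/8) - u) ^ 3 + (1244169268601/30233088) * (u - (81/80)) ^ 3 * ((9/8) - u) ^ 2 + (1071894025465/30233088) * (u - (81/80)) ^ 4 * ((9/8) - u) ^ 1 + (171813588325/15116544) * (u - (81/80)) ^ 5 := by ring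
    rw [key]
    have b2 : 0 ≤ (478258295525/483729408) * ((9/8) - u) ^ 5 + (1497755022329/241864704) * (u - (81/80)) ^ 1 * ((9/8) - u) ^ 4 + (1346293395001/60466176) * (u - (81/80)) ^ 2 * ((9/8) - u) ^ 3 + (1244169268601/30233088) * (u - (81/80)) ^ 3 * ((9/8) - u) ^ 2 + (1071894025465/30233088) * (u - (81/80)) ^ 4 * ((9/8) - u) ^ 1 + (171813588325/15116544) * (u - (81/80)) ^ 5 := by
        have e2 : (478258295525/483729408) * ((9/8) - u) ^ 5 + (1497755022329/241864704) * (u - (81/80)) ^ 1 * ((9/8) - u) ^ 4 + (1346293395001/60466176) * (u - (81/80)) ^ 2 * ((9/8) - u) ^ 3 + (1244169268601/30233088) * (u - (81/80)) ^ 3 * ((9/8) - u) ^ 2 + (1071894025465/30233088) * (u - (81/80)) ^ 4 * ((9/8) - u) ^ 1 + (171813588325/15116544) * (u - (81/80)) ^ 5 = (478258295525/483729408) * ((9/8) - u) ^ 5 + (1497755022329/241864704) * (u - (81/80)) * ((9/8) - u) ^ 4 + (1346293395001/60466176) * (u - (81/80)) ^ 2 * ((9/8) - u) ^ 3 + (1244169268601/30233088)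 * (u - (81/80)) ^ 3 * ((9/8) - u) ^ 2 + (1071894025465/30233088) * (u - (81/80)) ^ 4 * ((9/8) - u) + (171813588325/15116544) * (u - (81/80)) ^ 5 := by ring
        rw [e2]; exact b
    exact b2
  have hs : 0 ≤ (u - (9/8)) := by linarith [not_le.1 (show ¬ u ≤ (9/8) from hc7)]
  have ht : 0 ≤ ((27/20) - u) := by linarith
  have b := bern5 (171813588325/483729408) (752654899705/241864704) (636104147609/60466176) (513115719841/30233088) (396707706761/30233088) (59192252069/15116544) (u - (9/8)) ((27/20) - u) (by norm_num) (by norm_num) (by norm_num) (by norm_num) (by norm_num) (by norm_num) hs ht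
  have key : (66989/256000) * u ^ 0 + (3180449/2048000) * u ^ 1 + (2062037/2048000) * u ^ 2 + (-78995/16384) * u ^ 3 + (-12453/16384) * u ^ 4 + (22749/8192) * u ^ 5 =
        (171813588325/483729408) * ((27/20) - u) ^ 5 + (752654899705/241864704) * (u - (9/8)) ^ 1 * ((27/20) - u) ^ 4 + (636104147609/60466176) * (u - (9/8)) ^ 2 * ((27/20) - u) ^ 3 + (513115719841/30233088) * (u - (9/8)) ^ 3 * ((27/20) - u) ^ 2 + (396707706761/30233088) * (u - (9/8)) ^ 4 * ((27/20) - u) ^ 1 + (59192252069/15116544) * (u - (9/8)) ^ 5 := by ring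
  rw [key]
  have b2 : 0 ≤ (171813588325/483729408) * ((27/20) - u) ^ 5 + (752654899705/241864704) * (u - (9/8)) ^ 1 * ((27/20) - u) ^ 4 + (636104147609/60466176) * (u - (9/8)) ^ 2 * ((27/20) - u) ^ 3 + (513115719841/30233088) * (u - (9/8)) ^ 3 * ((27/20) - u) ^ 2 + (396707706761/30233088) * (u - (9/8)) ^ 4 * ((27/20) - u) ^ 1 + (59192252069/15116544) * (u - (9/8)) ^ 5 := by
        have e2 : (171813588325/483729408) * ((27/20) - u) ^ 5 + (752654899705/241864704) * (u - (9/8)) ^ 1 * ((27/20) - u) ^ 4 + (636104147609/60466176) * (u - (9/8)) ^ 2 * ((27/20) - u) ^ 3 + (513115719841/30233088) * (u - (9/8)) ^ 3 * ((27/20) - u) ^ 2 + (396707706761/30233088) * (u - (9/8)) ^ 4 * ((27/20) - u) ^ 1 + (59192252069/15116544) * (u - (9/8)) ^ 5 = (171813588325/483729408) * ((27/20) - u) ^ 5 + (752654899705/241864704) * (u - (9/8)) * ((27/20) - u) ^ 4 + (636104147609/60466176) * (u - (9/8)) ^ 2 * ((27/20) - u) ^ 3 + (513115719841/30233088) * (u - (9/8))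 ^ 3 * ((27/20) - u) ^ 2 + (396707706761/30233088) * (u - (9/8)) ^ 4 * ((27/20) - u) + (59192252069/15116544) * (u - (9/8)) ^ 5 := by ring
        rw [e2]; exact b
  exact b2

private theorem a2m_nonneg (u : ℝ) (hl : -(9/20) ≤ u) (hr : u ≤ 27/20) :
    0 ≤ (413/2000) * (1 + u) ^ 2 - ((3 + 2 * u) - (1 + u) ^ 2 * S2 u) := by
  have e : (413/2000) * (1 + u) ^ 2 - ((3 + 2 * u) - (1 + u) ^ 2 * S2 u) =
      (38739/256000) * u ^ 0 + (-1488801/2048000) * u ^ 1 + (-1216213/2048000) * u ^ 2 + (78995/16384) * u ^ 3 + (12453/16384) * u ^ 4 + (-22749/8192) * u ^ 5 := by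
    simp only [S2]; ring
  rw [e]
  by_cases hc0 : u ≤ (0)
  · have hs : 0 ≤ (u - (-9/20)) := by linarith
    have ht : 0 ≤ ((0) - u) := by linarith
    have b := bern5 (10939765/161243136) (3743528347/80621568) (2922789803/20155392) (737690489/5038848) (73984015/1259712) (322825/39366) (u - (-9/20)) ((0) - u) (by norm_num) (by norm_num) (by norm_num) (by norm_num) (by norm_num) (by norm_num) hs ht
    have key : (38739/256000) * u ^ 0 + (-1488801/2048000) * u ^ 1 + (-1216213/2048000) * u ^ 2 + (78995/16384) * u ^ 3 + (12453/16384) * u ^ 4 + (-22749/8192) * u ^ 5 =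
        (10939765/161243136) * ((0) - u) ^ 5 + (3743528347/80621568) * (u - (-9/20)) ^ 1 * ((0) - u) ^ 4 + (2922789803/20155392) * (u - (-9/20)) ^ 2 * ((0) - u) ^ 3 + (737690489/5038848) * (u - (-9/20)) ^ 3 * ((0) - u) ^ 2 + (73984015/1259712) * (u - (-9/20)) ^ 4 * ((0) - u) ^ 1 + (322825/39366) * (u - (-9/20)) ^ 5 := by ring
    rw [key]
    have b2 : 0 ≤ (10939765/161243136) * ((0) - u) ^ 5 + (3743528347/80621568) * (u - (-9/20)) ^ 1 * ((0) - u) ^ 4 + (2922789803/20155392) * (u - (-9/20)) ^ 2 * ((0) - u) ^ 3 + (737690489/5038848) * (u - (-9/20)) ^ 3 * ((0) - u) ^ 2 + (73984015/1259712) * (u - (-9/20)) ^ 4 * ((0) - u) ^ 1 + (322825/39366) * (u - (-9/20)) ^ 5 := by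
        have e2 : (10939765/161243136) * ((0) - u) ^ 5 + (3743528347/80621568) * (u - (-9/20)) ^ 1 * ((0) - u) ^ 4 + (2922789803/20155392) * (u - (-9/20)) ^ 2 * ((0) - u) ^ 3 + (737690489/5038848) * (u - (-9/20)) ^ 3 * ((0) - u) ^ 2 + (73984015/1259712) * (u - (-9/20)) ^ 4 * ((0) - u) ^ 1 + (322825/39366) * (u - (-9/20)) ^ 5 = (10939765/161243136) * ((0) - u) ^ 5 + (3743528347/80621568) * (u - (-9/20)) * ((0) - u) ^ 4 + (2922789803/20155392) * (u - (-9/20)) ^ 2 * ((0) - u) ^ 3 + (737690489/5038848) * (u - (-9/20)) ^ 3 * ((0) - u) ^ 2 + (73984015/1259712) * (u - (-9/20)) ^ 4 * ((0) - u) + (322825/39366) * (u - (-9/20)) ^ 5 := by ring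
        rw [e2]; exact b
    exact b2
  by_cases hc1 : u ≤ (9/40)
  · have hs : 0 ≤ (u - (0)) := by linarith [not_le.1 (show ¬ u ≤ (0) from hc0)]
    have ht : 0 ≤ ((9/40) - u) := by linarith
    have b := bern5 (5165200/19683) (80971985/78732) (905401769/629856) (4339206841/5038848) (8665320643/40310784) (3624441077/161243136) (u - (0)) ((9/40) - u) (by norm_num) (by norm_num) (by norm_num) (by norm_num) (by norm_num) (by norm_num) hs ht
    have key : (38739/256000) * u ^ 0 + (-1488801/2048000) * u ^ 1 + (-1216213/2048000) * u ^ 2 + (78995/16384) * u ^ 3 + (12453/16384) * u ^ 4 + (-22749/8192) * u ^ 5 =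
        (5165200/19683) * ((9/40) - u) ^ 5 + (80971985/78732) * (u - (0)) ^ 1 * ((9/40) - u) ^ 4 + (905401769/629856) * (u - (0)) ^ 2 * ((9/40) - u) ^ 3 + (4339206841/5038848) * (u - (0)) ^ 3 * ((9/40) - u) ^ 2 + (8665320643/40310784) * (u - (0)) ^ 4 * ((9/40) - u) ^ 1 + (3624441077/161243136) * (u - (0)) ^ 5 := by ring
    rw [key]
    have b2 : 0 ≤ (5165200/19683) * ((9/40) - u) ^ 5 + (80971985/78732) * (u - (0)) ^ 1 * ((9/40) - u) ^ 4 + (905401769/629856) * (u - (0)) ^ 2 * ((9/40) - u) ^ 3 + (4339206841/5038848) * (u - (0)) ^ 3 * ((9/40) - u) ^ 2 + (8665320643/40310784) * (u - (0)) ^ 4 * ((9/40) - u) ^ 1 + (3624441077/161243136) * (u - (0)) ^ 5 := by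
        have e2 : (5165200/19683) * ((9/40) - u) ^ 5 + (80971985/78732) * (u - (0)) ^ 1 * ((9/40) - u) ^ 4 + (905401769/629856) * (u - (0)) ^ 2 * ((9/40) - u) ^ 3 + (4339206841/5038848) * (u - (0)) ^ 3 * ((9/40) - u) ^ 2 + (8665320643/40310784) * (u - (0)) ^ 4 * ((9/40) - u) ^ 1 + (3624441077/161243136) * (u - (0)) ^ 5 = (5165200/19683) * ((9/40) - u) ^ 5 + (80971985/78732) * (u - (0)) * ((9/40) - u) ^ 4 + (905401769/629856) * (u - (0)) ^ 2 * ((9/40) - u) ^ 3 + (4339206841/5038848) * (u - (0)) ^ 3 * ((9/40) - u) ^ 2 + (8665320643/40310784) * (u - (0)) ^ 4 * ((9/40) - u) + (3624441077/161243136) * (u - (0)) ^ 5 := by ring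
        rw [e2]; exact b
    exact b2
  by_cases hc2 : u ≤ (9/20)
  · have hs : 0 ≤ (u - (9/40)) := by linarith [not_le.1 (show ¬ u ≤ (9/40) from hc1)]
    have ht : 0 ≤ ((9/20) - u) := by linarith
    have b := bern5 (3624441077/161243136) (791564099/80621568) (817750177/20155392) (3714335315/10077696) (5359305289/10077696) (1076720791/5038848) (u - (9/40)) ((9/20) - u) (by norm_num) (by norm_num) (by norm_num) (by norm_num) (by norm_num) (by norm_num) hs ht
    have key : (38739/256000) * u ^ 0 + (-1488801/2048000) * u ^ 1 + (-1216213/2048000) * u ^ 2 + (78995/16384) * u ^ 3 + (12453/16384) * u ^ 4 + (-22749/8192) * u ^ 5 =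
        (3624441077/161243136) * ((9/20) - u) ^ 5 + (791564099/80621568) * (u - (9/40)) ^ 1 * ((9/20) - u) ^ 4 + (817750177/20155392) * (u - (9/40)) ^ 2 * ((9/20) - u) ^ 3 + (3714335315/10077696) * (u - (9/40)) ^ 3 * ((9/20) - u) ^ 2 + (5359305289/10077696) * (u - (9/40)) ^ 4 * ((9/20) - u) ^ 1 + (1076720791/5038848) * (u - (9/40)) ^ 5 := by ring
    rw [key]
    have b2 : 0 ≤ (3624441077/161243136) * ((9/20) - u) ^ 5 + (791564099/80621568) * (u - (9/40)) ^ 1 * ((9/20) - u) ^ 4 + (817750177/20155392) * (u - (9/40)) ^ 2 * ((9/20) - u) ^ 3 + (3714335315/10077696) * (u - (9/40)) ^ 3 * ((9/20) - u) ^ 2 + (5359305289/10077696) * (u - (9/40)) ^ 4 * ((9/20) - u) ^ 1 + (1076720791/5038848) * (u - (9/40)) ^ 5 := by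
        have e2 : (3624441077/161243136) * ((9/20) - u) ^ 5 + (791564099/80621568) * (u - (9/40)) ^ 1 * ((9/20) - u) ^ 4 + (817750177/20155392) * (u - (9/40)) ^ 2 * ((9/20) - u) ^ 3 + (3714335315/10077696) * (u - (9/40)) ^ 3 * ((9/20) - u) ^ 2 + (5359305289/10077696) * (u - (9/40)) ^ 4 * ((9/20) - u) ^ 1 + (1076720791/5038848) * (u - (9/40)) ^ 5 = (3624441077/161243136) * ((9/20) - u) ^ 5 + (791564099/80621568) * (u - (9/40)) * ((9/20) - u) ^ 4 + (817750177/20155392) * (u - (9/40)) ^ 2 * ((9/20) - u) ^ 3 + (3714335315/10077696) * (u - (9/40)) ^ 3 * ((9/20) - u) ^ 2 + (5359305289/10077696) * (u - (9/40)) ^ 4 * ((9/20) - u) + (1076720791/5038848) * (u - (9/40)) ^ 5 := by ring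
        rw [e2]; exact b
    exact b2
  have hs : 0 ≤ (u - (9/20)) := by linarith [not_le.1 (show ¬ u ≤ (9/20) from hc2)]
  have ht : 0 ≤ ((27/20) - u) := by linarith
  have b := bern5 (1076720791/5159780352) (16199409197/5159780352) (42261334355/2579890176) (85372818509/2579890176) (115873369139/5159780352) (199118281/5159780352) (u - (9/20)) ((27/20) - u) (by norm_num) (by norm_num) (by norm_num) (by norm_num) (by norm_num) (by norm_num) hs ht
  have key : (38739/256000) * u ^ 0 + (-1488801/2048000) * u ^ 1 + (-1216213/2048000) * u ^ 2 + (78995/16384) * u ^ 3 + (12453/16384) * u ^ 4 + (-22749/8192) * u ^ 5 =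
        (1076720791/5159780352) * ((27/20) - u) ^ 5 + (16199409197/5159780352) * (u - (9/20)) ^ 1 * ((27/20) - u) ^ 4 + (42261334355/2579890176) * (u - (9/20)) ^ 2 * ((27/20) - u) ^ 3 + (85372818509/2579890176) * (u - (9/20)) ^ 3 * ((27/20) - u) ^ 2 + (115873369139/5159780352) * (u - (9/20)) ^ 4 * ((27/20) - u) ^ 1 + (199118281/5159780352) * (u - (9/20)) ^ 5 := by ring
  rw [key]
  have b2 : 0 ≤ (1076720791/5159780352) * ((27/20) - u) ^ 5 + (16199409197/5159780352) * (u - (9/20)) ^ 1 * ((27/20) - u) ^ 4 + (42261334355/2579890176) * (u - (9/20)) ^ 2 * ((27/20) - u) ^ 3 + (85372818509/2579890176) * (u - (9/20)) ^ 3 * ((27/20) - u) ^ 2 + (115873369139/5159780352) * (u - (9/20)) ^ 4 * ((27/20) - u) ^ 1 + (199118281/5159780352) * (u - (9/20)) ^ 5 := by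
        have e2 : (1076720791/5159780352) * ((27/20) - u) ^ 5 + (16199409197/5159780352) * (u - (9/20)) ^ 1 * ((27/20) - u) ^ 4 + (42261334355/2579890176) * (u - (9/20)) ^ 2 * ((27/20) - u) ^ 3 + (85372818509/2579890176) * (u - (9/20)) ^ 3 * ((27/20) - u) ^ 2 + (115873369139/5159780352) * (u - (9/20)) ^ 4 * ((27/20) - u) ^ 1 + (199118281/5159780352) * (u - (9/20)) ^ 5 = (1076720791/5159780352) * ((27/20) - u) ^ 5 + (16199409197/5159780352) * (u - (9/20)) * ((27/20) - u) ^ 4 + (42261334355/2579890176) * (u - (9/20)) ^ 2 * ((27/20) - u) ^ 3 + (85372818509/2579890176) * (u - (9/20)) ^ 3 * ((27/20) - u) ^ 2 + (115873369139/5159780352) * (u - (9/20)) ^ 4 * ((27/20) - u) + (199118281/5159780352) * (u - (9/20)) ^ 5 := by ring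
        rw [e2]; exact b
  exact b2

private theorem a3p_nonneg (u : ℝ) (hl : -(9/20) ≤ u) (hr : u ≤ 27/20) :
    0 ≤ (3767/2000) * (1 + u) ^ 3 + ((6 + 8 * u + 3 * u ^ 2) - (1 + u) ^ 3 * S3 u) := by
  have e : (3767/2000) * (1 + u) ^ 3 + ((6 + 8 * u + 3 * u ^ 2) - (1 + u) ^ 3 * S3 u) =
      (197551/256000) * u ^ 0 + (2091403/256000) * u ^ 1 + (51368099/2048000) * u ^ 2 + (26513033/2048000) * u ^ 3 + (-221755/16384) * u ^ 4 + (-160505/16384) * u ^ 5 := by
    simp only [S3]; ring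
  rw [e]
  by_cases hc0 : u ≤ (-9/40)
  · have hs : 0 ≤ (u - (-9/20)) := by linarith
    have ht : 0 ≤ ((-9/40) - u) := by linarith
    have b := bern5 (162681673993/151165440) (1200389369281/302330880) (1550243662061/302330880) (322545185309/120932352) (1185333458573/2418647040) (224953458317/4837294080) (u - (-9/20)) ((-9/40) - u) (by norm_num) (by norm_num) (by norm_num) (by norm_num) (by norm_num) (by norm_num) hs ht
    have key : (197551/256000) * u ^ 0 + (2091403/256000) * u ^ 1 + (51368099/2048000) * u ^ 2 + (26513033/2048000) * u ^ 3 + (-221755/16384) * u ^ 4 + (-160505/16384) * u ^ 5 =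
        (162681673993/151165440) * ((-9/40) - u) ^ 5 + (1200389369281/302330880) * (u - (-9/20)) ^ 1 * ((-9/40) - u) ^ 4 + (1550243662061/302330880) * (u - (-9/20)) ^ 2 * ((-9/40) - u) ^ 3 + (322545185309/120932352) * (u - (-9/20)) ^ 3 * ((-9/40) - u) ^ 2 + (1185333458573/2418647040) * (u - (-9/20)) ^ 4 * ((-9/40) - u) ^ 1 + (224953458317/4837294080) * (u - (-9/20)) ^ 5 := by ring
    rw [key]
    have b2 : 0 ≤ (162681673993/151165440) * ((-9/40) - u) ^ 5 + (1200389369281/302330880) * (u - (-9/20)) ^ 1 * ((-9/40) - u) ^ 4 + (1550243662061/302330880) * (u - (-9/20)) ^ 2 * ((-9/40) - u) ^ 3 + (322545185309/120932352) * (u - (-9/20)) ^ 3 * ((-9/40) - u) ^ 2 + (1185333458573/2418647040) * (u - (-9/20)) ^ 4 * ((-9/40) - u) ^ 1 + (224953458317/4837294080) * (u - (-9/20)) ^ 5 := by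
        have e2 : (162681673993/151165440) * ((-9/40) - u) ^ 5 + (1200389369281/302330880) * (u - (-9/20)) ^ 1 * ((-9/40) - u) ^ 4 + (1550243662061/302330880) * (u - (-9/20)) ^ 2 * ((-9/40) - u) ^ 3 + (322545185309/120932352) * (u - (-9/20)) ^ 3 * ((-9/40) - u) ^ 2 + (1185333458573/2418647040) * (u - (-9/20)) ^ 4 * ((-9/40) - u) ^ 1 + (224953458317/4837294080) * (u - (-9/20)) ^ 5 = (162681673993/151165440) * ((-9/40) - u) ^ 5 + (1200389369281/302330880) * (u - (-9/20)) * ((-9/40) - u) ^ 4 + (1550243662061/302330880) * (u - (-9/20)) ^ 2 * ((-9/40) - u) ^ 3 + (322545185309/120932352) * (u - (-9/20)) ^ 3 * ((-9/40) - u) ^ 2 + (1185333458573/2418647040) * (u - (-9/20)) ^ 4 * ((-9/40) - u) + (224953458317/4837294080) * (u - (-9/20)) ^ 5 := by ring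
        rw [e2]; exact b
    exact b2
  by_cases hc1 : u ≤ (-9/80)
  · have hs : 0 ≤ (u - (-9/40)) := by linarith [not_le.1 (show ¬ u ≤ (-9/40) from hc0)]
    have ht : 0 ≤ ((-9/80) - u) := by linarith
    have b := bern5 (224953458317/151165440) (1003634957609/302330880) (2349807827569/302330880) (2403378833797/120932352) (53805762050977/2418647040) (40166259036853/4837294080) (u - (-9/40)) ((-9/80) - u) (by norm_num) (by norm_num) (by norm_num) (by norm_num) (by norm_num) (by norm_num) hs ht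
    have key : (197551/256000) * u ^ 0 + (2091403/256000) * u ^ 1 + (51368099/2048000) * u ^ 2 + (26513033/2048000) * u ^ 3 + (-221755/16384) * u ^ 4 + (-160505/16384) * u ^ 5 =
        (224953458317/151165440) * ((-9/80) - u) ^ 5 + (1003634957609/302330880) * (u - (-9/40)) ^ 1 * ((-9/80) - u) ^ 4 + (2349807827569/302330880) * (u - (-9/40)) ^ 2 * ((-9/80) - u) ^ 3 + (2403378833797/120932352) * (u - (-9/40)) ^ 3 * ((-9/80) - u) ^ 2 + (53805762050977/2418647040) * (u - (-9/40)) ^ 4 * ((-9/80) - u) ^ 1 + (40166259036853/4837294080) * (u - (-9/40)) ^ 5 := by ring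
    rw [key]
    have b2 : 0 ≤ (224953458317/151165440) * ((-9/80) - u) ^ 5 + (1003634957609/302330880) * (u - (-9/40)) ^ 1 * ((-9/80) - u) ^ 4 + (2349807827569/302330880) * (u - (-9/40)) ^ 2 * ((-9/80) - u) ^ 3 + (2403378833797/120932352) * (u - (-9/40)) ^ 3 * ((-9/80) - u) ^ 2 + (53805762050977/2418647040) * (u - (-9/40)) ^ 4 * ((-9/80) - u) ^ 1 + (40166259036853/4837294080) * (u - (-9/40)) ^ 5 := by
        have e2 : (224953458317/151165440) * ((-9/80) - u) ^ 5 + (1003634957609/302330880) * (u - (-9/40)) ^ 1 * ((-9/80) - u) ^ 4 + (2349807827569/302330880) * (u - (-9/40)) ^ 2 * ((-9/80) - u) ^ 3 + (2403378833797/120932352) * (u - (-9/40)) ^ 3 * ((-9/80) - u) ^ 2 + (53805762050977/2418647040) * (u - (-9/40)) ^ 4 * ((-9/80) - u) ^ 1 + (40166259036853/4837294080) * (u - (-9/40)) ^ 5 = (224953458317/151165440) * ((-9/80) - u) ^ 5 + (1003634957609/302330880) * (u - (-9/40)) * ((-9/80) - u) ^ 4 + (2349807827569/302330880) * (u - (-9/40)) ^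 2 * ((-9/80) - u) ^ 3 + (2403378833797/120932352) * (u - (-9/40)) ^ 3 * ((-9/80) - u) ^ 2 + (53805762050977/2418647040) * (u - (-9/40)) ^ 4 * ((-9/80) - u) + (40166259036853/4837294080) * (u - (-9/40)) ^ 5 := by ring
        rw [e2]; exact b
    exact b2
  by_cases hc2 : u ≤ (0)
  · have hs : 0 ≤ (u - (-9/80)) := by linarith [not_le.1 (show ¬ u ≤ (-9/80) from hc1)]
    have ht : 0 ≤ ((0) - u) := by linarith
    have b := bern5 (40166259036853/4837294080) (18378191641661/302330880) (3288645789103/18895680) (57121002899/236196) (9631643680/59049) (2528652800/59049) (u - (-9/80)) ((0) - u) (by norm_num) (by norm_num) (by norm_num) (by norm_num) (by norm_num) (by norm_num) hs ht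
    have key : (197551/256000) * u ^ 0 + (2091403/256000) * u ^ 1 + (51368099/2048000) * u ^ 2 + (26513033/2048000) * u ^ 3 + (-221755/16384) * u ^ 4 + (-160505/16384) * u ^ 5 =
        (40166259036853/4837294080) * ((0) - u) ^ 5 + (18378191641661/302330880) * (u - (-9/80)) ^ 1 * ((0) - u) ^ 4 + (3288645789103/18895680) * (u - (-9/80)) ^ 2 * ((0) - u) ^ 3 + (57121002899/236196) * (u - (-9/80)) ^ 3 * ((0) - u) ^ 2 + (9631643680/59049) * (u - (-9/80)) ^ 4 * ((0) - u) ^ 1 + (2528652800/59049) * (u - (-9/80)) ^ 5 := by ring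
    rw [key]
    have b2 : 0 ≤ (40166259036853/4837294080) * ((0) - u) ^ 5 + (18378191641661/302330880) * (u - (-9/80)) ^ 1 * ((0) - u) ^ 4 + (3288645789103/18895680) * (u - (-9/80)) ^ 2 * ((0) - u) ^ 3 + (57121002899/236196) * (u - (-9/80)) ^ 3 * ((0) - u) ^ 2 + (9631643680/59049) * (u - (-9/80)) ^ 4 * ((0) - u) ^ 1 + (2528652800/59049) * (u - (-9/80)) ^ 5 := by
        have e2 : (40166259036853/4837294080) * ((0) - u) ^ 5 + (18378191641661/302330880) * (u - (-9/80)) ^ 1 * ((0) - u) ^ 4 + (3288645789103/18895680) * (u - (-9/80)) ^ 2 * ((0) - u) ^ 3 + (57121002899/236196) * (u - (-9/80)) ^ 3 * ((0) - u) ^ 2 + (9631643680/59049) * (u - (-9/80)) ^ 4 * ((0) - u) ^ 1 + (2528652800/59049) * (u - (-9/80)) ^ 5 = (40166259036853/4837294080) * ((0) - u) ^ 5 + (18378191641661/302330880) * (u - (-9/80)) * ((0) - u) ^ 4 + (3288645789103/18895680) * (u - (-9/80)) ^ 2 * ((0) - u) ^ 3 + (57121002899/236196) * (u - (-9/80)) ^ 3 * ((0) - u) ^ 2 + (9631643680/59049)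 * (u - (-9/80)) ^ 4 * ((0) - u) + (2528652800/59049) * (u - (-9/80)) ^ 5 := by ring
        rw [e2]; exact b
    exact b2
  by_cases hc3 : u ≤ (9/20)
  · have hs : 0 ≤ (u - (0)) := by linarith [not_le.1 (show ¬ u ≤ (0) from hc2)]
    have ht : 0 ≤ ((9/20) - u) := by linarith
    have b := bern5 (4938775/118098) (192888635/472392) (22528929299/15116544) (756804040597/302330880) (2333430271541/1209323520) (2613838115167/4837294080) (u - (0)) ((9/20) - u) (by norm_num) (by norm_num) (by norm_num) (by norm_num) (by norm_num) (by norm_num) hs ht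
    have key : (197551/256000) * u ^ 0 + (2091403/256000) * u ^ 1 + (51368099/2048000) * u ^ 2 + (26513033/2048000) * u ^ 3 + (-221755/16384) * u ^ 4 + (-160505/16384) * u ^ 5 =
        (4938775/118098) * ((9/20) - u) ^ 5 + (192888635/472392) * (u - (0)) ^ 1 * ((9/20) - u) ^ 4 + (22528929299/15116544) * (u - (0)) ^ 2 * ((9/20) - u) ^ 3 + (756804040597/302330880) * (u - (0)) ^ 3 * ((9/20) - u) ^ 2 + (2333430271541/1209323520) * (u - (0)) ^ 4 * ((9/20) - u) ^ 1 + (2613838115167/4837294080) * (u - (0)) ^ 5 := by ring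
    rw [key]
    have b2 : 0 ≤ (4938775/118098) * ((9/20) - u) ^ 5 + (192888635/472392) * (u - (0)) ^ 1 * ((9/20) - u) ^ 4 + (22528929299/15116544) * (u - (0)) ^ 2 * ((9/20) - u) ^ 3 + (756804040597/302330880) * (u - (0)) ^ 3 * ((9/20) - u) ^ 2 + (2333430271541/1209323520) * (u - (0)) ^ 4 * ((9/20) - u) ^ 1 + (2613838115167/4837294080) * (u - (0)) ^ 5 := by
        have e2 : (4938775/118098) * ((9/20) - u) ^ 5 + (192888635/472392) * (u - (0)) ^ 1 * ((9/20) - u) ^ 4 + (22528929299/15116544) * (u - (0)) ^ 2 * ((9/20) - u) ^ 3 + (756804040597/302330880) * (u - (0)) ^ 3 * ((9/20) - u) ^ 2 + (2333430271541/1209323520) * (u - (0)) ^ 4 * ((9/20) - u) ^ 1 + (2613838115167/4837294080) * (u - (0)) ^ 5 = (4938775/118098) * ((9/20) - u) ^ 5 + (192888635/472392) * (u - (0)) * ((9/20) - u) ^ 4 + (22528929299/15116544) * (u - (0)) ^ 2 * ((9/20) - u) ^ 3 + (756804040597/302330880) * (u - (0)) ^ 3 * ((9/20) - u) ^ 2 + (2333430271541/1209323520) * (u - (0))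 ^ 4 * ((9/20) - u) + (2613838115167/4837294080) * (u - (0)) ^ 5 := by ring
        rw [e2]; exact b
    exact b2
  have hs : 0 ≤ (u - (9/20)) := by linarith [not_le.1 (show ¬ u ≤ (9/20) from hc3)]
  have ht : 0 ≤ ((27/20) - u) := by linarith
  have b := bern5 (2613838115167/154793410560) (20540129555177/154793410560) (29835791447651/77396705280) (7593948216781/15479341056) (35836584108587/154793410560) (125967836869/154793410560) (u - (9/20)) ((27/20) - u) (by norm_num) (by norm_num) (by norm_num) (by norm_num) (by norm_num) (by norm_num) hs ht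
  have key : (197551/256000) * u ^ 0 + (2091403/256000) * u ^ 1 + (51368099/2048000) * u ^ 2 + (26513033/2048000) * u ^ 3 + (-221755/16384) * u ^ 4 + (-160505/16384) * u ^ 5 =
        (2613838115167/154793410560) * ((27/20) - u) ^ 5 + (20540129555177/154793410560) * (u - (9/20)) ^ 1 * ((27/20) - u) ^ 4 + (29835791447651/77396705280) * (u - (9/20)) ^ 2 * ((27/20) - u) ^ 3 + (7593948216781/15479341056) * (u - (9/20)) ^ 3 * ((27/20) - u) ^ 2 + (35836584108587/154793410560) * (u - (9/20)) ^ 4 * ((27/20) - u) ^ 1 + (125967836869/154793410560) * (u - (9/20)) ^ 5 := by ring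
  rw [key]
  have b2 : 0 ≤ (2613838115167/154793410560) * ((27/20) - u) ^ 5 + (20540129555177/154793410560) * (u - (9/20)) ^ 1 * ((27/20) - u) ^ 4 + (29835791447651/77396705280) * (u - (9/20)) ^ 2 * ((27/20) - u) ^ 3 + (7593948216781/15479341056) * (u - (9/20)) ^ 3 * ((27/20) - u) ^ 2 + (35836584108587/154793410560) * (u - (9/20)) ^ 4 * ((27/20) - u) ^ 1 + (125967836869/154793410560) * (u - (9/20)) ^ 5 := by
        have e2 : (2613838115167/154793410560) * ((27/20) - u) ^ 5 + (20540129555177/154793410560) * (u - (9/20)) ^ 1 * ((27/20) - u) ^ 4 + (29835791447651/77396705280) * (u - (9/20)) ^ 2 * ((27/20) - u) ^ 3 + (7593948216781/15479341056) * (u - (9/20)) ^ 3 * ((27/20) - u) ^ 2 + (35836584108587/154793410560) * (u - (9/20)) ^ 4 * ((27/20) - u) ^ 1 + (125967836869/154793410560) * (u - (9/20)) ^ 5 = (2613838115167/154793410560) * ((27/20) - u) ^ 5 + (20540129555177/154793410560) * (u - (9/20)) * ((27/20) - u) ^ 4 + (29835791447651/77396705280)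 * (u - (9/20)) ^ 2 * ((27/20) - u) ^ 3 + (7593948216781/15479341056) * (u - (9/20)) ^ 3 * ((27/20) - u) ^ 2 + (35836584108587/154793410560) * (u - (9/20)) ^ 4 * ((27/20) - u) + (125967836869/154793410560) * (u - (9/20)) ^ 5 := by ring
        rw [e2]; exact b
  exact b2

private theorem a3m_nonneg (u : ℝ) (hl : -(9/20) ≤ u) (hr : u ≤ 27/20) :
    0 ≤ (3767/2000) * (1 + u) ^ 3 - ((6 + 8 * u + 3 * u ^ 2) - (1 + u) ^ 3 * S3 u) := by
  have e : (3767/2000) * (1 + u) ^ 3 - ((6 + 8 * u + 3 * u ^ 2) - (1 + u) ^ 3 * S3 u) =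
      (766801/256000) * u ^ 0 + (801653/256000) * u ^ 1 + (-28223651/2048000) * u ^ 2 + (-18798217/2048000) * u ^ 3 + (221755/16384) * u ^ 4 + (160505/16384) * u ^ 5 := by
    simp only [S3]; ring
  rw [e]
  by_cases hc0 : u ≤ (9/20)
  · have hs : 0 ≤ (u - (-9/20)) := by linarith
    have ht : 0 ≤ ((9/20) - u) := by linarith
    have b := bern5 (1613047543/154793410560) (1667457702917/154793410560) (3977466010307/77396705280) (5628677208533/77396705280) (3848509736243/154793410560) (396668243617/154793410560) (u - (-9/20)) ((9/20) - u) (by norm_num) (by norm_num) (by norm_num) (by norm_num) (by norm_num) (by norm_num) hs ht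
    have key : (766801/256000) * u ^ 0 + (801653/256000) * u ^ 1 + (-28223651/2048000) * u ^ 2 + (-18798217/2048000) * u ^ 3 + (221755/16384) * u ^ 4 + (160505/16384) * u ^ 5 =
        (1613047543/154793410560) * ((9/20) - u) ^ 5 + (1667457702917/154793410560) * (u - (-9/20)) ^ 1 * ((9/20) - u) ^ 4 + (3977466010307/77396705280) * (u - (-9/20)) ^ 2 * ((9/20) - u) ^ 3 + (5628677208533/77396705280) * (u - (-9/20)) ^ 3 * ((9/20) - u) ^ 2 + (3848509736243/154793410560) * (u - (-9/20)) ^ 4 * ((9/20) - u) ^ 1 + (396668243617/154793410560) * (u - (-9/20)) ^ 5 := by ring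
    rw [key]
    have b2 : 0 ≤ (1613047543/154793410560) * ((9/20) - u) ^ 5 + (1667457702917/154793410560) * (u - (-9/20)) ^ 1 * ((9/20) - u) ^ 4 + (3977466010307/77396705280) * (u - (-9/20)) ^ 2 * ((9/20) - u) ^ 3 + (5628677208533/77396705280) * (u - (-9/20)) ^ 3 * ((9/20) - u) ^ 2 + (3848509736243/154793410560) * (u - (-9/20)) ^ 4 * ((9/20) - u) ^ 1 + (396668243617/154793410560) * (u - (-9/20)) ^ 5 := by
        have e2 : (1613047543/154793410560) * ((9/20) - u) ^ 5 + (1667457702917/154793410560) * (u - (-9/20)) ^ 1 * ((9/20) - u) ^ 4 + (3977466010307/77396705280) * (u - (-9/20)) ^ 2 * ((9/20) - u) ^ 3 + (5628677208533/77396705280) * (u - (-9/20)) ^ 3 * ((9/20) - u) ^ 2 + (3848509736243/154793410560) * (u - (-9/20)) ^ 4 * ((9/20) - u) ^ 1 + (396668243617/154793410560) * (u - (-9/20)) ^ 5 = (1613047543/154793410560) * ((9/20) - u) ^ 5 + (1667457702917/154793410560) * (u - (-9/20)) * ((9/20) - u) ^ 4 + (3977466010307/77396705280) * (u -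 (-9/20)) ^ 2 * ((9/20) - u) ^ 3 + (5628677208533/77396705280) * (u - (-9/20)) ^ 3 * ((9/20) - u) ^ 2 + (3848509736243/154793410560) * (u - (-9/20)) ^ 4 * ((9/20) - u) + (396668243617/154793410560) * (u - (-9/20)) ^ 5 := by ring
        rw [e2]; exact b
    exact b2
  by_cases hc1 : u ≤ (27/40)
  · have hs : 0 ≤ (u - (9/20)) := by linarith [not_le.1 (show ¬ u ≤ (9/20) from hc0)]
    have ht : 0 ≤ ((27/40) - u) := by linarith
    have b := bern5 (396668243617/151165440) (3034098177091/302330880) (4181777574557/302330880) (4966514270011/604661760) (5109569497397/2418647040) (1590667288631/4837294080) (u - (9/20)) ((27/40) - u) (by norm_num) (by norm_num) (by norm_num) (by norm_num) (by norm_num) (by norm_num) hs ht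
    have key : (766801/256000) * u ^ 0 + (801653/256000) * u ^ 1 + (-28223651/2048000) * u ^ 2 + (-18798217/2048000) * u ^ 3 + (221755/16384) * u ^ 4 + (160505/16384) * u ^ 5 =
        (396668243617/151165440) * ((27/40) - u) ^ 5 + (3034098177091/302330880) * (u - (9/20)) ^ 1 * ((27/40) - u) ^ 4 + (4181777574557/302330880) * (u - (9/20)) ^ 2 * ((27/40) - u) ^ 3 + (4966514270011/604661760) * (u - (9/20)) ^ 3 * ((27/40) - u) ^ 2 + (5109569497397/2418647040) * (u - (9/20)) ^ 4 * ((27/40) - u) ^ 1 + (1590667288631/4837294080) * (u - (9/20)) ^ 5 := by ring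
    rw [key]
    have b2 : 0 ≤ (396668243617/151165440) * ((27/40) - u) ^ 5 + (3034098177091/302330880) * (u - (9/20)) ^ 1 * ((27/40) - u) ^ 4 + (4181777574557/302330880) * (u - (9/20)) ^ 2 * ((27/40) - u) ^ 3 + (4966514270011/604661760) * (u - (9/20)) ^ 3 * ((27/40) - u) ^ 2 + (5109569497397/2418647040) * (u - (9/20)) ^ 4 * ((27/40) - u) ^ 1 + (1590667288631/4837294080) * (u - (9/20)) ^ 5 := by
        have e2 : (396668243617/151165440) * ((27/40) - u) ^ 5 + (3034098177091/302330880) * (u - (9/20)) ^ 1 * ((27/40) - u) ^ 4 + (4181777574557/302330880) * (u - (9/20)) ^ 2 * ((27/40) - u) ^ 3 + (4966514270011/604661760) * (u - (9/20)) ^ 3 * ((27/40) - u) ^ 2 + (5109569497397/2418647040) * (u - (9/20)) ^ 4 * ((27/40) - u) ^ 1 + (1590667288631/4837294080) * (u - (9/20)) ^ 5 = (396668243617/151165440) * ((27/40) - u) ^ 5 + (3034098177091/302330880) * (u - (9/20)) * ((27/40) - u) ^ 4 + (4181777574557/302330880) * (u - (9/20)) ^ 2 * ((27/40) - u)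 ^ 3 + (4966514270011/604661760) * (u - (9/20)) ^ 3 * ((27/40) - u) ^ 2 + (5109569497397/2418647040) * (u - (9/20)) ^ 4 * ((27/40) - u) + (1590667288631/4837294080) * (u - (9/20)) ^ 5 := by ring
        rw [e2]; exact b
    exact b2
  by_cases hc2 : u ≤ (9/10)
  · have hs : 0 ≤ (u - (27/40)) := by linarith [not_le.1 (show ¬ u ≤ (27/40) from hc1)]
    have ht : 0 ≤ ((9/10) - u) := by linarith
    have b := bern5 (1590667288631/4837294080) (1421883472879/1209323520) (675177929593/151165440) (83559829661/7558272) (226320747031/18895680) (21500034863/4723920) (u - (27/40)) ((9/10) - u) (by norm_num) (by norm_num) (by norm_num) (by norm_num) (by norm_num) (by norm_num) hs ht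
    have key : (766801/256000) * u ^ 0 + (801653/256000) * u ^ 1 + (-28223651/2048000) * u ^ 2 + (-18798217/2048000) * u ^ 3 + (221755/16384) * u ^ 4 + (160505/16384) * u ^ 5 =
        (1590667288631/4837294080) * ((9/10) - u) ^ 5 + (1421883472879/1209323520) * (u - (27/40)) ^ 1 * ((9/10) - u) ^ 4 + (675177929593/151165440) * (u - (27/40)) ^ 2 * ((9/10) - u) ^ 3 + (83559829661/7558272) * (u - (27/40)) ^ 3 * ((9/10) - u) ^ 2 + (226320747031/18895680) * (u - (27/40)) ^ 4 * ((9/10) - u) ^ 1 + (21500034863/4723920) * (u - (27/40)) ^ 5 := by ring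
    rw [key]
    have b2 : 0 ≤ (1590667288631/4837294080) * ((9/10) - u) ^ 5 + (1421883472879/1209323520) * (u - (27/40)) ^ 1 * ((9/10) - u) ^ 4 + (675177929593/151165440) * (u - (27/40)) ^ 2 * ((9/10) - u) ^ 3 + (83559829661/7558272) * (u - (27/40)) ^ 3 * ((9/10) - u) ^ 2 + (226320747031/18895680) * (u - (27/40)) ^ 4 * ((9/10) - u) ^ 1 + (21500034863/4723920) * (u - (27/40)) ^ 5 := by
        have e2 : (1590667288631/4837294080) * ((9/10) - u) ^ 5 + (1421883472879/1209323520) * (u - (27/40)) ^ 1 * ((9/10) - u) ^ 4 + (675177929593/151165440) * (u - (27/40)) ^ 2 * ((9/10) - u) ^ 3 + (83559829661/7558272) * (u - (27/40)) ^ 3 * ((9/10) - u) ^ 2 + (226320747031/18895680) * (u - (27/40)) ^ 4 * ((9/10) - u) ^ 1 + (21500034863/4723920) * (u - (27/40)) ^ 5 = (1590667288631/4837294080) * ((9/10) - u) ^ 5 + (1421883472879/1209323520) * (u - (27/40)) * ((9/10) - u) ^ 4 + (675177929593/151165440) * (u - (27/40)) ^ 2 * ((9/10) - u) ^ 3 + (83559829661/7558272)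 * (u - (27/40)) ^ 3 * ((9/10) - u) ^ 2 + (226320747031/18895680) * (u - (27/40)) ^ 4 * ((9/10) - u) + (21500034863/4723920) * (u - (27/40)) ^ 5 := by ring
        rw [e2]; exact b
    exact b2
  have hs : 0 ≤ (u - (9/10)) := by linarith [not_le.1 (show ¬ u ≤ (9/10) from hc2)]
  have ht : 0 ≤ ((27/20) - u) := by linarith
  have b := bern5 (21500034863/151165440) (418680298859/302330880) (1571956459273/302330880) (5622603712589/604661760) (19241329673983/2418647040) (12689637628219/4837294080) (u - (9/10)) ((27/20) - u) (by norm_num) (by norm_num) (by norm_num) (by norm_num) (by norm_num) (by norm_num) hs ht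
  have key : (766801/256000) * u ^ 0 + (801653/256000) * u ^ 1 + (-28223651/2048000) * u ^ 2 + (-18798217/2048000) * u ^ 3 + (221755/16384) * u ^ 4 + (160505/16384) * u ^ 5 =
        (21500034863/151165440) * ((27/20) - u) ^ 5 + (418680298859/302330880) * (u - (9/10)) ^ 1 * ((27/20) - u) ^ 4 + (1571956459273/302330880) * (u - (9/10)) ^ 2 * ((27/20) - u) ^ 3 + (5622603712589/604661760) * (u - (9/10)) ^ 3 * ((27/20) - u) ^ 2 + (19241329673983/2418647040) * (u - (9/10)) ^ 4 * ((27/20) - u) ^ 1 + (12689637628219/4837294080) * (u - (9/10)) ^ 5 := by ring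
  rw [key]
  have b2 : 0 ≤ (21500034863/151165440) * ((27/20) - u) ^ 5 + (418680298859/302330880) * (u - (9/10)) ^ 1 * ((27/20) - u) ^ 4 + (1571956459273/302330880) * (u - (9/10)) ^ 2 * ((27/20) - u) ^ 3 + (5622603712589/604661760) * (u - (9/10)) ^ 3 * ((27/20) - u) ^ 2 + (19241329673983/2418647040) * (u - (9/10)) ^ 4 * ((27/20) - u) ^ 1 + (12689637628219/4837294080) * (u - (9/10)) ^ 5 := by
        have e2 : (21500034863/151165440) * ((27/20) - u) ^ 5 + (418680298859/302330880) * (u - (9/10)) ^ 1 * ((27/20) - u) ^ 4 + (1571956459273/302330880) * (u - (9/10)) ^ 2 * ((27/20) - u) ^ 3 + (5622603712589/604661760) * (u - (9/10)) ^ 3 * ((27/20) - u) ^ 2 + (19241329673983/2418647040) * (u - (9/10)) ^ 4 * ((27/20) - u) ^ 1 + (12689637628219/4837294080) * (u - (9/10)) ^ 5 = (21500034863/151165440) * ((27/20) - u) ^ 5 + (418680298859/302330880) * (u - (9/10)) * ((27/20) - u) ^ 4 + (1571956459273/302330880) * (u - (9/10)) ^ 2 * ((27/20) - u) ^ 3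 + (5622603712589/604661760) * (u - (9/10)) ^ 3 * ((27/20) - u) ^ 2 + (19241329673983/2418647040) * (u - (9/10)) ^ 4 * ((27/20) - u) + (12689637628219/4837294080) * (u - (9/10)) ^ 5 := by ring
        rw [e2]; exact b
  exact b2

/-- Approximation of the powers of `(1+u)⁻¹`. -/
theorem apx1 (u : ℝ) (h1 : -Lam ≤ u) (h2 : u ≤ 3 * Lam) : |(1 + u)⁻¹ - R1 u| ≤ eta1 * u ^ 2 := by
  simp only [Lam] at h1 h2
  have hl : -(9/20) ≤ u := by linarith
  have hr : u ≤ 27/20 := by linarith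
  have hD : 0 < 1 + u := by linarith
  have hne : 1 + u ≠ 0 := hD.ne'
  have p := a1p_nonneg u hl hr
  have m := a1m_nonneg u hl hr
  have hS : |(1 + u)⁻¹ - S1 u| ≤ 3/100 := by
    have e : (1 + u)⁻¹ - S1 u = (1 + u)⁻¹ * (1 - (1 + u) * S1 u) := by
      field_simp
    have hi : 0 < (1 + u)⁻¹ := inv_pos.2 hD
    rw [e, abs_mul, abs_of_pos hi, inv_mul_le_iff₀ hD, abs_le]
    constructor <;> linarith
  have e2 : (1 + u)⁻¹ - R1 u = u ^ 2 * ((1 + u)⁻¹ - S1 u) := by
    simp only [R1]; field_simp; ring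
  rw [e2, abs_mul, abs_of_nonneg (sq_nonneg u), mul_comm]
  exact mul_le_mul_of_nonneg_right hS (sq_nonneg u)

theorem apx2 (u : ℝ) (h1 : -Lam ≤ u) (h2 : u ≤ 3 * Lam) : |((1 + u)⁻¹) ^ 2 - R2 u| ≤ eta2 * u ^ 2 := by
  simp only [Lam] at h1 h2
  have hl : -(9/20) ≤ u := by linarith
  have hr : u ≤ 27/20 := by linarith
  have hD : 0 < 1 + u := by linarith
  have hne : 1 + u ≠ 0 := hD.ne'
  have p := a2p_nonneg u hl hr
  have m := a2m_nonneg u hl hr
  have hS : |(3 + 2 * u) * ((1 + u)⁻¹) ^ 2 - S2 u| ≤ 413/2000 := by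
    have e : (3 + 2 * u) * ((1 + u)⁻¹) ^ 2 - S2 u
        = ((1 + u) ^ 2)⁻¹ * ((3 + 2 * u) - (1 + u) ^ 2 * S2 u) := by
      field_simp
    have hD2 : 0 < (1 + u) ^ 2 := by positivity
    have hi : 0 < ((1 + u) ^ 2)⁻¹ := inv_pos.2 hD2
    rw [e, abs_mul, abs_of_pos hi, inv_mul_le_iff₀ hD2, abs_le]
    constructor <;> linarith
  have e2 : ((1 + u)⁻¹) ^ 2 - R2 u = u ^ 2 * ((3 + 2 * u) * ((1 + u)⁻¹) ^ 2 - S2 u) := by
    simp only [R2]; field_simp; ring
  rw [e2, abs_mul, abs_of_nonneg (sq_nonneg u), mul_comm]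
  exact mul_le_mul_of_nonneg_right hS (sq_nonneg u)

theorem apx3 (u : ℝ) (h1 : -Lam ≤ u) (h2 : u ≤ 3 * Lam) : |((1 + u)⁻¹) ^ 3 - R3 u| ≤ eta3 * u ^ 2 := by
  simp only [Lam] at h1 h2
  have hl : -(9/20) ≤ u := by linarith
  have hr : u ≤ 27/20 := by linarith
  have hD : 0 < 1 + u := by linarith
  have hne : 1 + u ≠ 0 := hD.ne'
  have p := a3p_nonneg u hl hr
  have m := a3m_nonneg u hl hr
  have hS : |(6 + 8 * u + 3 * u ^ 2) * ((1 + u)⁻¹) ^ 3 - S3 u| ≤ 3767/2000 := by
    have e : (6 + 8 * u + 3 * u ^ 2) * ((1 + u)⁻¹) ^ 3 - S3 u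
        = ((1 + u) ^ 3)⁻¹ * ((6 + 8 * u + 3 * u ^ 2) - (1 + u) ^ 3 * S3 u) := by
      field_simp
    have hD2 : 0 < (1 + u) ^ 3 := by positivity
    have hi : 0 < ((1 + u) ^ 3)⁻¹ := inv_pos.2 hD2
    rw [e, abs_mul, abs_of_pos hi, inv_mul_le_iff₀ hD2, abs_le]
    constructor <;> linarith
  have e2 : ((1 + u)⁻¹) ^ 3 - R3 u
      = u ^ 2 * ((6 + 8 * u + 3 * u ^ 2) * ((1 + u)⁻¹) ^ 3 - S3 u) := by
    simp only [R3]; field_simp; ring
  rw [e2, abs_mul, abs_of_nonneg (sq_nonneg u), mul_comm]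
  exact mul_le_mul_of_nonneg_right hS (sq_nonneg u)

end Vale.Agent.P154q4.D5
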