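import Vale.Agent.P154q4.TMSound
import Vale.Agent.P154q4.D5.Inp.F0
import Vale.Agent.P154q4.D5.Inp.F1

namespace Vale.Agent.P154q4.D5

open Vale.Agent.P154q4.TMC Vale.Agent.P154q4.TMS Inp

set_option maxRecDepth 1000000 in
theorem covInp : Cov DInp ⟨0, 50331648, 0, 1864136, 0, 5592406⟩ ⟨0, 50331648, 0, 5592406, 0, 5592406⟩ :=
  (Cov_zs _ 0 25165824 _ _ (Cov_zs _ 0 12582912 _ _ (Cov_zs _ 0 6291456 _ _ (Cov_zs _ 0 3145728 _ _ (chkRoot_sound _ _ _ _ c0) (Cov_ys _ 0 25165824 _ _ (chkRoot_sound _ _ _ _ c1) (Cov_zs _ 2 2796203 _ _ (chkRoot_sound _ _ _ _ c2) (Cov_zs _ 0 4718592 _ _ (chkRoot_sound _ _ _ _ c3) (Cov_ys _ 0 37748736 _ _ (chkRoot_sound _ _ _ _ c4) (chkRoot_sound _ _ _ _ c5)))))) (Cov_zs _ 0 9437184 _ _ (Cov_zs _ 2 2796203 _ _ (Cov_zs _ 0 7864320 _ _ (Cov_ys _ 0 25165824 _ _ (chkRoot_sound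 _ _ _ _ c6) (Cov_zs _ 2 1398101 _ _ (chkRoot_sound _ _ _ _ c7) (chkRoot_sound _ _ _ _ c8))) (Cov_ys _ 0 25165824 _ _ (chkRoot_sound _ _ _ _ c9) (Cov_zs _ 2 1398101 _ _ (chkRoot_sound _ _ _ _ c10) (Cov_zs _ 1 932068 _ _ (Cov_ys _ 0 37748736 _ _ (chkRoot_sound _ _ _ _ c11) (chkRoot_sound _ _ _ _ c12)) (chkRoot_sound _ _ _ _ c13))))) (Cov_zs _ 0 7864320 _ _ (Cov_ys _ 0 25165824 _ _ (chkRoot_sound _ _ _ _ c14) (Cov_zs _ 2 4194304 _ _ (Cov_ys _ 0 37748736 _ _ (chkRoot_sound _ _ _ _ c15) (chkRoot_sound _ _ _ _ c16)) (Cov_ys _ 0 37748736 _ _ (chkRoot_sound _ _ _ _ c17) (chkRoot_sound _ _ _ _ c18)))) (Cov_ys _ 0 25165824 _ _ (chkRoot_sound _ _ _ _ c19) (Cov_zs _ 2 4194304 _ _ (chkRoot_sound _ _ _ _ c20) (chkRoot_sound _ _ _ _ c21))))) (Cov_zs _ 2 2796203 _ _ (Cov_zs _ 1 932068 _ _ (Cov_zs _ 2 1398101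 _ _ (Cov_ys _ 0 25165824 _ _ (chkRoot_sound _ _ _ _ c22) (Cov_zs _ 0 11010048 _ _ (chkRoot_sound _ _ _ _ c23) (Cov_zs _ 1 466034 _ _ (Cov_ys _ 0 37748736 _ _ (chkRoot_sound _ _ _ _ c24) (chkRoot_sound _ _ _ _ c25)) (chkRoot_sound _ _ _ _ c26)))) (chkRoot_sound _ _ _ _ c27)) (chkRoot_sound _ _ _ _ c28)) (chkRoot_sound _ _ _ _ c29)))) (Cov_zs _ 0 18874368 _ _ (Cov_zs _ 2 2796203 _ _ (Cov_zs _ 0 15728640 _ _ (Cov_zs _ 1 932068 _ _ (Cov_zs _ 2 1398101 _ _ (Cov_ys _ 0 25165824 _ _ (chkRoot_sound _ _ _ _ c30) (Cov_zs _ 0 14155776 _ _ (chkRoot_sound _ _ _ _ c31) (chkRoot_sound _ _ _ _ c32))) (chkRoot_sound _ _ _ _ c33)) (chkRoot_sound _ _ _ _ c34)) (Cov_zs _ 1 932068 _ _ (Cov_zs _ 2 1398101 _ _ (Cov_ys _ 0 25165824 _ _ (chkRoot_sound _ _ _ _ c35) (chkRoot_sound _ _ _ _ c36)) (chkRoot_sound _ _ _ _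 c37)) (chkRoot_sound _ _ _ _ c38))) (chkRoot_sound _ _ _ _ c39)) (chkRoot_sound _ _ _ _ c40))) (chkRoot_sound _ _ _ _ c41))

end Vale.Agent.P154q4.D5
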