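import Vale.Agent.P154q4.TMSound
import Vale.Agent.P154q4.D5.Mpn.F0
import Vale.Agent.P154q4.D5.Mpn.F1

namespace Vale.Agent.P154q4.D5

open Vale.Agent.P154q4.TMC Vale.Agent.P154q4.TMS Mpn

set_option maxRecDepth 1000000 in
theorem covMpn : Cov DMpn ⟨0, 50331648, 0, 5592406, 0, 5592406⟩ ⟨0, 50331648, 0, 1864136, 0, 5592406⟩ :=
  (Cov_zs _ 0 25165824 _ _ (Cov_zt _ 3954428 _ _ (by decide) (Cov_zs _ 0 12582912 _ _ (chkRoot_sound _ _ _ _ c0) (Cov_zs _ 0 18874368 _ _ (Cov_zt _ 3424635 _ _ (by decide) (Cov_zs _ 2 2796203 _ _ (chkRoot_sound _ _ _ _ c1) (Cov_zs _ 0 15728640 _ _ (Cov_zt _ 3126250 _ _ (by decide) (Cov_zs _ 1 1563125 _ _ (chkRoot_sound _ _ _ _ c2) (Cov_zs _ 2 4194304 _ _ (chkRoot_sound _ _ _ _ c3) (chkRoot_sound _ _ _ _ c4)))) (Cov_zs _ 1 1712317 _ _ (chkRoot_sound _ _ _ _ c5) (Cov_zs _ 2 4194304 _ _ (chkRoot_sound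 _ _ _ _ c6) (Cov_zs _ 0 17301504 _ _ (chkRoot_sound _ _ _ _ c7) (chkRoot_sound _ _ _ _ c8))))))) (Cov_zs _ 2 2796203 _ _ (chkRoot_sound _ _ _ _ c9) (Cov_zs _ 1 1977214 _ _ (chkRoot_sound _ _ _ _ c10) (Cov_zs _ 0 22020096 _ _ (Cov_zt _ 3699029 _ _ (by decide) (Cov_zf _ 2989266 _ _ (by decide) (Cov_zs _ 2 4290836 _ _ (chkRoot_sound _ _ _ _ c11) (Cov_zs _ 1 2838121 _ _ (chkRoot_sound _ _ _ _ c12) (chkRoot_sound _ _ _ _ c13))))) (Cov_zs _ 2 4194304 _ _ (chkRoot_sound _ _ _ _ c14) (Cov_zs _ 1 2965821 _ _ (chkRoot_sound _ _ _ _ c15) (chkRoot_sound _ _ _ _ c16))))))))) (Cov_zs _ 0 37748736 _ _ (Cov_zt _ 4843166 _ _ (by decide) (Cov_zs _ 1 2421583 _ _ (chkRoot_sound _ _ _ _ c17) (Cov_zf _ 2796203 _ _ (by decide) (Cov_zs _ 0 31457280 _ _ (Cov_zt _ 4421185 _ _ (by decide) (Cov_zf _ 3063087 _ _ (by decide) (Cov_zs _ 0 28311552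 _ _ (Cov_zt _ 4194305 _ _ (by decide) (Cov_zf _ 3228777 _ _ (by decide) (Cov_zs _ 2 4410591 _ _ (chkRoot_sound _ _ _ _ c18) (chkRoot_sound _ _ _ _ c19)))) (chkRoot_sound _ _ _ _ c20)))) (chkRoot_sound _ _ _ _ c21))))) (chkRoot_sound _ _ _ _ c22)))

end Vale.Agent.P154q4.D5
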