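import Vale.Agent.P154q4.TM

namespace Vale.Agent.P154q4.D5

noncomputable section

open Vale.Agent.P154q4.TMC MT in
/-- Data of one sign branch. -/
def DMnn : Data :=
  ⟨false, false, 44,
   (p (p (p nil nil) (e (p (p (e nil nil) (t (p nil nil) nil)) nil) nil)) (t (p (p (p nil nil) (t (p nil nil) nil)) nil) nil)),
   (p nil (t (p nil (t nil nil)) (e (p (t nil nil) nil) nil))),
  [[Int.ofNat 187537991040, Int.ofNat 237349336320, Int.negSucc 146892216959, Int.ofNat 0, Int.negSucc 1550213717759, Int.ofNat 293784433920, Int.ofNat 0, Int.ofNat 0, Int.ofNat 0, Int.ofNat 0, Int.negSucc 143327231999, Int.negSucc 1089214179839, Int.ofNat 0, Int.ofNat 0, Int.ofNat 0, Int.ofNat 0],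
  [Int.ofNat 0, Int.negSucc 33379809209, Int.ofNat 66759618420, Int.negSucc 33379809209, Int.ofNat 66759618420, Int.negSucc 233658664469, Int.ofNat 100139427630, Int.ofNat 0, Int.ofNat 267038473680, Int.ofNat 0, Int.ofNat 0, Int.ofNat 0, Int.negSucc 133519236839, Int.ofNat 0, Int.ofNat 300418282890, Int.negSucc 100139427629],
  [Int.ofNat 0, Int.negSucc 297528227999, Int.ofNat 0, Int.ofNat 0, Int.negSucc 1190112911999, Int.ofNat 1190112912000, Int.ofNat 0, Int.ofNat 0, Int.ofNat 0, Int.ofNat 0, Int.ofNat 1338877026000, Int.negSucc 1041348797999, Int.ofNat 1487641140000, Int.ofNat 0, Int.ofNat 7140677472000, Int.ofNat 0],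
  [Int.ofNat 0, Int.ofNat 0, Int.negSucc 24160370741, Int.ofNat 0, Int.ofNat 0, Int.negSucc 48320741483, Int.ofNat 144962224452, Int.negSucc 289924448903, Int.ofNat 990575200422, Int.negSucc 507367785581, Int.ofNat 0, Int.ofNat 120801853710, Int.negSucc 374485746500, Int.ofNat 253683892791, Int.ofNat 289924448904, Int.ofNat 579848897808],
  [Int.ofNat 0, Int.ofNat 0, Int.ofNat 300418282890, Int.negSucc 100139427629, Int.ofNat 0, Int.negSucc 2353276549304, Int.ofNat 1051463990115, Int.ofNat 0, Int.negSucc 11215615894559, Int.ofNat 0, Int.ofNat 0, Int.ofNat 3204461684160, Int.ofNat 1602230842080, Int.ofNat 0, Int.ofNat 17874887831955, Int.negSucc 11566103891264],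
  [Int.ofNat 0, Int.negSucc 881353301759, Int.ofNat 293784433920, Int.ofNat 0, Int.ofNat 3231628773120, Int.negSucc 1468922169599, Int.ofNat 0, Int.ofNat 0, Int.ofNat 0, Int.ofNat 0, Int.ofNat 3525413207040, Int.negSucc 2350275471359, Int.ofNat 0, Int.ofNat 0, Int.ofNat 0, Int.ofNat 0],
  [Int.ofNat 0, Int.ofNat 66759618420, Int.negSucc 233658664469, Int.ofNat 100139427630, Int.negSucc 333798092099, Int.ofNat 1051463990115, Int.negSucc 550766851964, Int.ofNat 0, Int.negSucc 801115421039, Int.ofNat 0, Int.ofNat 0, Int.ofNat 534076947360, Int.negSucc 267038473679, Int.ofNat 0, Int.negSucc 2353276549304, Int.ofNat 1051463990115],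
  [Int.ofNat 0, Int.ofNat 0, Int.ofNat 48320741484, Int.ofNat 0, Int.ofNat 0, Int.negSucc 144962224451, Int.negSucc 289924448903, Int.ofNat 1063056312648, Int.negSucc 3309970791653, Int.ofNat 1860348547134, Int.ofNat 0, Int.ofNat 0, Int.ofNat 990575200422, Int.negSucc 507367785581, Int.negSucc 2029471142327, Int.ofNat 773131863744]],
  false, 2286027170853263769600, 1⟩

end

end Vale.Agent.P154q4.D5
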