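import Vale.Agent.P154q4.TM

namespace Vale.Agent.P154q4.D5

noncomputable section

open Vale.Agent.P154q4.TMC MT in
/-- Data of one sign branch. -/
def DMnp : Data :=
  ⟨false, true, 44,
   (p (p (p nil nil) (e (p (p (e nil nil) (t (p nil nil) nil)) nil) nil)) (t (p (p (p nil nil) (t (p nil nil) nil)) nil) nil)),
   (p nil (t (p nil (t nil nil)) (e (p (t nil nil) nil) nil))),
  [[Int.ofNat 187537991040, Int.ofNat 237349336320, Int.negSucc 146892216959, Int.ofNat 0, Int.negSucc 1550213717759, Int.ofNat 293784433920, Int.ofNat 0, Int.ofNat 0, Int.ofNat 0, Int.ofNat 0, Int.negSucc 143327231999, Int.negSucc 1089214179839, Int.ofNat 0, Int.ofNat 0, Int.ofNat 0, Int.ofNat 0],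
  [Int.ofNat 0, Int.negSucc 33379809209, Int.ofNat 66759618420, Int.negSucc 33379809209, Int.ofNat 66759618420, Int.negSucc 233658664469, Int.ofNat 100139427630, Int.ofNat 0, Int.ofNat 267038473680, Int.ofNat 0, Int.ofNat 0, Int.ofNat 0, Int.negSucc 133519236839, Int.ofNat 0, Int.ofNat 300418282890, Int.negSucc 100139427629],
  [Int.ofNat 0, Int.ofNat 297528228000, Int.ofNat 0, Int.ofNat 0, Int.ofNat 1190112912000, Int.negSucc 1190112911999, Int.ofNat 0, Int.ofNat 0, Int.ofNat 0, Int.ofNat 0, Int.negSucc 1338877025999, Int.ofNat 1041348798000, Int.negSucc 1487641139999, Int.ofNat 0, Int.negSucc 7140677471999, Int.ofNat 0],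
  [Int.ofNat 0, Int.ofNat 0, Int.ofNat 24160370742, Int.ofNat 0, Int.ofNat 0, Int.ofNat 48320741484, Int.negSucc 144962224451, Int.ofNat 289924448904, Int.negSucc 990575200421, Int.ofNat 507367785582, Int.ofNat 0, Int.negSucc 120801853709, Int.ofNat 374485746501, Int.negSucc 253683892790, Int.negSucc 289924448903, Int.negSucc 579848897807],
  [Int.ofNat 0, Int.ofNat 0, Int.ofNat 300418282890, Int.negSucc 100139427629, Int.ofNat 0, Int.negSucc 2353276549304, Int.ofNat 1051463990115, Int.ofNat 0, Int.negSucc 11215615894559, Int.ofNat 0, Int.ofNat 0, Int.ofNat 3204461684160, Int.ofNat 1602230842080, Int.ofNat 0, Int.ofNat 17874887831955, Int.negSucc 11566103891264],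
  [Int.ofNat 0, Int.negSucc 881353301759, Int.ofNat 293784433920, Int.ofNat 0, Int.ofNat 3231628773120, Int.negSucc 1468922169599, Int.ofNat 0, Int.ofNat 0, Int.ofNat 0, Int.ofNat 0, Int.ofNat 3525413207040, Int.negSucc 2350275471359, Int.ofNat 0, Int.ofNat 0, Int.ofNat 0, Int.ofNat 0],
  [Int.ofNat 0, Int.ofNat 66759618420, Int.negSucc 233658664469, Int.ofNat 100139427630, Int.negSucc 333798092099, Int.ofNat 1051463990115, Int.negSucc 550766851964, Int.ofNat 0, Int.negSucc 801115421039, Int.ofNat 0, Int.ofNat 0, Int.ofNat 534076947360, Int.negSucc 267038473679, Int.ofNat 0, Int.negSucc 2353276549304, Int.ofNat 1051463990115],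
  [Int.ofNat 0, Int.ofNat 0, Int.negSucc 48320741483, Int.ofNat 0, Int.ofNat 0, Int.ofNat 144962224452, Int.ofNat 289924448904, Int.negSucc 1063056312647, Int.ofNat 3309970791654, Int.negSucc 1860348547133, Int.ofNat 0, Int.ofNat 0, Int.negSucc 990575200421, Int.ofNat 507367785582, Int.ofNat 2029471142328, Int.negSucc 773131863743]],
  false, 2286027170853263769600, 1⟩

end

end Vale.Agent.P154q4.D5
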