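import Vale.Agent.P154q4.TM

namespace Vale.Agent.P154q4.D5

noncomputable section

open Vale.Agent.P154q4.TMC MT in
/-- Data of one sign branch. -/
def DMpn : Data :=
  ⟨true, false, 44,
   (p (p (p nil nil) (e (p (p (e nil nil) (t (p nil nil) nil)) nil) nil)) (t (p (p (p nil nil) (t (p nil nil) nil)) nil) nil)),
   (p nil (t (p nil (t nil nil)) (e (p (t nil nil) nil) nil))),
  [[Int.ofNat 187537991040, Int.ofNat 237349336320, Int.negSucc 146892216959, Int.ofNat 0, Int.negSucc 1550213717759, Int.ofNat 293784433920, Int.ofNat 0, Int.ofNat 0, Int.ofNat 0, Int.ofNat 0, Int.ofNat 143327232000, Int.ofNat 1089214179840, Int.ofNat 0, Int.ofNat 0, Int.ofNat 0, Int.ofNat 0],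
  [Int.ofNat 0, Int.negSucc 33379809209, Int.ofNat 66759618420, Int.negSucc 33379809209, Int.ofNat 66759618420, Int.negSucc 233658664469, Int.ofNat 100139427630, Int.ofNat 0, Int.negSucc 267038473679, Int.ofNat 0, Int.ofNat 0, Int.ofNat 0, Int.ofNat 133519236840, Int.ofNat 0, Int.ofNat 300418282890, Int.negSucc 100139427629],
  [Int.ofNat 0, Int.negSucc 297528227999, Int.ofNat 0, Int.ofNat 0, Int.negSucc 1190112911999, Int.ofNat 1190112912000, Int.ofNat 0, Int.ofNat 0, Int.ofNat 0, Int.ofNat 0, Int.negSucc 1338877025999, Int.ofNat 1041348798000, Int.negSucc 1487641139999, Int.ofNat 0, Int.ofNat 7140677472000, Int.ofNat 0],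
  [Int.ofNat 0, Int.ofNat 0, Int.negSucc 24160370741, Int.ofNat 0, Int.ofNat 0, Int.negSucc 48320741483, Int.ofNat 144962224452, Int.negSucc 289924448903, Int.negSucc 990575200421, Int.ofNat 507367785582, Int.ofNat 0, Int.negSucc 120801853709, Int.ofNat 374485746501, Int.negSucc 253683892790, Int.ofNat 289924448904, Int.ofNat 579848897808],
  [Int.ofNat 0, Int.ofNat 0, Int.ofNat 300418282890, Int.negSucc 100139427629, Int.ofNat 0, Int.negSucc 2353276549304, Int.ofNat 1051463990115, Int.ofNat 0, Int.ofNat 11215615894560, Int.ofNat 0, Int.ofNat 0, Int.negSucc 3204461684159, Int.negSucc 1602230842079, Int.ofNat 0, Int.ofNat 17874887831955, Int.negSucc 11566103891264],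
  [Int.ofNat 0, Int.negSucc 881353301759, Int.ofNat 293784433920, Int.ofNat 0, Int.ofNat 3231628773120, Int.negSucc 1468922169599, Int.ofNat 0, Int.ofNat 0, Int.ofNat 0, Int.ofNat 0, Int.negSucc 3525413207039, Int.ofNat 2350275471360, Int.ofNat 0, Int.ofNat 0, Int.ofNat 0, Int.ofNat 0],
  [Int.ofNat 0, Int.ofNat 66759618420, Int.negSucc 233658664469, Int.ofNat 100139427630, Int.negSucc 333798092099, Int.ofNat 1051463990115, Int.negSucc 550766851964, Int.ofNat 0, Int.ofNat 801115421040, Int.ofNat 0, Int.ofNat 0, Int.negSucc 534076947359, Int.ofNat 267038473680, Int.ofNat 0, Int.negSucc 2353276549304, Int.ofNat 1051463990115],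
  [Int.ofNat 0, Int.ofNat 0, Int.ofNat 48320741484, Int.ofNat 0, Int.ofNat 0, Int.negSucc 144962224451, Int.negSucc 289924448903, Int.ofNat 1063056312648, Int.ofNat 3309970791654, Int.negSucc 1860348547133, Int.ofNat 0, Int.ofNat 0, Int.negSucc 990575200421, Int.ofNat 507367785582, Int.negSucc 2029471142327, Int.ofNat 773131863744]],
  false, 2286027170853263769600, 1⟩

end

end Vale.Agent.P154q4.D5
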