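import Vale.Agent.P154q4.TM

namespace Vale.Agent.P154q4.D5

noncomputable section

open Vale.Agent.P154q4.TMC MT in
/-- Data of one sign branch. -/
def DMpp : Data :=
  ⟨true, true, 44,
   (p (p (p nil nil) (e (p (p (e nil nil) (t (p nil nil) nil)) nil) nil)) (t (p (p (p nil nil) (t (p nil nil) nil)) nil) nil)),
   (p nil (t (p nil (t nil nil)) (e (p (t nil nil) nil) nil))),
  [[Int.ofNat 187537991040, Int.ofNat 237349336320, Int.negSucc 146892216959, Int.ofNat 0, Int.negSucc 1550213717759, Int.ofNat 293784433920, Int.ofNat 0, Int.ofNat 0, Int.ofNat 0, Int.ofNat 0, Int.ofNat 143327232000, Int.ofNat 1089214179840, Int.ofNat 0, Int.ofNat 0, Int.ofNat 0, Int.ofNat 0],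
  [Int.ofNat 0, Int.negSucc 33379809209, Int.ofNat 66759618420, Int.negSucc 33379809209, Int.ofNat 66759618420, Int.negSucc 233658664469, Int.ofNat 100139427630, Int.ofNat 0, Int.negSucc 267038473679, Int.ofNat 0, Int.ofNat 0, Int.ofNat 0, Int.ofNat 133519236840, Int.ofNat 0, Int.ofNat 300418282890, Int.negSucc 100139427629],
  [Int.ofNat 0, Int.ofNat 297528228000, Int.ofNat 0, Int.ofNat 0, Int.ofNat 1190112912000, Int.negSucc 1190112911999, Int.ofNat 0, Int.ofNat 0, Int.ofNat 0, Int.ofNat 0, Int.ofNat 1338877026000, Int.negSucc 1041348797999, Int.ofNat 1487641140000, Int.ofNat 0, Int.negSucc 7140677471999, Int.ofNat 0],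
  [Int.ofNat 0, Int.ofNat 0, Int.ofNat 24160370742, Int.ofNat 0, Int.ofNat 0, Int.ofNat 48320741484, Int.negSucc 144962224451, Int.ofNat 289924448904, Int.ofNat 990575200422, Int.negSucc 507367785581, Int.ofNat 0, Int.ofNat 120801853710, Int.negSucc 374485746500, Int.ofNat 253683892791, Int.negSucc 289924448903, Int.negSucc 579848897807],
  [Int.ofNat 0, Int.ofNat 0, Int.ofNat 300418282890, Int.negSucc 100139427629, Int.ofNat 0, Int.negSucc 2353276549304, Int.ofNat 1051463990115, Int.ofNat 0, Int.ofNat 11215615894560, Int.ofNat 0, Int.ofNat 0, Int.negSucc 3204461684159, Int.negSucc 1602230842079, Int.ofNat 0, Int.ofNat 17874887831955, Int.negSucc 11566103891264],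
  [Int.ofNat 0, Int.negSucc 881353301759, Int.ofNat 293784433920, Int.ofNat 0, Int.ofNat 3231628773120, Int.negSucc 1468922169599, Int.ofNat 0, Int.ofNat 0, Int.ofNat 0, Int.ofNat 0, Int.negSucc 3525413207039, Int.ofNat 2350275471360, Int.ofNat 0, Int.ofNat 0, Int.ofNat 0, Int.ofNat 0],
  [Int.ofNat 0, Int.ofNat 66759618420, Int.negSucc 233658664469, Int.ofNat 100139427630, Int.negSucc 333798092099, Int.ofNat 1051463990115, Int.negSucc 550766851964, Int.ofNat 0, Int.ofNat 801115421040, Int.ofNat 0, Int.ofNat 0, Int.negSucc 534076947359, Int.ofNat 267038473680, Int.ofNat 0, Int.negSucc 2353276549304, Int.ofNat 1051463990115],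
  [Int.ofNat 0, Int.ofNat 0, Int.negSucc 48320741483, Int.ofNat 0, Int.ofNat 0, Int.ofNat 144962224452, Int.ofNat 289924448904, Int.negSucc 1063056312647, Int.negSucc 3309970791653, Int.ofNat 1860348547134, Int.ofNat 0, Int.ofNat 0, Int.ofNat 990575200422, Int.negSucc 507367785581, Int.ofNat 2029471142328, Int.negSucc 773131863743]],
  false, 2286027170853263769600, 1⟩

end

end Vale.Agent.P154q4.D5
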