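import Mathlib
import Vale.Agent.P154q4.Fourier
import Vale.Agent.P154q4.TMSound
import Vale.Agent.P154q4.D5.Params
import Vale.Agent.P154q4.D5.DIpp
import Vale.Agent.P154q4.D5.DIpn
import Vale.Agent.P154q4.D5.DInp
import Vale.Agent.P154q4.D5.DInn
import Vale.Agent.P154q4.D5.DMpp
import Vale.Agent.P154q4.D5.DMpn
import Vale.Agent.P154q4.D5.DMnp
import Vale.Agent.P154q4.D5.DMnn
import Vale.Agent.P154q4.D5.Poly6

/-! MODULE P: the polynomial identities of the certificate, proved by reflection on integer polynomials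
in six variables (`Poly6.lean`), with the kernel computing normal forms. -/

open Vale.Agent.P154q4 Vale.Agent.P154q4.TMS

namespace Vale.Agent.P154q4.D5

noncomputable section

/-- Tabulated part of the lower bound for the first inequality, at one element of the orbit. -/
def PlowI (a b c y1 y2 y3 : ℝ) : ℝ :=
  let u := uu a b c y1 y2 y3
  let X := XX a b c y1 y2 y3
  let Z := ZH a b c y1 y2 y3
  let p := a ^ 2 + b ^ 2 + c ^ 2
  (QQ a b c y1 y2 y3 - 2 * kk * p * X - 4 * kk * Z ^ 2) * R1 u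
    + (AH a b c y1 y2 y3 - 4 * kk * Z * X) * R2 u - kk * X ^ 2 * R3 u
    - u ^ 2 * (eta1 * ((1 + p) / 2 + 6 * kk * p) * X
        + eta2 * ((mu / 6 + 2 * kk * nu * p) * X + (1 / (18 * mu) + 2 * kk / nu) * X ^ 2)
        + kk * eta3 * X ^ 2)

/-- Upper bound for `X (1+u)⁻¹` at one element of the orbit. -/
def UM (a b c y1 y2 y3 : ℝ) : ℝ :=
  let u := uu a b c y1 y2 y3
  XX a b c y1 y2 y3 * (1 - u + u ^ 2 * (S1 u + eta1))

def Cz (p τ e : ℝ) : ℝ := 4 * p - 6 * τ - 8 * e + 6 * p * τ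

namespace IdP

open P6

/-- Difference of polynomials. -/
def sb (p q : Poly) : Poly := add p (smul (-1) q)

lemma ev_sb (p q : Poly) (x1 x2 x3 x4 x5 x6 : ℝ) :
    ev (sb p q) x1 x2 x3 x4 x5 x6 = ev p x1 x2 x3 x4 x5 x6 - ev q x1 x2 x3 x4 x5 x6 := by
  unfold sb
  rw [ev_add, ev_smul]
  push_cast
  ring

/-- Powers. -/
def pw (p : Poly) (n : ℕ) : Poly := Nat.rec one (fun _ ih => mul p ih) n

lemma ev_pw (p : Poly) (n : ℕ) (x1 x2 x3 x4 x5 x6 : ℝ) :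
    ev (pw p n) x1 x2 x3 x4 x5 x6 = ev p x1 x2 x3 x4 x5 x6 ^ n := by
  induction n with
  | zero => simp [pw]
  | succ n ih =>
    have e : pw p (n + 1) = mul p (pw p n) := rfl
    rw [e, ev_mul, ih]
    ring

/-- One term of a list of monomials in six invariants. -/
def termP (P T E Q T' E' : Poly) (t : ℤ × ℕ × ℕ × ℕ × ℕ × ℕ × ℕ) : Poly :=
  smul t.1 (mul (pw P t.2.1) (mul (pw T t.2.2.1) (mul (pw E t.2.2.2.1)
    (mul (pw Q t.2.2.2.2.1) (mul (pw T' t.2.2.2.2.2.1) (pw E' t.2.2.2.2.2.2))))))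

/-- The polynomial of a list of monomials in six invariants. -/
def evTP (n : ℕ) (l : List (ℤ × ℕ × ℕ × ℕ × ℕ × ℕ × ℕ)) (P T E Q T' E' : Poly) : Poly :=
  mergeAll n (l.map (termP P T E Q T' E'))

lemma ev_evTP (n : ℕ) (l : List (ℤ × ℕ × ℕ × ℕ × ℕ × ℕ × ℕ)) (P T E Q T' E' : Poly)
    (x1 x2 x3 x4 x5 x6 : ℝ) :
    ev (evTP n l P T E Q T' E') x1 x2 x3 x4 x5 x6
      = evT l (ev P x1 x2 x3 x4 x5 x6) (ev T x1 x2 x3 x4 x5 x6) (ev E x1 x2 x3 x4 x5 x6)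
          (ev Q x1 x2 x3 x4 x5 x6) (ev T' x1 x2 x3 x4 x5 x6) (ev E' x1 x2 x3 x4 x5 x6) := by
  unfold evTP evT
  rw [ev_mergeAll]
  unfold evs
  rw [List.map_map]
  congr 1
  apply List.map_congr_left
  intro t _
  simp only [Function.comp, termP, ev_smul, ev_mul, ev_pw]
  ring

/-- The sum over the signed permutations, by reflection. -/
lemma sum24_reflect (F : ℝ → ℝ → ℝ → ℝ) (P : Poly) (D a b c : ℝ)
    (h : ∀ x y w, D * F x y w = ev P a b c x y w) (n : ℕ) (x y w : ℝ) :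
    D * sum24 F x y w = 4 * ev (symPK keyOf n (kfilter P)) a b c x y w := by
  unfold sum24
  simp only [mul_add, h]
  rw [ev_symPK]
  have k1 := ev_klein P a b c x y w
  have k2 := ev_klein P a b c x w y
  have k3 := ev_klein P a b c y x w
  have k4 := ev_klein P a b c y w x
  have k5 := ev_klein P a b c w x y
  have k6 := ev_klein P a b c w y x
  linarith

/-! ### The polynomials in `(a, b, c, y1, y2, y3)` -/

def Pu : Poly := add (mul v1 v4) (add (mul v2 v5) (mul v3 v6))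
def Ph1 : Poly := add (mul (sb one (mul v1 v1)) v4)
  (add (mul (sb v3 (mul v1 v2)) v5) (mul (sb v2 (mul v1 v3)) v6))
def Ph2 : Poly := add (mul (sb v3 (mul v1 v2)) v4)
  (add (mul (sb one (mul v2 v2)) v5) (mul (sb v1 (mul v2 v3)) v6))
def Ph3 : Poly := add (mul (sb v2 (mul v1 v3)) v4)
  (add (mul (sb v1 (mul v2 v3)) v5) (mul (sb one (mul v3 v3)) v6))
def PX : Poly := add (mul Ph1 Ph1) (add (mul Ph2 Ph2) (mul Ph3 Ph3))
def PZ : Poly := add (mul v1 Ph1) (add (mul v2 Ph2) (mul v3 Ph3))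
def PQ : Poly := add (mul v1 (mul Ph2 Ph3)) (add (mul v2 (mul Ph1 Ph3)) (mul v3 (mul Ph1 Ph2)))
def PA : Poly := mul (mul Ph1 Ph2) Ph3
def Pp : Poly := add (mul v1 v1) (add (mul v2 v2) (mul v3 v3))
def Pt : Poly := mul v1 (mul v2 v3)
def Pe : Poly := add (mul (mul v1 v1) (mul v2 v2)) (add (mul (mul v1 v1) (mul v3 v3))
  (mul (mul v2 v2) (mul v3 v3)))
def Pq : Poly := add (mul v4 v4) (add (mul v5 v5) (mul v6 v6))
def Pt' : Poly := mul v4 (mul v5 v6)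
def Pe' : Poly := add (mul (mul v4 v4) (mul v5 v5)) (add (mul (mul v4 v4) (mul v6 v6))
  (mul (mul v5 v5) (mul v6 v6)))

section evs
variable (a b c y1 y2 y3 : ℝ)

lemma ev_Pu : ev Pu a b c y1 y2 y3 = uu a b c y1 y2 y3 := by
  simp only [Pu, ev_add, ev_mul, ev_v1, ev_v2, ev_v3, ev_v4, ev_v5, ev_v6, uu]
  ring
lemma ev_Ph1 : ev Ph1 a b c y1 y2 y3 = hh1 a b c y1 y2 y3 := by
  simp only [Ph1, ev_add, ev_mul, ev_sb, ev_one, ev_v1, ev_v2, ev_v3, ev_v4, ev_v5, ev_v6, hh1]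
  ring
lemma ev_Ph2 : ev Ph2 a b c y1 y2 y3 = hh2 a b c y1 y2 y3 := by
  simp only [Ph2, ev_add, ev_mul, ev_sb, ev_one, ev_v1, ev_v2, ev_v3, ev_v4, ev_v5, ev_v6, hh2]
  ring
lemma ev_Ph3 : ev Ph3 a b c y1 y2 y3 = hh3 a b c y1 y2 y3 := by
  simp only [Ph3, ev_add, ev_mul, ev_sb, ev_one, ev_v1, ev_v2, ev_v3, ev_v4, ev_v5, ev_v6, hh3]
  ring
lemma ev_PX : ev PX a b c y1 y2 y3 = XX a b c y1 y2 y3 := by
  simp only [PX, ev_add, ev_mul, ev_Ph1, ev_Ph2, ev_Ph3, XX]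
  ring
lemma ev_PZ : ev PZ a b c y1 y2 y3 = ZH a b c y1 y2 y3 := by
  simp only [PZ, ev_add, ev_mul, ev_Ph1, ev_Ph2, ev_Ph3, ev_v1, ev_v2, ev_v3, ZH]
  ring
lemma ev_PQ : ev PQ a b c y1 y2 y3 = QQ a b c y1 y2 y3 := by
  simp only [PQ, ev_add, ev_mul, ev_Ph1, ev_Ph2, ev_Ph3, ev_v1, ev_v2, ev_v3, QQ]
  ring
lemma ev_PA : ev PA a b c y1 y2 y3 = AH a b c y1 y2 y3 := by
  simp only [PA, ev_mul, ev_Ph1, ev_Ph2, ev_Ph3, AH]
lemma ev_Pp : ev Pp a b c y1 y2 y3 = a ^ 2 + b ^ 2 + c ^ 2 := by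
  simp only [Pp, ev_add, ev_mul, ev_v1, ev_v2, ev_v3]
  ring
lemma ev_Pt : ev Pt a b c y1 y2 y3 = a * b * c := by
  simp only [Pt, ev_mul, ev_v1, ev_v2, ev_v3]
  ring
lemma ev_Pe : ev Pe a b c y1 y2 y3 = a ^ 2 * b ^ 2 + a ^ 2 * c ^ 2 + b ^ 2 * c ^ 2 := by
  simp only [Pe, ev_add, ev_mul, ev_v1, ev_v2, ev_v3]
  ring
lemma ev_Pq : ev Pq a b c y1 y2 y3 = y1 ^ 2 + y2 ^ 2 + y3 ^ 2 := by
  simp only [Pq, ev_add, ev_mul, ev_v4, ev_v5, ev_v6]
  ring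
lemma ev_Pt' : ev Pt' a b c y1 y2 y3 = y1 * y2 * y3 := by
  simp only [Pt', ev_mul, ev_v4, ev_v5, ev_v6]
  ring
lemma ev_Pe' : ev Pe' a b c y1 y2 y3 = y1 ^ 2 * y2 ^ 2 + y1 ^ 2 * y3 ^ 2 + y2 ^ 2 * y3 ^ 2 := by
  simp only [Pe', ev_add, ev_mul, ev_v4, ev_v5, ev_v6]
  ring

end evs

/-- Polynomials in `u` with integer coefficients, from the list of the coefficients. -/
def Uc (l : List ℤ) : Poly :=
  List.rec (motive := fun _ => Poly) [] (fun c _ ih => add (smul c one) (mul Pu ih)) l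

/-- Value of a coefficient list by Horner. -/
def hornerR (l : List ℤ) (u : ℝ) : ℝ :=
  List.rec (motive := fun _ => ℝ) 0 (fun c _ ih => (c : ℝ) + u * ih) l

lemma hornerR_nil (u : ℝ) : hornerR [] u = 0 := rfl
lemma hornerR_cons (d : ℤ) (l : List ℤ) (u : ℝ) :
    hornerR (d :: l) u = (d : ℝ) + u * hornerR l u := rfl

lemma ev_Uc (l : List ℤ) (a b c y1 y2 y3 : ℝ) :
    ev (Uc l) a b c y1 y2 y3 = hornerR l (uu a b c y1 y2 y3) := by
  induction l with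
  | nil => rfl
  | cons d l ih =>
    have e : Uc (d :: l) = add (smul d one) (mul Pu (Uc l)) := rfl
    have e2 : hornerR (d :: l) (uu a b c y1 y2 y3)
        = (d : ℝ) + uu a b c y1 y2 y3 * hornerR l (uu a b c y1 y2 y3) := rfl
    rw [e, e2, ev_add, ev_smul, ev_one, ev_mul, ev_Pu, ih]
    ring

/-- The integer form of `(Q - 2 k p X - 4 k Z²)`. -/
def PE1 : Poly := sb (smul 40 PQ) (add (smul 7 (mul Pp PX)) (smul 14 (mul PZ PZ)))
/-- The integer form of `(A - 4 k Z X)`. -/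
def PE2 : Poly := sb (smul 20 PA) (smul 7 (mul PZ PX))
def PXX : Poly := mul PX PX
/-- The coefficient of `u²`. -/
def PW : Poly :=
  add (smul 3317760 (mul (add (smul 20 one) (smul 41 Pp)) PX))
    (add (smul 11418624 (mul (add (smul 4 one) (smul 7 Pp)) PX))
      (smul (4096 * 413 * 289 + 27648 * 26369) PXX))
def PR1 : Poly := Uc [16384, -16384, 16300, -18895, 18843, -7577]
def PR2 : Poly := Uc [16384, -32768, 48248, -82405, 103449, -45498]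
def PR3 : Poly := Uc [16384, -49152, 116520, -259760, 160505]

/-- `D PlowI` as a polynomial, `D = 4423680000`. -/
def P0I : Poly :=
  mergeAll 2 [smul 6750 (mulB 6 PR1 PE1), smul 13500 (mulB 6 PR2 PE2),
    smul (-23625) (mulB 6 PR3 PXX), smul (-1) (mulB 2 (mul Pu Pu) PW)]

lemma P0I_spec (a b c x y w : ℝ) :
    (4423680000 : ℝ) * PlowI a b c x y w = ev P0I a b c x y w := by
  unfold P0I
  rw [ev_mergeAll]
  simp only [evs, List.map_cons, List.map_nil, List.sum_cons, List.sum_nil, ev_smul, ev_mulB,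
    PR1, PR2, PR3, ev_Uc, PE1, PE2, PXX, PW, ev_sb, ev_add, ev_mul, ev_one, ev_PX, ev_PZ, ev_PQ,
    ev_PA, ev_Pp, ev_Pu]
  simp only [hornerR_cons, hornerR_nil]
  unfold PlowI R1 R2 R3 S1 S2 S3 kk eta1 eta2 eta3 mu nu
  simp only []
  generalize uu a b c x y w = u
  generalize XX a b c x y w = X
  generalize ZH a b c x y w = Z
  generalize QQ a b c x y w = Q
  generalize AH a b c x y w = A
  generalize a ^ 2 + b ^ 2 + c ^ 2 = p
  push_cast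
  ring

/-- The right side of `identI`, times `2 NI`. -/
def RPI : Poly :=
  mergeAll 2 [smul (-39813120000) (mul Pq Pt), smul 3483648000 (mul Pq (mul Pp Pp)),
    smul 46080000 (mul (add (smul 16 one) (add (smul (-24) Pp) (smul 9 (mul Pp Pp))))
      (sb (smul 36 Pt') (smul 7 (mul Pq Pq)))),
    smul 2 (evTP 9 termsI Pp Pt Pe Pq Pt' Pe')]

theorem checkI : beqP (symPK keyOf 12 (kfilter P0I)) RPI = true := by decide +kernel

/-- The polynomial of `D UM`, `D = 409600`. -/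
def P0M : Poly := mulB 6 (Uc [409600, -409600, 419788, -472375, 471075, -189425]) PX

lemma P0M_spec (a b c x y w : ℝ) :
    (409600 : ℝ) * UM a b c x y w = ev P0M a b c x y w := by
  unfold P0M
  rw [ev_mulB, ev_Uc, ev_PX]
  simp only [hornerR_cons, hornerR_nil]
  unfold UM S1 eta1
  simp only []
  generalize uu a b c x y w = u
  generalize XX a b c x y w = X
  push_cast
  ring

/-- The integer form of `Cz`. -/
def PCz : Poly := add (smul 4 Pp) (add (smul (-6) Pt) (add (smul (-8) Pe) (smul 6 (mul Pp Pt))))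

/-- The right side of `identM`, times `NM`. -/
def RPM : Poly :=
  mergeAll 3 [smul 36864000 Pq,
    smul (-230400) (mul (add (smul 8 Pq) (smul (-3) (mul Pq Pq)))
      (add (smul 80 Pt) (smul (-7) (mul Pp Pp)))),
    smul (-1024000) (mul PCz (add (smul 36 Pt') (smul (-7) (mul Pq Pq)))),
    smul (-36864) (mul Pq (mul Pp Pp)),
    smul (-1) (evTP 7 termsM Pp Pt Pe Pq Pt' Pe')]

theorem checkM : beqP (smul 15 (symPK keyOf 12 (kfilter P0M))) RPM = true := by decide +kernel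

/-! ### The tables of the certificates -/

/-- A monomial of a table; the scales `400`, `20` turn `q, t'` into the variables of the polynomial. -/
def mkT (K : ℕ → ℕ → ℕ → ℕ → ℕ → ℕ → ℕ) (c : ℤ) (e f : ℕ × ℕ × ℕ) : Tm :=
  ⟨K e.1 e.2.1 e.2.2 f.1 f.2.1 f.2.2, e.1, e.2.1, e.2.2, f.1, f.2.1, f.2.2,
    Int.mul c (Int.ofNat (Nat.mul (Nat.pow 400 f.1) (Nat.pow 20 f.2.1)))⟩

/-- The monomials of a row. -/
def rowL (K : ℕ → ℕ → ℕ → ℕ → ℕ → ℕ → ℕ) (f : ℕ × ℕ × ℕ) : List ℤ → List (ℕ × ℕ × ℕ) → List Tm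
  | c :: cs, e :: es => cond (isZ c) (rowL K f cs es) (mkT K c e f :: rowL K f cs es)
  | _, _ => []

/-- The monomials of a table. -/
def tabL (K : ℕ → ℕ → ℕ → ℕ → ℕ → ℕ → ℕ) (es : List (ℕ × ℕ × ℕ)) :
    List (List ℤ) → List (ℕ × ℕ × ℕ) → List Tm
  | r :: rs, f :: fs => rowL K f r es ++ tabL K es rs fs
  | _, _ => []

lemma ev_append (l m : Poly) (x1 x2 x3 x4 x5 x6 : ℝ) :
    ev (l ++ m) x1 x2 x3 x4 x5 x6 = ev l x1 x2 x3 x4 x5 x6 + ev m x1 x2 x3 x4 x5 x6 := by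
  induction l with
  | nil => simp
  | cons a l ih =>
    rw [List.cons_append, ev_cons, ev_cons, ih]
    ring

lemma val_mkT (K : ℕ → ℕ → ℕ → ℕ → ℕ → ℕ → ℕ) (c : ℤ) (e f : ℕ × ℕ × ℕ)
    (x1 x2 x3 y1 y2 y3 : ℝ) :
    (mkT K c e f).val x1 x2 x3 (y1 / 400) (y2 / 20) y3
      = (c : ℝ) * mval (x1, x2, x3) e * mval (y1, y2, y3) f := by
  simp only [Tm.val, mkT, mval]
  have h1 : ((Int.mul c (Int.ofNat (Nat.mul (Nat.pow 400 f.1) (Nat.pow 20 f.2.1))) : ℤ) : ℝ)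
      = (c : ℝ) * (400 ^ f.1 * 20 ^ f.2.1) := by
    have : Int.mul c (Int.ofNat (Nat.mul (Nat.pow 400 f.1) (Nat.pow 20 f.2.1)))
        = c * ((400 ^ f.1 * 20 ^ f.2.1 : ℕ) : ℤ) := rfl
    rw [this]
    push_cast
    ring
  rw [h1, div_pow, div_pow]
  have h400 : (400 : ℝ) ^ f.1 ≠ 0 := by positivity
  have h20 : (20 : ℝ) ^ f.2.1 ≠ 0 := by positivity
  field_simp

lemma ev_rowL (K : ℕ → ℕ → ℕ → ℕ → ℕ → ℕ → ℕ) (f : ℕ × ℕ × ℕ) (cs : List ℤ)
    (es : List (ℕ × ℕ × ℕ)) (x1 x2 x3 y1 y2 y3 : ℝ) :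
    ev (rowL K f cs es) x1 x2 x3 (y1 / 400) (y2 / 20) y3
      = rowVal (x1, x2, x3) cs es * mval (y1, y2, y3) f := by
  induction cs generalizing es with
  | nil =>
    cases es <;> simp [rowL, rowVal]
  | cons c cs ih =>
    cases es with
    | nil => simp [rowL, rowVal]
    | cons e es =>
      have hr : rowVal (x1, x2, x3) (c :: cs) (e :: es)
          = (c : ℝ) * mval (x1, x2, x3) e + rowVal (x1, x2, x3) cs es := rfl
      have hl : rowL K f (c :: cs) (e :: es)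
          = cond (isZ c) (rowL K f cs es) (mkT K c e f :: rowL K f cs es) := rfl
      rw [hr, hl]
      cases h : isZ c
      · simp only [cond_false, ev_cons, val_mkT, ih]
        ring
      · have hz := isZ_spec c h
        subst hz
        simp only [cond_true, ih]
        simp

lemma ev_tabL (K : ℕ → ℕ → ℕ → ℕ → ℕ → ℕ → ℕ) (es : List (ℕ × ℕ × ℕ)) (rows : List (List ℤ))
    (fs : List (ℕ × ℕ × ℕ)) (x1 x2 x3 y1 y2 y3 : ℝ) :
    ev (tabL K es rows fs) x1 x2 x3 (y1 / 400) (y2 / 20) y3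
      = tabVal (x1, x2, x3) (y1, y2, y3) es rows fs := by
  induction rows generalizing fs with
  | nil =>
    cases fs <;> simp [tabL, tabVal]
  | cons r rs ih =>
    cases fs with
    | nil => simp [tabL, tabVal]
    | cons f fs =>
      have hr : tabVal (x1, x2, x3) (y1, y2, y3) es (r :: rs) (f :: fs)
          = rowVal (x1, x2, x3) r es * mval (y1, y2, y3) f
            + tabVal (x1, x2, x3) (y1, y2, y3) es rs fs := rfl
      have hl : tabL K es (r :: rs) (f :: fs) = rowL K f r es ++ tabL K es rs fs := rfl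
      rw [hr, hl, ev_append, ev_rowL, ih]

/-- The sorted table. -/
def tabS (K : ℕ → ℕ → ℕ → ℕ → ℕ → ℕ → ℕ) (D : TMC.Data) : Poly :=
  sortP 10 (tabL K (mexps D.zt) D.cf (mexps D.yt))

/-- Left side, first mode. -/
def LI (K : ℕ → ℕ → ℕ → ℕ → ℕ → ℕ → ℕ) (D : TMC.Data) (N : ℕ) : Poly :=
  add [⟨K 0 0 0 2 0 0, 0, 0, 0, 2, 0, 0, Int.ofNat (Nat.mul (Nat.mul N D.A) 160000)⟩]
    (mulTerm ⟨K 1 0 0 1 0 0, 1, 0, 0, 1, 0, 0,
      Int.ofNat (Nat.mul (Nat.mul (Nat.mul N D.Bc) (Nat.pow 2 (Nat.sub 80 D.s))) 400)⟩ (tabS K D))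

/-- Left side, second mode. -/
def LM (K : ℕ → ℕ → ℕ → ℕ → ℕ → ℕ → ℕ) (D : TMC.Data) (N : ℕ) : Poly :=
  add [⟨K 2 0 0 1 0 0, 2, 0, 0, 1, 0, 0, Int.ofNat (Nat.mul (Nat.mul N D.A) 400)⟩]
    (mulTerm ⟨K 1 0 0 2 0 0, 1, 0, 0, 2, 0, 0,
      Int.ofNat (Nat.mul (Nat.mul (Nat.mul N D.Bc) (Nat.pow 2 (Nat.sub 80 D.s))) 160000)⟩ (tabS K D))

lemma pow80 {s : ℕ} (hs : s ≤ 80) : (2 : ℝ) ^ 80 / 2 ^ s = 2 ^ (80 - s) := by
  have h : (2 : ℝ) ^ 80 = 2 ^ (80 - s) * 2 ^ s := by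
    rw [← pow_add]; congr 1; omega
  rw [h]
  field_simp

lemma ev_LI (K : ℕ → ℕ → ℕ → ℕ → ℕ → ℕ → ℕ) (D : TMC.Data) (N : ℕ) (hm : D.mode = true)
    (hs : D.s ≤ 80) (p t e q t' e' : ℝ) :
    ev (LI K D N) p t e (q / 400) (t' / 20) e' = (N : ℝ) * (q * Goal D (p, t, e) (q, t', e')) := by
  unfold LI
  rw [ev_add, ev_mulTerm]
  unfold tabS
  rw [ev_sortP, ev_tabL]
  unfold Goal Aval
  simp only [hm, if_true]
  have h2 := pow80 hs
  have e2 : (D.Bc : ℝ) * p * 2 ^ 80 * (tabVal (p, t, e) (q, t', e') (mexps D.zt) D.cf (mexps D.yt) / 2 ^ D.s)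
      = (D.Bc : ℝ) * p * (2 ^ 80 / 2 ^ D.s) * tabVal (p, t, e) (q, t', e') (mexps D.zt) D.cf (mexps D.yt) := by
    ring
  rw [e2, h2]
  have c1 : ((Int.ofNat (Nat.mul (Nat.mul N D.A) 160000) : ℤ) : ℝ) = (N : ℝ) * D.A * 160000 := by
    have : Int.ofNat (Nat.mul (Nat.mul N D.A) 160000) = ((N * D.A * 160000 : ℕ) : ℤ) := rfl
    rw [this]; push_cast; ring
  have c2 : ((Int.ofNat (Nat.mul (Nat.mul (Nat.mul N D.Bc) (Nat.pow 2 (Nat.sub 80 D.s))) 400) : ℤ) : ℝ)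
      = (N : ℝ) * D.Bc * 2 ^ (80 - D.s) * 400 := by
    have : Int.ofNat (Nat.mul (Nat.mul (Nat.mul N D.Bc) (Nat.pow 2 (Nat.sub 80 D.s))) 400)
        = ((N * D.Bc * 2 ^ (80 - D.s) * 400 : ℕ) : ℤ) := rfl
    rw [this]; push_cast; ring
  simp only [ev_cons, ev_nil, Tm.val, c1, c2]
  ring

lemma ev_LM (K : ℕ → ℕ → ℕ → ℕ → ℕ → ℕ → ℕ) (D : TMC.Data) (N : ℕ) (hm : D.mode = false)
    (hs : D.s ≤ 80) (p t e q t' e' : ℝ) :
    ev (LM K D N) p t e (q / 400) (t' / 20) e'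
      = (N : ℝ) * (p * (q * Goal D (p, t, e) (q, t', e'))) := by
  unfold LM
  rw [ev_add, ev_mulTerm]
  unfold tabS
  rw [ev_sortP, ev_tabL]
  unfold Goal Aval
  simp only [hm, Bool.false_eq_true, if_false]
  have h2 := pow80 hs
  have e2 : (D.Bc : ℝ) * q * 2 ^ 80 * (tabVal (p, t, e) (q, t', e') (mexps D.zt) D.cf (mexps D.yt) / 2 ^ D.s)
      = (D.Bc : ℝ) * q * (2 ^ 80 / 2 ^ D.s) * tabVal (p, t, e) (q, t', e') (mexps D.zt) D.cf (mexps D.yt) := by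
    ring
  rw [e2, h2]
  have c1 : ((Int.ofNat (Nat.mul (Nat.mul N D.A) 400) : ℤ) : ℝ) = (N : ℝ) * D.A * 400 := by
    have : Int.ofNat (Nat.mul (Nat.mul N D.A) 400) = ((N * D.A * 400 : ℕ) : ℤ) := rfl
    rw [this]; push_cast; ring
  have c2 : ((Int.ofNat (Nat.mul (Nat.mul (Nat.mul N D.Bc) (Nat.pow 2 (Nat.sub 80 D.s))) 160000) : ℤ) : ℝ)
      = (N : ℝ) * D.Bc * 2 ^ (80 - D.s) * 160000 := by
    have : Int.ofNat (Nat.mul (Nat.mul (Nat.mul N D.Bc) (Nat.pow 2 (Nat.sub 80 D.s))) 160000)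
        = ((N * D.Bc * 2 ^ (80 - D.s) * 160000 : ℕ) : ℤ) := rfl
    rw [this]; push_cast; ring
  simp only [ev_cons, ev_nil, Tm.val, c1, c2]
  ring

/-- The right side of a conversion. -/
def RC (C : ℤ) (l : List (ℤ × ℕ × ℕ × ℕ × ℕ × ℕ × ℕ)) (σ1 σ2 : ℤ) : Poly :=
  smul C (evTP 9 l v1 (smul σ1 (mul v1 v2)) (mul (mul v1 v1) v3) (smul 81 v4)
    (smul (σ2 * 729) (mul v4 v5)) (smul 6561 (mul (mul v4 v4) v6)))

lemma ev_RC (C : ℤ) (l : List (ℤ × ℕ × ℕ × ℕ × ℕ × ℕ × ℕ)) (σ1 σ2 : ℤ) (p t e q t' e' : ℝ) :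
    ev (RC C l σ1 σ2) p t e (q / 400) (t' / 20) e'
      = (C : ℝ) * evT l p ((σ1 : ℝ) * (p * t)) (p ^ 2 * e) (Lam ^ 2 * q)
          ((σ2 : ℝ) * (Lam ^ 3 * q * t')) (Lam ^ 4 * q ^ 2 * e') := by
  unfold RC
  rw [ev_smul, ev_evTP]
  simp only [ev_smul, ev_mul, ev_v1, ev_v2, ev_v3, ev_v4, ev_v5, ev_v6]
  congr 2
  · ring
  · unfold Lam; push_cast; ring
  · unfold Lam; push_cast; ring
  · unfold Lam; push_cast; ring

end IdP

/-- Conversion, first mode. -/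
lemma conv_I (D : TMC.Data) (N : ℕ) (C : ℤ) (l : List (ℤ × ℕ × ℕ × ℕ × ℕ × ℕ × ℕ)) (σ1 σ2 : ℤ)
    (hm : D.mode = true) (hs : D.s ≤ 80)
    (h : P6.beqP (IdP.LI P6.keyOf D N) (IdP.RC C l σ1 σ2) = true) (p t e q t' e' : ℝ) :
    (N : ℝ) * (q * Goal D (p, t, e) (q, t', e'))
      = (C : ℝ) * evT l p ((σ1 : ℝ) * (p * t)) (p ^ 2 * e) (Lam ^ 2 * q)
          ((σ2 : ℝ) * (Lam ^ 3 * q * t')) (Lam ^ 4 * q ^ 2 * e') := by
  rw [← IdP.ev_LI P6.keyOf D N hm hs, ← IdP.ev_RC]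
  exact P6.ev_of_beqP _ _ h _ _ _ _ _ _

/-- Conversion, second mode. -/
lemma conv_M (D : TMC.Data) (N : ℕ) (C : ℤ) (l : List (ℤ × ℕ × ℕ × ℕ × ℕ × ℕ × ℕ)) (σ1 σ2 : ℤ)
    (hm : D.mode = false) (hs : D.s ≤ 80)
    (h : P6.beqP (IdP.LM P6.keyOf D N) (IdP.RC C l σ1 σ2) = true) (p t e q t' e' : ℝ) :
    (N : ℝ) * (p * (q * Goal D (p, t, e) (q, t', e')))
      = (C : ℝ) * evT l p ((σ1 : ℝ) * (p * t)) (p ^ 2 * e) (Lam ^ 2 * q)
          ((σ2 : ℝ) * (Lam ^ 3 * q * t')) (Lam ^ 4 * q ^ 2 * e') := by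
  rw [← IdP.ev_LM P6.keyOf D N hm hs, ← IdP.ev_RC]
  exact P6.ev_of_beqP _ _ h _ _ _ _ _ _

lemma identI_aux (a b c y1 y2 y3 p τ e q τ' e' : ℝ) (hp : a ^ 2 + b ^ 2 + c ^ 2 = p)
    (hτ : a * b * c = τ) (he : a ^ 2 * b ^ 2 + a ^ 2 * c ^ 2 + b ^ 2 * c ^ 2 = e)
    (hq : y1 ^ 2 + y2 ^ 2 + y3 ^ 2 = q) (hτ' : y1 * y2 * y3 = τ')
    (he' : y1 ^ 2 * y2 ^ 2 + y1 ^ 2 * y3 ^ 2 + y2 ^ 2 * y3 ^ 2 = e') :
    (1 / 24) * sum24 (fun y1 y2 y3 => PlowI a b c y1 y2 y3) y1 y2 y3 =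
      - alpha * q * (τ - kk * p ^ 2) + (1 - bb * p) ^ 2 * (τ' - kk / Lam * q ^ 2)
      + evT termsI p τ e q τ' e' / NI := by
  have h1 := IdP.sum24_reflect (fun y1 y2 y3 => PlowI a b c y1 y2 y3) IdP.P0I 4423680000 a b c
    (fun x y w => IdP.P0I_spec a b c x y w) 12 y1 y2 y3
  have h2 := P6.ev_of_beqP _ _ IdP.checkI a b c y1 y2 y3
  have h3 : P6.ev IdP.RPI a b c y1 y2 y3 = 26542080000 * (- alpha * q * (τ - kk * p ^ 2)
      + (1 - bb * p) ^ 2 * (τ' - kk / Lam * q ^ 2) + evT termsI p τ e q τ' e' / NI) := by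
    unfold IdP.RPI
    rw [P6.ev_mergeAll]
    simp only [P6.evs, List.map_cons, List.map_nil, List.sum_cons, List.sum_nil, P6.ev_smul,
      P6.ev_mul, P6.ev_add, P6.ev_one, IdP.ev_sb, IdP.ev_evTP, IdP.ev_Pp, IdP.ev_Pt, IdP.ev_Pe,
      IdP.ev_Pq, IdP.ev_Pt', IdP.ev_Pe', hp, hτ, he, hq, hτ', he']
    have hNI : (NI : ℝ) = 13271040000 := by norm_num [NI]
    rw [hNI]
    unfold alpha kk bb Lam
    generalize evT termsI p τ e q τ' e' = E
    push_cast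
    ring
  rw [h2, h3] at h1
  generalize sum24 (fun y1 y2 y3 => PlowI a b c y1 y2 y3) y1 y2 y3 = S at h1 ⊢
  generalize (- alpha * q * (τ - kk * p ^ 2)
      + (1 - bb * p) ^ 2 * (τ' - kk / Lam * q ^ 2) + evT termsI p τ e q τ' e' / NI) = W at h1 ⊢
  linarith

theorem identI (a b c y1 y2 y3 : ℝ) :
    let p := a ^ 2 + b ^ 2 + c ^ 2; let τ := a * b * c
    let e := a ^ 2 * b ^ 2 + a ^ 2 * c ^ 2 + b ^ 2 * c ^ 2
    let q := y1 ^ 2 + y2 ^ 2 + y3 ^ 2; let τ' := y1 * y2 * y3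
    let e' := y1 ^ 2 * y2 ^ 2 + y1 ^ 2 * y3 ^ 2 + y2 ^ 2 * y3 ^ 2
    (1 / 24) * sum24 (fun y1 y2 y3 => PlowI a b c y1 y2 y3) y1 y2 y3 =
      - alpha * q * (τ - kk * p ^ 2) + (1 - bb * p) ^ 2 * (τ' - kk / Lam * q ^ 2)
      + evT termsI p τ e q τ' e' / NI := by
  intro p τ e q τ' e'
  exact identI_aux a b c y1 y2 y3 p τ e q τ' e' rfl rfl rfl rfl rfl rfl

lemma identM_aux (a b c y1 y2 y3 p τ e q τ' e' : ℝ) (hp : a ^ 2 + b ^ 2 + c ^ 2 = p)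
    (hτ : a * b * c = τ) (he : a ^ 2 * b ^ 2 + a ^ 2 * c ^ 2 + b ^ 2 * c ^ 2 = e)
    (hq : y1 ^ 2 + y2 ^ 2 + y3 ^ 2 = q) (hτ' : y1 * y2 * y3 = τ')
    (he' : y1 ^ 2 * y2 ^ 2 + y1 ^ 2 * y3 ^ 2 + y2 ^ 2 * y3 ^ 2 = e') :
    (1 / 24) * sum24 (fun y1 y2 y3 => UM a b c y1 y2 y3) y1 y2 y3 =
      q - (4 * q - beta * q ^ 2) * (τ - kk * p ^ 2) - Cz p τ e * (τ' - kk / Lam * q ^ 2)
      - mm * q * p ^ 2 - evT termsM p τ e q τ' e' / NM := by
  have h1 := IdP.sum24_reflect (fun y1 y2 y3 => UM a b c y1 y2 y3) IdP.P0M 409600 a b c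
    (fun x y w => IdP.P0M_spec a b c x y w) 12 y1 y2 y3
  have h2 := P6.ev_of_beqP _ _ IdP.checkM a b c y1 y2 y3
  rw [P6.ev_smul] at h2
  have h3 : P6.ev IdP.RPM a b c y1 y2 y3 = 36864000 * (q - (4 * q - beta * q ^ 2) * (τ - kk * p ^ 2)
      - Cz p τ e * (τ' - kk / Lam * q ^ 2)
      - mm * q * p ^ 2 - evT termsM p τ e q τ' e' / NM) := by
    unfold IdP.RPM IdP.PCz
    rw [P6.ev_mergeAll]
    simp only [P6.evs, List.map_cons, List.map_nil, List.sum_cons, List.sum_nil, P6.ev_smul,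
      P6.ev_mul, P6.ev_add, P6.ev_one, IdP.ev_sb, IdP.ev_evTP, IdP.ev_Pp, IdP.ev_Pt, IdP.ev_Pe,
      IdP.ev_Pq, IdP.ev_Pt', IdP.ev_Pe', hp, hτ, he, hq, hτ', he']
    have hNM : (NM : ℝ) = 36864000 := by norm_num [NM]
    rw [hNM]
    unfold beta kk Lam mm Cz
    generalize evT termsM p τ e q τ' e' = E
    push_cast
    ring
  rw [h3] at h2
  push_cast at h2
  generalize sum24 (fun y1 y2 y3 => UM a b c y1 y2 y3) y1 y2 y3 = S at h1 ⊢
  generalize (q - (4 * q - beta * q ^ 2) * (τ - kk * p ^ 2) - Cz p τ e * (τ' - kk / Lam * q ^ 2)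
      - mm * q * p ^ 2 - evT termsM p τ e q τ' e' / NM) = W at h2 ⊢
  linarith

theorem identM (a b c y1 y2 y3 : ℝ) :
    let p := a ^ 2 + b ^ 2 + c ^ 2; let τ := a * b * c
    let e := a ^ 2 * b ^ 2 + a ^ 2 * c ^ 2 + b ^ 2 * c ^ 2
    let q := y1 ^ 2 + y2 ^ 2 + y3 ^ 2; let τ' := y1 * y2 * y3
    let e' := y1 ^ 2 * y2 ^ 2 + y1 ^ 2 * y3 ^ 2 + y2 ^ 2 * y3 ^ 2
    (1 / 24) * sum24 (fun y1 y2 y3 => UM a b c y1 y2 y3) y1 y2 y3 =
      q - (4 * q - beta * q ^ 2) * (τ - kk * p ^ 2) - Cz p τ e * (τ' - kk / Lam * q ^ 2)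
      - mm * q * p ^ 2 - evT termsM p τ e q τ' e' / NM := by
  intro p τ e q τ' e'
  exact identM_aux a b c y1 y2 y3 p τ e q τ' e' rfl rfl rfl rfl rfl rfl

/-- A constant plus a linear form averages to the constant. -/
lemma sum24_lin (C l1 l2 l3 x y w : ℝ) :
    sum24 (fun x y w => C + l1 * x + l2 * y + l3 * w) x y w = 24 * C := by
  unfold sum24
  ring

/-- The linear part of `Kp` averages out. -/
theorem identLin (k a b c y1 y2 y3 : ℝ) :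
    (1 / 24) * sum24 (fun y1 y2 y3 =>
      (1 + uu a b c y1 y2 y3) * (a * b * c - k * (a ^ 2 + b ^ 2 + c ^ 2) ^ 2)
      + (b * c * hh1 a b c y1 y2 y3 + a * c * hh2 a b c y1 y2 y3 + a * b * hh3 a b c y1 y2 y3
          - 4 * k * (a ^ 2 + b ^ 2 + c ^ 2) * ZH a b c y1 y2 y3)) y1 y2 y3
      = a * b * c - k * (a ^ 2 + b ^ 2 + c ^ 2) ^ 2 := by
  have e : (fun y1 y2 y3 =>
      (1 + uu a b c y1 y2 y3) * (a * b * c - k * (a ^ 2 + b ^ 2 + c ^ 2) ^ 2)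
      + (b * c * hh1 a b c y1 y2 y3 + a * c * hh2 a b c y1 y2 y3 + a * b * hh3 a b c y1 y2 y3
          - 4 * k * (a ^ 2 + b ^ 2 + c ^ 2) * ZH a b c y1 y2 y3))
      = fun y1 y2 y3 => (a * b * c - k * (a ^ 2 + b ^ 2 + c ^ 2) ^ 2)
        + (a * (a * b * c - k * (a ^ 2 + b ^ 2 + c ^ 2) ^ 2) + b * c * (1 - a ^ 2)
            + a * c * (c - a * b) + a * b * (b - a * c) - 4 * k * (a ^ 2 + b ^ 2 + c ^ 2)
              * (a * (1 - a ^ 2) + b * (c - a * b) + c * (b - a * c))) * y1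
        + (b * (a * b * c - k * (a ^ 2 + b ^ 2 + c ^ 2) ^ 2) + b * c * (c - a * b)
            + a * c * (1 - b ^ 2) + a * b * (a - b * c) - 4 * k * (a ^ 2 + b ^ 2 + c ^ 2)
              * (a * (c - a * b) + b * (1 - b ^ 2) + c * (a - b * c))) * y2
        + (c * (a * b * c - k * (a ^ 2 + b ^ 2 + c ^ 2) ^ 2) + b * c * (b - a * c)
            + a * c * (a - b * c) + a * b * (1 - c ^ 2) - 4 * k * (a ^ 2 + b ^ 2 + c ^ 2)
              * (a * (b - a * c) + b * (a - b * c) + c * (1 - c ^ 2))) * y3 := by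
    funext y1 y2 y3
    unfold uu ZH hh1 hh2 hh3
    ring
  rw [e, sum24_lin]
  ring

theorem identS (a b c y1 y2 y3 : ℝ) :
    (1 / 24) * sum24 (fun y1 y2 y3 =>
      (1 + uu a b c y1 y2 y3) * (a ^ 2 + b ^ 2 + c ^ 2) + 2 * ZH a b c y1 y2 y3) y1 y2 y3
      = a ^ 2 + b ^ 2 + c ^ 2 := by
  have e : (fun y1 y2 y3 =>
      (1 + uu a b c y1 y2 y3) * (a ^ 2 + b ^ 2 + c ^ 2) + 2 * ZH a b c y1 y2 y3)
      = fun y1 y2 y3 => (a ^ 2 + b ^ 2 + c ^ 2)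
        + (a * (a ^ 2 + b ^ 2 + c ^ 2) + 2 * (a * (1 - a ^ 2) + b * (c - a * b) + c * (b - a * c))) * y1
        + (b * (a ^ 2 + b ^ 2 + c ^ 2) + 2 * (a * (c - a * b) + b * (1 - b ^ 2) + c * (a - b * c))) * y2
        + (c * (a ^ 2 + b ^ 2 + c ^ 2) + 2 * (a * (b - a * c) + b * (a - b * c) + c * (1 - c ^ 2))) * y3 := by
    funext y1 y2 y3
    unfold uu ZH hh1 hh2 hh3
    ring
  rw [e, sum24_lin]
  ring

theorem convIpp (p t e q t' e' : ℝ) :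
    (NI : ℝ) * (q * Goal DIpp (p, t, e) (q, t', e')) =
      (703687441776640000000000) * evT termsI p ((p * t)) (p ^ 2 * e) (Lam ^ 2 * q) ((Lam ^ 3 * q * t')) (Lam ^ 4 * q ^ 2 * e') := by
  have h := conv_I DIpp NI 703687441776640000000000 termsI (1) (1) rfl (by decide) (by decide +kernel)
    p t e q t' e'
  simpa using h

theorem convIpn (p t e q t' e' : ℝ) :
    (NI : ℝ) * (q * Goal DIpn (p, t, e) (q, t', e')) =
      (703687441776640000000000) * evT termsI p ((p * t)) (p ^ 2 * e) (Lam ^ 2 * q) (-(Lam ^ 3 * q * t')) (Lam ^ 4 * q ^ 2 * e') := by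
  have h := conv_I DIpn NI 703687441776640000000000 termsI (1) (-1) rfl (by decide) (by decide +kernel)
    p t e q t' e'
  simpa using h

theorem convInp (p t e q t' e' : ℝ) :
    (NI : ℝ) * (q * Goal DInp (p, t, e) (q, t', e')) =
      (703687441776640000000000) * evT termsI p (-(p * t)) (p ^ 2 * e) (Lam ^ 2 * q) ((Lam ^ 3 * q * t')) (Lam ^ 4 * q ^ 2 * e') := by
  have h := conv_I DInp NI 703687441776640000000000 termsI (-1) (1) rfl (by decide) (by decide +kernel)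
    p t e q t' e'
  simpa using h

theorem convInn (p t e q t' e' : ℝ) :
    (NI : ℝ) * (q * Goal DInn (p, t, e) (q, t', e')) =
      (703687441776640000000000) * evT termsI p (-(p * t)) (p ^ 2 * e) (Lam ^ 2 * q) (-(Lam ^ 3 * q * t')) (Lam ^ 4 * q ^ 2 * e') := by
  have h := conv_I DInn NI 703687441776640000000000 termsI (-1) (-1) rfl (by decide) (by decide +kernel)
    p t e q t' e'
  simpa using h

theorem convMpp (p t e q t' e' : ℝ) :
    (NM : ℝ) * (p * (q * Goal DMpp (p, t, e) (q, t', e'))) =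
      (720575940379279360000000) * evT termsM p ((p * t)) (p ^ 2 * e) (Lam ^ 2 * q) ((Lam ^ 3 * q * t')) (Lam ^ 4 * q ^ 2 * e') := by
  have h := conv_M DMpp NM 720575940379279360000000 termsM (1) (1) rfl (by decide) (by decide +kernel)
    p t e q t' e'
  simpa using h

theorem convMpn (p t e q t' e' : ℝ) :
    (NM : ℝ) * (p * (q * Goal DMpn (p, t, e) (q, t', e'))) =
      (720575940379279360000000) * evT termsM p ((p * t)) (p ^ 2 * e) (Lam ^ 2 * q) (-(Lam ^ 3 * q * t')) (Lam ^ 4 * q ^ 2 * e') := by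
  have h := conv_M DMpn NM 720575940379279360000000 termsM (1) (-1) rfl (by decide) (by decide +kernel)
    p t e q t' e'
  simpa using h

theorem convMnp (p t e q t' e' : ℝ) :
    (NM : ℝ) * (p * (q * Goal DMnp (p, t, e) (q, t', e'))) =
      (720575940379279360000000) * evT termsM p (-(p * t)) (p ^ 2 * e) (Lam ^ 2 * q) ((Lam ^ 3 * q * t')) (Lam ^ 4 * q ^ 2 * e') := by
  have h := conv_M DMnp NM 720575940379279360000000 termsM (-1) (1) rfl (by decide) (by decide +kernel)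
    p t e q t' e'
  simpa using h

theorem convMnn (p t e q t' e' : ℝ) :
    (NM : ℝ) * (p * (q * Goal DMnn (p, t, e) (q, t', e'))) =
      (720575940379279360000000) * evT termsM p (-(p * t)) (p ^ 2 * e) (Lam ^ 2 * q) (-(Lam ^ 3 * q * t')) (Lam ^ 4 * q ^ 2 * e') := by
  have h := conv_M DMnn NM 720575940379279360000000 termsM (-1) (-1) rfl (by decide) (by decide +kernel)
    p t e q t' e'
  simpa using h

end

end Vale.Agent.P154q4.D5
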