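import Vale.Agent.P154q4.Master
import Vale.Agent.P154q4.Fourier
import Vale.Agent.P154q4.TMSound
import Vale.Agent.P154q4.WBounds
import Vale.Agent.P154q4.D5.Apx
import Vale.Agent.P154q4.D5.Ident
import Vale.Agent.P154q4.D5.CovIpp
import Vale.Agent.P154q4.D5.CovIpn
import Vale.Agent.P154q4.D5.CovInp
import Vale.Agent.P154q4.D5.CovInn
import Vale.Agent.P154q4.D5.CovMpp
import Vale.Agent.P154q4.D5.CovMpn
import Vale.Agent.P154q4.D5.CovMnp
import Vale.Agent.P154q4.D5.CovMnn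

/-!
Assembly of the certificate: the two pointwise inequalities of the master theorem for the cone
potential `τ - k p²` with `k = 7/80`, for `λ ≤ 9/20`.
-/

open Filter Topology Finset BigOperators
open Vale.Agent.P154 Vale.Agent.P154q4 Vale.Agent.P154q4.TMC Vale.Agent.P154q4.TMS

namespace Vale.Agent.P154q4.D5

noncomputable section

/-- Invariants of a colour vector. -/
def pOf (v : Fin 4 → ℝ) : ℝ := fa v ^ 2 + fb v ^ 2 + fc v ^ 2
def tOf (v : Fin 4 → ℝ) : ℝ := fa v * fb v * fc v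
def eOf (v : Fin 4 → ℝ) : ℝ := fa v ^ 2 * fb v ^ 2 + fa v ^ 2 * fc v ^ 2 + fb v ^ 2 * fc v ^ 2

/-- The certificate coordinates of a colour vector. -/
def co (v : Fin 4 → ℝ) : ℝ × ℝ × ℝ := (pOf v, |tOf v| / pOf v, eOf v / pOf v ^ 2)

lemma pOf_nonneg (v : Fin 4 → ℝ) : 0 ≤ pOf v := by unfold pOf; positivity

lemma eOf_nonneg (v : Fin 4 → ℝ) : 0 ≤ eOf v := by unfold eOf; positivity

lemma inv_of_p0 (v : Fin 4 → ℝ) (h : pOf v = 0) : tOf v = 0 ∧ eOf v = 0 := by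
  unfold pOf at h
  have ha : fa v = 0 := by nlinarith [sq_nonneg (fa v), sq_nonneg (fb v), sq_nonneg (fc v)]
  have hb : fb v = 0 := by nlinarith [sq_nonneg (fa v), sq_nonneg (fb v), sq_nonneg (fc v)]
  have hc : fc v = 0 := by nlinarith [sq_nonneg (fa v), sq_nonneg (fb v), sq_nonneg (fc v)]
  simp [tOf, eOf, ha, hb, hc]

lemma co_t_pos (v : Fin 4 → ℝ) (h : 0 ≤ tOf v) : (co v).1 * (co v).2.1 = tOf v := by
  simp only [co]
  by_cases hp : pOf v = 0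
  · have := (inv_of_p0 v hp).1; simp [hp, this]
  · rw [abs_of_nonneg h]; field_simp

lemma co_t_neg (v : Fin 4 → ℝ) (h : tOf v < 0) : -((co v).1 * (co v).2.1) = tOf v := by
  simp only [co]
  by_cases hp : pOf v = 0
  · have := (inv_of_p0 v hp).1; simp [hp, this]
  · rw [abs_of_neg h]; field_simp

lemma co_e (v : Fin 4 → ℝ) : (co v).1 ^ 2 * (co v).2.2 = eOf v := by
  simp only [co]
  by_cases hp : pOf v = 0
  · have := (inv_of_p0 v hp).2; simp [hp, this]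
  · field_simp

lemma co_nn1 (v : Fin 4 → ℝ) : 0 ≤ (co v).2.1 := by
  simp only [co]; exact div_nonneg (abs_nonneg _) (pOf_nonneg v)

lemma co_nn2 (v : Fin 4 → ℝ) : 0 ≤ (co v).2.2 := by
  simp only [co]; exact div_nonneg (eOf_nonneg v) (by have := pOf_nonneg v; positivity)

/-- The facts on the invariants of a message. -/
lemma reg_facts (v : Fin 4 → ℝ) (hv : Msg v) :
    pOf v ≤ 3 ∧ 0 ≤ 1 - pOf v + 2 * tOf v ∧ 0 ≤ (1 - pOf v) ^ 2 + 8 * tOf v - 4 * eOf v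
      ∧ 3 * eOf v ≤ pOf v ^ 2 ∧ 3 * pOf v * tOf v ^ 2 ≤ eOf v ^ 2 ∧ 27 * tOf v ^ 2 ≤ pOf v ^ 3 :=
  region v hv

lemma disc_facts (v : Fin 4 → ℝ) :
    0 ≤ pOf v ^ 2 * eOf v ^ 2 - 4 * eOf v ^ 3 - 4 * pOf v ^ 3 * tOf v ^ 2
      + 18 * pOf v * eOf v * tOf v ^ 2 - 27 * tOf v ^ 4 :=
  disc_nonneg (fa v) (fb v) (fc v)

/-- Regularity and box in the positive case. -/
lemma reg_co_gen (v : Fin 4 → ℝ) (hv : Msg v) (hp : 0 < pOf v) (s : ℝ) (hs : s = 1 ∨ s = -1)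
    (ht : tOf v = s * (pOf v * (|tOf v| / pOf v))) :
    let x := co v
    0 ≤ 1 - x.1 + 2 * s * x.1 * x.2.1 ∧ 0 ≤ (1 - x.1) ^ 2 + 8 * s * x.1 * x.2.1 - 4 * x.1 ^ 2 * x.2.2
      ∧ 3 * x.2.1 ^ 2 ≤ x.1 * x.2.2 ^ 2 ∧ 27 * x.2.1 ^ 2 ≤ x.1
      ∧ 0 ≤ x.1 ^ 2 * x.2.2 ^ 2 * (1 - 4 * x.2.2) + 18 * x.1 * x.2.2 * x.2.1 ^ 2
        - 4 * x.1 * x.2.1 ^ 2 - 27 * x.2.1 ^ 4 := by
  intro x
  obtain ⟨h1, h2, h3, h4, h5, h6⟩ := reg_facts v hv
  have hd := disc_facts v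
  set p := pOf v with hpdef
  set τ := tOf v with htdef
  set e := eOf v with hedef
  set t := |τ| / p with htt
  set f := e / p ^ 2 with hff
  have hx1 : x.1 = p := rfl
  have hx2 : x.2.1 = t := rfl
  have hx3 : x.2.2 = f := rfl
  rw [hx1, hx2, hx3]
  have hτ : τ = s * (p * t) := ht
  have he : e = p ^ 2 * f := by rw [hff]; field_simp
  have hp3 : 0 < p ^ 3 := by positivity
  have hs2 : s ^ 2 = 1 := by rcases hs with h | h <;> rw [h] <;> norm_num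
  have hs4 : s ^ 4 = 1 := by rcases hs with h | h <;> rw [h] <;> norm_num
  rw [hτ] at h2 h3 h5 h6 hd
  rw [he] at h3 h5 hd
  refine ⟨by linarith, by linarith, ?_, ?_, ?_⟩
  · have h5' : p ^ 3 * (3 * t ^ 2) ≤ p ^ 3 * (p * f ^ 2) := by
      have : 3 * p * (s * (p * t)) ^ 2 = p ^ 3 * (3 * t ^ 2) * s ^ 2 := by ring
      rw [this, hs2] at h5
      nlinarith
    exact le_of_mul_le_mul_left h5' hp3
  · have h6' : p ^ 2 * (27 * t ^ 2) ≤ p ^ 2 * p := by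
      have : 27 * (s * (p * t)) ^ 2 = p ^ 2 * (27 * t ^ 2) * s ^ 2 := by ring
      rw [this, hs2] at h6
      nlinarith
    exact le_of_mul_le_mul_left h6' (by positivity)
  · have hp4 : 0 < p ^ 4 := by positivity
    have : p ^ 2 * (p ^ 2 * f) ^ 2 - 4 * (p ^ 2 * f) ^ 3 - 4 * p ^ 3 * (s * (p * t)) ^ 2
        + 18 * p * (p ^ 2 * f) * (s * (p * t)) ^ 2 - 27 * (s * (p * t)) ^ 4
        = p ^ 4 * (p ^ 2 * f ^ 2 * (1 - 4 * f) + 18 * p * f * t ^ 2 - 4 * p * t ^ 2 - 27 * t ^ 4) := by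
      have e2 : (s * (p * t)) ^ 2 = (p * t) ^ 2 := by rw [mul_pow, hs2, one_mul]
      have e4 : (s * (p * t)) ^ 4 = (p * t) ^ 4 := by rw [mul_pow, hs4, one_mul]
      rw [e2, e4]; ring
    rw [this] at hd
    exact nonneg_of_mul_nonneg_right hd hp4

/-- The two root boxes. -/
def rtP : Box := ⟨0, 50331648, 0, 5592406, 0, 5592406⟩
def rtN : Box := ⟨0, 50331648, 0, 1864136, 0, 5592406⟩

lemma co_e_le (v : Fin 4 → ℝ) (hv : Msg v) (hp : 0 < pOf v) : (co v).2.2 ≤ 1 / 3 := by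
  obtain ⟨_, _, _, h4, _, _⟩ := reg_facts v hv
  simp only [co]
  rw [div_le_iff₀ (by positivity)]
  linarith

lemma co_t_le (v : Fin 4 → ℝ) (hv : Msg v) (hp : 0 < pOf v) : (co v).2.1 ≤ 1 / 3 := by
  obtain ⟨h1, _, _, _, _, h6⟩ := reg_facts v hv
  have hn := co_nn1 v
  simp only [co] at hn ⊢
  rw [div_le_iff₀ hp]
  have h7 : tOf v ^ 2 = |tOf v| ^ 2 := (sq_abs _).symm
  rw [h7] at h6
  by_contra hcon
  rw [not_le] at hcon
  have : (1 / 3 * pOf v) ^ 2 < |tOf v| ^ 2 := by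
    apply pow_lt_pow_left₀ hcon (by positivity) (by norm_num)
  nlinarith [pOf_nonneg v, mul_nonneg (pOf_nonneg v) (pOf_nonneg v), mul_pos hp hp]

lemma co_t_le_neg (v : Fin 4 → ℝ) (hv : Msg v) (hp : 0 < pOf v) (ht : tOf v < 0) :
    (co v).2.1 ≤ 1 / 9 := by
  have := tau_lower v hv
  simp only at this
  simp only [co]
  rw [div_le_iff₀ hp, abs_of_neg ht]
  unfold pOf tOf at *
  linarith

lemma reg_pos (v : Fin 4 → ℝ) (hv : Msg v) (hp : 0 < pOf v) (ht : 0 ≤ tOf v) :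
    Reg true (co v) ∧ InBox rtP (co v) := by
  have hpt : (co v).1 * (co v).2.1 = tOf v := co_t_pos v ht
  have hE := reg_co_gen v hv hp 1 (Or.inl rfl) (by
    have : pOf v * (|tOf v| / pOf v) = (co v).1 * (co v).2.1 := rfl
    rw [this, hpt]; ring)
  simp only at hE
  obtain ⟨r1, r2, r3, r4, r5⟩ := hE
  have h1 := (reg_facts v hv).1
  have he := co_e_le v hv hp
  have ht' := co_t_le v hv hp
  have n1 := co_nn1 v
  have n2 := co_nn2 v
  refine ⟨⟨hp, n1, n2, ?_, ?_, r3, r4, r5⟩, ?_⟩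
  · simp only [if_true]; nlinarith
  · simp only [if_true]; nlinarith
  · refine ⟨?_, ?_, ?_, ?_, ?_, ?_⟩ <;> simp only [rtP, co] at * <;> push_cast <;> norm_num <;> linarith

lemma reg_neg (v : Fin 4 → ℝ) (hv : Msg v) (hp : 0 < pOf v) (ht : tOf v < 0) :
    Reg false (co v) ∧ InBox rtN (co v) := by
  have hpt : -((co v).1 * (co v).2.1) = tOf v := co_t_neg v ht
  have hE := reg_co_gen v hv hp (-1) (Or.inr rfl) (by
    have : pOf v * (|tOf v| / pOf v) = (co v).1 * (co v).2.1 := rfl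
    rw [this, ← hpt]; ring)
  simp only at hE
  obtain ⟨r1, r2, r3, r4, r5⟩ := hE
  have h1 := (reg_facts v hv).1
  have he := co_e_le v hv hp
  have ht' := co_t_le_neg v hv hp ht
  have n1 := co_nn1 v
  have n2 := co_nn2 v
  refine ⟨⟨hp, n1, n2, ?_, ?_, r3, r4, r5⟩, ?_⟩
  · simp only [Bool.false_eq_true, if_false]; nlinarith
  · simp only [Bool.false_eq_true, if_false]; nlinarith
  · refine ⟨?_, ?_, ?_, ?_, ?_, ?_⟩ <;> simp only [rtN, co] at * <;> push_cast <;> norm_num <;> linarith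

lemma NI_pos : (0 : ℝ) < (NI : ℝ) := by norm_num [NI]
lemma NM_pos : (0 : ℝ) < (NM : ℝ) := by norm_num [NM]

lemma Lam_eq : Lam = 9 / 20 := rfl

/-- End of the first mode. -/
lemma finI (D : Data) (hmode : D.mode = true) (Z0 Y0 : Box)
    (hcov : Cov D Z0 Y0) (x y : ℝ × ℝ × ℝ) (hx0 : 0 ≤ x.1) (hy0 : 0 ≤ y.1)
    (hx : 0 < x.1 → Reg D.sz x ∧ InBox Z0 x) (hy : 0 < y.1 → Reg D.sy y ∧ InBox Y0 y)
    (E E' cst : ℝ) (h : (NI : ℝ) * (y.1 * Goal D x y) = cst * E') (hE : E' = E) (hc : 0 < cst) :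
    0 ≤ E := by
  rw [hE] at h
  have hN := NI_pos
  rcases hy0.eq_or_lt with hq | hq
  · rw [← hq] at h
    have : cst * E = 0 := by rw [← h]; ring
    have := (mul_eq_zero.mp this).resolve_left hc.ne'
    exact this.ge
  · have hG : 0 ≤ Goal D x y := by
      rcases hx0.eq_or_lt with hp | hp
      · simp only [Goal, hmode, if_true, ← hp]
        have : (0 : ℝ) ≤ D.A := Nat.cast_nonneg _
        simpa using mul_nonneg this hq.le
      · exact hcov x y (hx hp).2 (hy hq).2 (hx hp).1 (hy hq).1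
    have h1 : 0 ≤ cst * E := by rw [← h]; positivity
    exact nonneg_of_mul_nonneg_right h1 hc

/-- End of the second mode. -/
lemma finM (D : Data) (Z0 Y0 : Box)
    (hcov : Cov D Z0 Y0) (x y : ℝ × ℝ × ℝ) (hx0 : 0 ≤ x.1) (hy0 : 0 ≤ y.1)
    (hx : 0 < x.1 → Reg D.sz x ∧ InBox Z0 x) (hy : 0 < y.1 → Reg D.sy y ∧ InBox Y0 y)
    (E E' cst : ℝ) (h : (NM : ℝ) * (x.1 * (y.1 * Goal D x y)) = cst * E') (hE : E' = E)
    (hc : 0 < cst) : 0 ≤ E := by
  rw [hE] at h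
  have hN := NM_pos
  rcases hy0.eq_or_lt with hq | hq
  · rw [← hq] at h
    have : cst * E = 0 := by rw [← h]; ring
    have := (mul_eq_zero.mp this).resolve_left hc.ne'
    exact this.ge
  · rcases hx0.eq_or_lt with hp | hp
    · rw [← hp] at h
      have : cst * E = 0 := by rw [← h]; ring
      have := (mul_eq_zero.mp this).resolve_left hc.ne'
      exact this.ge
    · have hG : 0 ≤ Goal D x y := hcov x y (hx hp).2 (hy hq).2 (hx hp).1 (hy hq).1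
      have h1 : 0 ≤ cst * E := by rw [← h]; positivity
      exact nonneg_of_mul_nonneg_right h1 hc

lemma ty_pos (w : Fin 4 → ℝ) (h : 0 ≤ tOf w) : Lam ^ 3 * (co w).1 * (co w).2.1 = Lam ^ 3 * tOf w := by
  rw [mul_assoc, co_t_pos w h]

lemma ty_neg (w : Fin 4 → ℝ) (h : tOf w < 0) :
    -(Lam ^ 3 * (co w).1 * (co w).2.1) = Lam ^ 3 * tOf w := by
  rw [← co_t_neg w h]; ring

lemma ey_eq (w : Fin 4 → ℝ) : Lam ^ 4 * (co w).1 ^ 2 * (co w).2.2 = Lam ^ 4 * eOf w := by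
  rw [mul_assoc, co_e]

/-- The certified positivity for inequality one. -/
theorem evI_nonneg (z w : Fin 4 → ℝ) (hz : Msg z) (hw : Msg w) :
    0 ≤ evT termsI (pOf z) (tOf z) (eOf z) (Lam ^ 2 * pOf w) (Lam ^ 3 * tOf w) (Lam ^ 4 * eOf w) := by
  have hp := pOf_nonneg z
  have hq := pOf_nonneg w
  have ez : pOf z ^ 2 * (eOf z / pOf z ^ 2) = eOf z := co_e z
  have ey : Lam ^ 4 * (co w).1 ^ 2 * (eOf w / pOf w ^ 2) = Lam ^ 4 * eOf w := ey_eq w
  rcases le_or_gt 0 (tOf z) with hs | hs <;> rcases le_or_gt 0 (tOf w) with hs' | hs'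
  · refine finI DIpp rfl rtP rtP covIpp (co z) (co w) hp hq
      (fun h => reg_pos z hz h hs) (fun h => reg_pos w hw h hs') _ _ _ (convIpp _ _ _ _ _ _) ?_ (by norm_num)
    have tz : pOf z * (|tOf z| / pOf z) = tOf z := co_t_pos z hs
    have ty : Lam ^ 3 * (co w).1 * (|tOf w| / pOf w) = Lam ^ 3 * tOf w := ty_pos w hs'
    rw [tz, ez, ty, ey]; rfl
  · refine finI DIpn rfl rtP rtN covIpn (co z) (co w) hp hq
      (fun h => reg_pos z hz h hs) (fun h => reg_neg w hw h hs') _ _ _ (convIpn _ _ _ _ _ _) ?_ (by norm_num)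
    have tz : pOf z * (|tOf z| / pOf z) = tOf z := co_t_pos z hs
    have ty : -(Lam ^ 3 * (co w).1 * (|tOf w| / pOf w)) = Lam ^ 3 * tOf w := ty_neg w hs'
    rw [tz, ez, ty, ey]; rfl
  · refine finI DInp rfl rtN rtP covInp (co z) (co w) hp hq
      (fun h => reg_neg z hz h hs) (fun h => reg_pos w hw h hs') _ _ _ (convInp _ _ _ _ _ _) ?_ (by norm_num)
    have tz : -(pOf z * (|tOf z| / pOf z)) = tOf z := co_t_neg z hs
    have ty : Lam ^ 3 * (co w).1 * (|tOf w| / pOf w) = Lam ^ 3 * tOf w := ty_pos w hs'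
    rw [tz, ez, ty, ey]; rfl
  · refine finI DInn rfl rtN rtN covInn (co z) (co w) hp hq
      (fun h => reg_neg z hz h hs) (fun h => reg_neg w hw h hs') _ _ _ (convInn _ _ _ _ _ _) ?_ (by norm_num)
    have tz : -(pOf z * (|tOf z| / pOf z)) = tOf z := co_t_neg z hs
    have ty : -(Lam ^ 3 * (co w).1 * (|tOf w| / pOf w)) = Lam ^ 3 * tOf w := ty_neg w hs'
    rw [tz, ez, ty, ey]; rfl

/-- The certified positivity for inequality two. -/
theorem evM_nonneg (z w : Fin 4 → ℝ) (hz : Msg z) (hw : Msg w) :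
    0 ≤ evT termsM (pOf z) (tOf z) (eOf z) (Lam ^ 2 * pOf w) (Lam ^ 3 * tOf w) (Lam ^ 4 * eOf w) := by
  have hp := pOf_nonneg z
  have hq := pOf_nonneg w
  have ez : (co z).1 ^ 2 * (eOf z / pOf z ^ 2) = eOf z := co_e z
  have ey : Lam ^ 4 * (co w).1 ^ 2 * (eOf w / pOf w ^ 2) = Lam ^ 4 * eOf w := ey_eq w
  rcases le_or_gt 0 (tOf z) with hs | hs <;> rcases le_or_gt 0 (tOf w) with hs' | hs'
  · refine finM DMpp rtP rtP covMpp (co z) (co w) hp hq
      (fun h => reg_pos z hz h hs) (fun h => reg_pos w hw h hs') _ _ _ (convMpp _ _ _ _ _ _) ?_ (by norm_num)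
    have tz : (co z).1 * (|tOf z| / pOf z) = tOf z := co_t_pos z hs
    have ty : Lam ^ 3 * (co w).1 * (|tOf w| / pOf w) = Lam ^ 3 * tOf w := ty_pos w hs'
    rw [tz, ez, ty, ey]; rfl
  · refine finM DMpn rtP rtN covMpn (co z) (co w) hp hq
      (fun h => reg_pos z hz h hs) (fun h => reg_neg w hw h hs') _ _ _ (convMpn _ _ _ _ _ _) ?_ (by norm_num)
    have tz : (co z).1 * (|tOf z| / pOf z) = tOf z := co_t_pos z hs
    have ty : -(Lam ^ 3 * (co w).1 * (|tOf w| / pOf w)) = Lam ^ 3 * tOf w := ty_neg w hs'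
    rw [tz, ez, ty, ey]; rfl
  · refine finM DMnp rtN rtP covMnp (co z) (co w) hp hq
      (fun h => reg_neg z hz h hs) (fun h => reg_pos w hw h hs') _ _ _ (convMnp _ _ _ _ _ _) ?_ (by norm_num)
    have tz : -((co z).1 * (|tOf z| / pOf z)) = tOf z := co_t_neg z hs
    have ty : Lam ^ 3 * (co w).1 * (|tOf w| / pOf w) = Lam ^ 3 * tOf w := ty_pos w hs'
    rw [tz, ez, ty, ey]; rfl
  · refine finM DMnn rtN rtN covMnn (co z) (co w) hp hq
      (fun h => reg_neg z hz h hs) (fun h => reg_neg w hw h hs') _ _ _ (convMnn _ _ _ _ _ _) ?_ (by norm_num)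
    have tz : -((co z).1 * (|tOf z| / pOf z)) = tOf z := co_t_neg z hs
    have ty : -(Lam ^ 3 * (co w).1 * (|tOf w| / pOf w)) = Lam ^ 3 * tOf w := ty_neg w hs'
    rw [tz, ez, ty, ey]; rfl


/-! Pointwise bounds. -/

lemma mul_ge_of_abs {W d B E : ℝ} (hW : |W| ≤ B) (hd : |d| ≤ E) : -(B * E) ≤ W * d := by
  have h1 : |W * d| ≤ B * E := by
    rw [abs_mul]; exact mul_le_mul hW hd (abs_nonneg _) ((abs_nonneg _).trans hW)
  exact (neg_le_neg h1).trans (neg_abs_le _)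

lemma kk_nonneg : (0 : ℝ) ≤ kk := by norm_num [kk]

lemma XX_nonneg (a b c y1 y2 y3 : ℝ) : 0 ≤ XX a b c y1 y2 y3 := by unfold XX; positivity

/-- Lower bound of the `r` terms at one element of the orbit. -/
lemma point_I (a b c y1 y2 y3 : ℝ) (h1 : -Lam ≤ uu a b c y1 y2 y3) (h2 : uu a b c y1 y2 y3 ≤ 3 * Lam) :
    let u := uu a b c y1 y2 y3
    let r := (1 + u)⁻¹
    let p := a ^ 2 + b ^ 2 + c ^ 2
    PlowI a b c y1 y2 y3 ≤
      (QQ a b c y1 y2 y3 - 2 * kk * p * XX a b c y1 y2 y3 - 4 * kk * ZH a b c y1 y2 y3 ^ 2) * r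
      + (AH a b c y1 y2 y3 - 4 * kk * ZH a b c y1 y2 y3 * XX a b c y1 y2 y3) * r ^ 2
      - kk * XX a b c y1 y2 y3 ^ 2 * r ^ 3 := by
  intro u r p
  have a1 := apx1 u h1 h2
  have a2 := apx2 u h1 h2
  have a3 := apx3 u h1 h2
  have w1 := W1_bound kk a b c y1 y2 y3 kk_nonneg
  have w2 := W2_bound kk mu nu a b c y1 y2 y3 kk_nonneg (by norm_num [mu]) (by norm_num [nu])
  simp only at w1 w2
  have m1 := mul_ge_of_abs w1 a1
  have m2 := mul_ge_of_abs w2 a2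
  have hX2 : 0 ≤ kk * XX a b c y1 y2 y3 ^ 2 := mul_nonneg kk_nonneg (sq_nonneg _)
  have a3' := (abs_le.mp a3).2
  have m3 : kk * XX a b c y1 y2 y3 ^ 2 * (r ^ 3 - R3 u) ≤ kk * XX a b c y1 y2 y3 ^ 2 * (eta3 * u ^ 2) :=
    mul_le_mul_of_nonneg_left a3' hX2
  simp only [PlowI]
  nlinarith [m1, m2, m3]

/-- Upper bound of the `X r` term at one element of the orbit. -/
lemma point_M (a b c y1 y2 y3 : ℝ) (h1 : -Lam ≤ uu a b c y1 y2 y3) (h2 : uu a b c y1 y2 y3 ≤ 3 * Lam) :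
    XX a b c y1 y2 y3 * (1 + uu a b c y1 y2 y3)⁻¹ ≤ UM a b c y1 y2 y3 := by
  have a1 := (abs_le.mp (apx1 _ h1 h2)).2
  simp only [UM]
  apply mul_le_mul_of_nonneg_left _ (XX_nonneg _ _ _ _ _ _)
  have : R1 (uu a b c y1 y2 y3) = 1 - uu a b c y1 y2 y3 + uu a b c y1 y2 y3 ^ 2 * S1 (uu a b c y1 y2 y3) := rfl
  rw [this] at a1
  nlinarith [a1]

/-- Messages stay messages under a permutation. -/
lemma Msg_perm (v : Fin 4 → ℝ) (hv : Msg v) (g : Equiv.Perm (Fin 4)) : Msg (fun i => v (g i)) := by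
  constructor
  · rw [Equiv.sum_comp g v]; exact hv.1
  · intro i; exact hv.2 (g i)

lemma uu_smul (a b c l y1 y2 y3 : ℝ) : uu a b c (l * y1) (l * y2) (l * y3) = l * uu a b c y1 y2 y3 := by
  unfold uu; ring

lemma sum_smul (v : Fin 4 → ℝ) (hv : Msg v) (l : ℝ) : ∑ i, l * v i = 0 := by
  rw [← Finset.mul_sum, hv.1, mul_zero]

lemma sum24_add (F G : ℝ → ℝ → ℝ → ℝ) (x y w : ℝ) :
    sum24 (fun x y w => F x y w + G x y w) x y w = sum24 F x y w + sum24 G x y w := by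
  unfold sum24; ring

lemma sum24_smul (F : ℝ → ℝ → ℝ → ℝ) (l x y w : ℝ) :
    sum24 (fun x y w => F (l * x) (l * y) (l * w)) x y w = sum24 F (l * x) (l * y) (l * w) := by
  unfold sum24; simp only [mul_neg]

/-- The range of `u` for a scaled permuted message. -/
lemma u_range (z v : Fin 4 → ℝ) (hz : Msg z) (hv : Msg v) (lam : ℝ) (h0 : 0 ≤ lam) (hl : lam ≤ Lam) :
    -Lam ≤ uu (fa z) (fb z) (fc z) (lam * fa v) (lam * fb v) (lam * fc v) ∧
      uu (fa z) (fb z) (fc z) (lam * fa v) (lam * fb v) (lam * fc v) ≤ 3 * Lam := by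
  obtain ⟨h1, h2⟩ := uu_range z v hz hv
  rw [uu_smul]
  constructor <;> nlinarith

lemma Lam_lt : Lam < 1 := by norm_num [Lam]
lemma Lam_pos : 0 < Lam := by norm_num [Lam]

/-- The scaling of the message into `Lam T`. -/
lemma scale_msg (v : Fin 4 → ℝ) (hv : Msg v) (lam : ℝ) (h0 : 0 ≤ lam) (hl : lam ≤ Lam) :
    Msg (fun i => (lam / Lam) * v i) :=
  Msg_smul _ (div_nonneg h0 Lam_pos.le) ((div_le_one Lam_pos).mpr hl) v hv

/-- Invariants of the scaled message. -/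
lemma scale_inv (v : Fin 4 → ℝ) (lam : ℝ) :
    Lam ^ 2 * pOf (fun i => (lam / Lam) * v i)
        = (lam * fa v) ^ 2 + (lam * fb v) ^ 2 + (lam * fc v) ^ 2
    ∧ Lam ^ 3 * tOf (fun i => (lam / Lam) * v i) = (lam * fa v) * (lam * fb v) * (lam * fc v)
    ∧ Lam ^ 4 * eOf (fun i => (lam / Lam) * v i)
        = (lam * fa v) ^ 2 * (lam * fb v) ^ 2 + (lam * fa v) ^ 2 * (lam * fc v) ^ 2
          + (lam * fb v) ^ 2 * (lam * fc v) ^ 2 := by
  have hL : Lam ≠ 0 := Lam_pos.ne'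
  simp only [pOf, tOf, eOf, fa_smul, fb_smul, fc_smul]
  refine ⟨?_, ?_, ?_⟩ <;> field_simp

/-- The sum over colour permutations of a pointwise lower bound. -/
lemma sum_perm_le (v : Fin 4 → ℝ) (lam : ℝ) (A : Equiv.Perm (Fin 4) → ℝ) (G : ℝ → ℝ → ℝ → ℝ)
    (h : ∀ g : Equiv.Perm (Fin 4), G (lam * fa (fun i => v (g i))) (lam * fb (fun i => v (g i)))
        (lam * fc (fun i => v (g i))) ≤ A g) :
    sum24 G (lam * fa v) (lam * fb v) (lam * fc v) ≤ ∑ g, A g := by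
  rw [← sum24_smul, ← sum_perm4 (fun x y w => G (lam * x) (lam * y) (lam * w)) v]
  exact Finset.sum_le_sum fun g _ => h g

lemma sum_perm_ge (v : Fin 4 → ℝ) (lam : ℝ) (A : Equiv.Perm (Fin 4) → ℝ) (G : ℝ → ℝ → ℝ → ℝ)
    (h : ∀ g : Equiv.Perm (Fin 4), A g ≤ G (lam * fa (fun i => v (g i)))
        (lam * fb (fun i => v (g i))) (lam * fc (fun i => v (g i)))) :
    ∑ g, A g ≤ sum24 G (lam * fa v) (lam * fb v) (lam * fc v) := by
  rw [← sum24_smul, ← sum_perm4 (fun x y w => G (lam * x) (lam * y) (lam * w)) v]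
  exact Finset.sum_le_sum fun g _ => h g

lemma cone_cmp (lam : ℝ) (h0 : 0 ≤ lam) (hl : lam ≤ Lam) (x y w : ℝ) :
    lam ^ 3 * (x * y * w - kk * (x ^ 2 + y ^ 2 + w ^ 2) ^ 2)
      ≤ (lam * x) * (lam * y) * (lam * w)
        - kk / Lam * ((lam * x) ^ 2 + (lam * y) ^ 2 + (lam * w) ^ 2) ^ 2 := by
  have hL : Lam ≠ 0 := Lam_pos.ne'
  have hL1 : lam / Lam ≤ 1 := (div_le_one Lam_pos).mpr hl
  have e : (lam * x) * (lam * y) * (lam * w)
        - kk / Lam * ((lam * x) ^ 2 + (lam * y) ^ 2 + (lam * w) ^ 2) ^ 2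
        - lam ^ 3 * (x * y * w - kk * (x ^ 2 + y ^ 2 + w ^ 2) ^ 2)
      = kk * lam ^ 3 * (x ^ 2 + y ^ 2 + w ^ 2) ^ 2 * (1 - lam / Lam) := by
    field_simp; ring
  have h : 0 ≤ kk * lam ^ 3 * (x ^ 2 + y ^ 2 + w ^ 2) ^ 2 * (1 - lam / Lam) :=
    mul_nonneg (mul_nonneg (mul_nonneg kk_nonneg (by positivity)) (sq_nonneg _)) (by linarith)
  linarith

lemma arith_I {Lz B al q X1 X2 Ev S1 S2 R : ℝ} (hfin : (1 / 24) * (S1 + S2) ≤ R)
    (hL : (1 / 24) * S1 = Lz) (hP : (1 / 24) * S2 = -al * q * Lz + B * X2 + Ev)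
    (hcmp : B * X1 ≤ B * X2) (hev : Ev ≥ 0) : (1 - al * q) * Lz + B * X1 ≤ R := by
  have e : (1 - al * q) * Lz = Lz + (-al * q * Lz) := by ring
  rw [e]; linarith

/-- The first inequality. -/
theorem key_I (z v : Fin 4 → ℝ) (hz : Msg z) (hv : Msg v) (lam : ℝ) (h0 : 0 ≤ lam) (hl : lam ≤ Lam) :
    (1 - alpha * lam ^ 2 * s2 v) * Lk kk z + lam ^ 3 * (1 - bb * s2 z) ^ 2 * Lk kk v
      ≤ (1 / 24) * ∑ g : Equiv.Perm (Fin 4), Kp (Lk kk) z (fun i => lam * v (g i)) := by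
  set a := fa z with ha
  set b := fb z with hb
  set c := fc z with hc
  have hs2z : s2 z = a ^ 2 + b ^ 2 + c ^ 2 := s2_fourier z z hz.1 hz.1
  have hs2v : s2 v = fa v ^ 2 + fb v ^ 2 + fc v ^ 2 := s2_fourier v v hv.1 hv.1
  let G : ℝ → ℝ → ℝ → ℝ := fun y1 y2 y3 =>
    ((1 + uu a b c y1 y2 y3) * (a * b * c - kk * (a ^ 2 + b ^ 2 + c ^ 2) ^ 2)
      + (b * c * hh1 a b c y1 y2 y3 + a * c * hh2 a b c y1 y2 y3 + a * b * hh3 a b c y1 y2 y3
          - 4 * kk * (a ^ 2 + b ^ 2 + c ^ 2) * ZH a b c y1 y2 y3))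
    + PlowI a b c y1 y2 y3
  have hsum := sum_perm_le v lam (fun g => Kp (Lk kk) z (fun i => lam * v (g i))) G (by
    intro g
    set w : Fin 4 → ℝ := fun i => v (g i) with hw
    have hwm : Msg w := Msg_perm v hv g
    obtain ⟨u1, u2⟩ := u_range z w hz hwm lam h0 hl
    have u1' : -Lam ≤ uu a b c (lam * fa w) (lam * fb w) (lam * fc w) := u1
    have hD : 1 + uu a b c (lam * fa w) (lam * fb w) (lam * fc w) ≠ 0 := by
      intro h0'; linarith [Lam_lt]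
    have hm : ∑ i, (fun i => lam * w i) i = 0 := sum_smul w hwm lam
    have hKp := Kp_L_fourier z (fun i => lam * w i) hz.1 hm kk (by
        rw [fa_smul, fb_smul, fc_smul]; exact hD) a b c (lam * fa w) (lam * fb w) (lam * fc w)
        (a ^ 2 + b ^ 2 + c ^ 2) _ rfl rfl rfl (fa_smul _ _).symm (fb_smul _ _).symm (fc_smul _ _).symm
        rfl rfl
    have hp := point_I a b c (lam * fa w) (lam * fb w) (lam * fc w) u1 u2
    simp only at hp
    show G _ _ _ ≤ Kp (Lk kk) z (fun i => lam * w i)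
    rw [hKp]
    simp only [G]
    linarith [hp])
  have h1 := sum24_add
    (fun y1 y2 y3 => (1 + uu a b c y1 y2 y3) * (a * b * c - kk * (a ^ 2 + b ^ 2 + c ^ 2) ^ 2)
      + (b * c * hh1 a b c y1 y2 y3 + a * c * hh2 a b c y1 y2 y3 + a * b * hh3 a b c y1 y2 y3
          - 4 * kk * (a ^ 2 + b ^ 2 + c ^ 2) * ZH a b c y1 y2 y3))
    (fun y1 y2 y3 => PlowI a b c y1 y2 y3) (lam * fa v) (lam * fb v) (lam * fc v)
  have hL := identLin kk a b c (lam * fa v) (lam * fb v) (lam * fc v)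
  have hP := identI a b c (lam * fa v) (lam * fb v) (lam * fc v)
  simp only at hP
  have hG : sum24 G (lam * fa v) (lam * fb v) (lam * fc v) = _ := h1
  obtain ⟨e1, e2, e3⟩ := scale_inv v lam
  have hev := evI_nonneg z (fun i => (lam / Lam) * v i) hz (scale_msg v hv lam h0 hl)
  rw [e1, e2, e3] at hev
  have hev' : evT termsI (a ^ 2 + b ^ 2 + c ^ 2) (a * b * c)
      (a ^ 2 * b ^ 2 + a ^ 2 * c ^ 2 + b ^ 2 * c ^ 2)
      ((lam * fa v) ^ 2 + (lam * fb v) ^ 2 + (lam * fc v) ^ 2)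
      ((lam * fa v) * (lam * fb v) * (lam * fc v))
      ((lam * fa v) ^ 2 * (lam * fb v) ^ 2 + (lam * fa v) ^ 2 * (lam * fc v) ^ 2
        + (lam * fb v) ^ 2 * (lam * fc v) ^ 2) / NI ≥ 0 := div_nonneg hev NI_pos.le
  have hLk1 : Lk kk z = a * b * c - kk * (a ^ 2 + b ^ 2 + c ^ 2) ^ 2 := by
    simp only [Lk, hs2z, ha, hb, hc]
  have hLk2 : Lk kk v = fa v * fb v * fc v - kk * (fa v ^ 2 + fb v ^ 2 + fc v ^ 2) ^ 2 := by
    simp only [Lk, hs2v]
  -- comparison of the cone term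
  have hB : 0 ≤ (1 - bb * (a ^ 2 + b ^ 2 + c ^ 2)) ^ 2 := sq_nonneg _
  have hq0 : 0 ≤ (fa v ^ 2 + fb v ^ 2 + fc v ^ 2) ^ 2 := sq_nonneg _
  have hcmp := cone_cmp lam h0 hl (fa v) (fb v) (fc v)
  have hcmp2 := mul_le_mul_of_nonneg_left hcmp hB
  rw [hLk1, hLk2, hs2z, hs2v]
  have hs := hsum
  have hfin : (1 / 24) * sum24 G (lam * fa v) (lam * fb v) (lam * fc v)
      ≤ (1 / 24) * ∑ g : Equiv.Perm (Fin 4), Kp (Lk kk) z (fun i => lam * v (g i)) :=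
    mul_le_mul_of_nonneg_left hs (by norm_num)
  rw [hG] at hfin
  have e5 : (lam * fa v) ^ 2 + (lam * fb v) ^ 2 + (lam * fc v) ^ 2
      = lam ^ 2 * (fa v ^ 2 + fb v ^ 2 + fc v ^ 2) := by ring
  rw [e5] at hP hcmp2 hev'
  have hfinal := arith_I hfin hL hP hcmp2 hev'
  calc _ = (1 - alpha * (lam ^ 2 * (fa v ^ 2 + fb v ^ 2 + fc v ^ 2)))
        * (a * b * c - kk * (a ^ 2 + b ^ 2 + c ^ 2) ^ 2)
        + (1 - bb * (a ^ 2 + b ^ 2 + c ^ 2)) ^ 2
          * (lam ^ 3 * (fa v * fb v * fc v - kk * (fa v ^ 2 + fb v ^ 2 + fc v ^ 2) ^ 2)) := by ring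
    _ ≤ _ := hfinal

lemma arith_M {R S1 S2 p q A L C X1 X2 m0 Ev : ℝ} (hfin : R ≤ (1 / 24) * (S1 + S2))
    (hS : (1 / 24) * S1 = p) (hP : (1 / 24) * S2 = q - A * L - C * X2 - m0 - Ev)
    (hcmp : C * X1 ≤ C * X2) (hev : Ev ≥ 0) : R + A * L + C * X1 + m0 ≤ p + q := by
  have e : (1 / 24) * (S1 + S2) = (1 / 24) * S1 + (1 / 24) * S2 := by ring
  rw [e, hS, hP] at hfin
  linarith

/-- The second inequality. -/
theorem key_M (z v : Fin 4 → ℝ) (hz : Msg z) (hv : Msg v) (lam : ℝ) (h0 : 0 ≤ lam) (hl : lam ≤ Lam) :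
    (1 / 24) * (∑ g : Equiv.Perm (Fin 4), Kp s2 z (fun i => lam * v (g i)))
      + (4 * (lam ^ 2 * s2 v) - beta * (lam ^ 2 * s2 v) ^ 2) * Lk kk z
      + (lam ^ 3 * Cz (s2 z) (tOf z) (eOf z)) * Lk kk v + mm * lam ^ 2 * s2 v * s2 z ^ 2
      ≤ s2 z + lam ^ 2 * s2 v := by
  set a := fa z with ha
  set b := fb z with hb
  set c := fc z with hc
  have hs2z : s2 z = a ^ 2 + b ^ 2 + c ^ 2 := s2_fourier z z hz.1 hz.1
  have hs2v : s2 v = fa v ^ 2 + fb v ^ 2 + fc v ^ 2 := s2_fourier v v hv.1 hv.1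
  have hC : 0 ≤ Cz (a ^ 2 + b ^ 2 + c ^ 2) (a * b * c)
      (a ^ 2 * b ^ 2 + a ^ 2 * c ^ 2 + b ^ 2 * c ^ 2) := C_nonneg z hz
  let G : ℝ → ℝ → ℝ → ℝ := fun y1 y2 y3 =>
    ((1 + uu a b c y1 y2 y3) * (a ^ 2 + b ^ 2 + c ^ 2) + 2 * ZH a b c y1 y2 y3)
    + UM a b c y1 y2 y3
  have hsum := sum_perm_ge v lam (fun g => Kp s2 z (fun i => lam * v (g i))) G (by
    intro g
    set w : Fin 4 → ℝ := fun i => v (g i) with hw
    have hwm : Msg w := Msg_perm v hv g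
    obtain ⟨u1, u2⟩ := u_range z w hz hwm lam h0 hl
    have u1' : -Lam ≤ uu a b c (lam * fa w) (lam * fb w) (lam * fc w) := u1
    have hD : 1 + uu a b c (lam * fa w) (lam * fb w) (lam * fc w) ≠ 0 := by
      intro h0'; linarith [Lam_lt]
    have hm : ∑ i, (fun i => lam * w i) i = 0 := sum_smul w hwm lam
    have hKp := Kp_s2_fourier z (fun i => lam * w i) hz.1 hm (by
        rw [fa_smul, fb_smul, fc_smul]; exact hD)
    rw [fa_smul, fb_smul, fc_smul] at hKp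
    have hp := point_M a b c (lam * fa w) (lam * fb w) (lam * fc w) u1 u2
    show Kp s2 z (fun i => lam * w i) ≤ G _ _ _
    rw [hKp]
    simp only [G]
    linarith [hp])
  have h1 := sum24_add
    (fun y1 y2 y3 => (1 + uu a b c y1 y2 y3) * (a ^ 2 + b ^ 2 + c ^ 2) + 2 * ZH a b c y1 y2 y3)
    (fun y1 y2 y3 => UM a b c y1 y2 y3) (lam * fa v) (lam * fb v) (lam * fc v)
  have hL := identS a b c (lam * fa v) (lam * fb v) (lam * fc v)
  have hP := identM a b c (lam * fa v) (lam * fb v) (lam * fc v)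
  simp only at hP
  have hG : sum24 G (lam * fa v) (lam * fb v) (lam * fc v) = _ := h1
  obtain ⟨e1, e2, e3⟩ := scale_inv v lam
  have hev := evM_nonneg z (fun i => (lam / Lam) * v i) hz (scale_msg v hv lam h0 hl)
  rw [e1, e2, e3] at hev
  have hev' : evT termsM (a ^ 2 + b ^ 2 + c ^ 2) (a * b * c)
      (a ^ 2 * b ^ 2 + a ^ 2 * c ^ 2 + b ^ 2 * c ^ 2)
      ((lam * fa v) ^ 2 + (lam * fb v) ^ 2 + (lam * fc v) ^ 2)
      ((lam * fa v) * (lam * fb v) * (lam * fc v))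
      ((lam * fa v) ^ 2 * (lam * fb v) ^ 2 + (lam * fa v) ^ 2 * (lam * fc v) ^ 2
        + (lam * fb v) ^ 2 * (lam * fc v) ^ 2) / NM ≥ 0 := div_nonneg hev NM_pos.le
  have hLk1 : Lk kk z = a * b * c - kk * (a ^ 2 + b ^ 2 + c ^ 2) ^ 2 := by
    simp only [Lk, hs2z, ha, hb, hc]
  have hLk2 : Lk kk v = fa v * fb v * fc v - kk * (fa v ^ 2 + fb v ^ 2 + fc v ^ 2) ^ 2 := by
    simp only [Lk, hs2v]
  have hcmp := cone_cmp lam h0 hl (fa v) (fb v) (fc v)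
  have hcmp2 := mul_le_mul_of_nonneg_left hcmp hC
  have ht : tOf z = a * b * c := rfl
  have he : eOf z = a ^ 2 * b ^ 2 + a ^ 2 * c ^ 2 + b ^ 2 * c ^ 2 := rfl
  rw [hLk1, hLk2, hs2z, hs2v, ht, he]
  have hfin : (1 / 24) * (∑ g : Equiv.Perm (Fin 4), Kp s2 z (fun i => lam * v (g i)))
      ≤ (1 / 24) * sum24 G (lam * fa v) (lam * fb v) (lam * fc v) :=
    mul_le_mul_of_nonneg_left hsum (by norm_num)
  rw [hG] at hfin
  have e5 : (lam * fa v) ^ 2 + (lam * fb v) ^ 2 + (lam * fc v) ^ 2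
      = lam ^ 2 * (fa v ^ 2 + fb v ^ 2 + fc v ^ 2) := by ring
  rw [e5] at hP hcmp2 hev'
  have hP' : (1 / 24) * sum24 (fun y1 y2 y3 => UM a b c y1 y2 y3)
        (lam * fa v) (lam * fb v) (lam * fc v)
      = lam ^ 2 * (fa v ^ 2 + fb v ^ 2 + fc v ^ 2)
        - (4 * (lam ^ 2 * (fa v ^ 2 + fb v ^ 2 + fc v ^ 2))
            - beta * (lam ^ 2 * (fa v ^ 2 + fb v ^ 2 + fc v ^ 2)) ^ 2)
          * (a * b * c - kk * (a ^ 2 + b ^ 2 + c ^ 2) ^ 2)
        - _ - _ - _ := hP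
  have hfinal := arith_M hfin hL hP' hcmp2 hev'
  calc _ = _ := by ring
    _ ≤ _ := hfinal

/-- The main theorem for this range of `d`. -/
theorem final {d : ℕ} (hd : 5 ≤ d) {lam : ℝ} (h0 : 0 ≤ lam) (hdl : (d : ℝ) * lam ^ 2 ≤ 1) :
    Tendsto (reconError 4 d lam) atTop (𝓝 0) := by
  have hd5 : (5 : ℝ) ≤ d := by exact_mod_cast hd
  have hsq : lam ^ 2 ≤ 1 / 5 := by nlinarith [sq_nonneg lam]
  have hl : lam ≤ Lam := by
    rw [Lam]; nlinarith [sq_nonneg lam]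
  have hs2le : ∀ v, Msg v → s2 v ≤ 3 := by
    intro v hv
    rw [s2_fourier v v hv.1 hv.1]
    exact (reg_facts v hv).1
  have h3 : 0 ≤ lam ^ 3 := by positivity
  refine nonrecon_of_cone (by omega) h0 hdl (Lk kk)
    (fun v => 1 - alpha * lam ^ 2 * s2 v)
    (fun z => lam ^ 3 * (1 - bb * s2 z) ^ 2)
    (fun v => 4 * (lam ^ 2 * s2 v) - beta * (lam ^ 2 * s2 v) ^ 2)
    (fun z => lam ^ 3 * Cz (s2 z) (tOf z) (eOf z))
    (mm * lam ^ 2) (lam ^ 3) ?_ ?_ h3 ?_ ?_ ?_ ?_ ?_ ?_ ?_ ?_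
  · have : (0 : ℝ) ≤ mm := by norm_num [mm]
    positivity
  · intro h
    have : (0 : ℝ) < mm := by norm_num [mm]
    positivity
  · intro v hv
    have h1 := hs2le v hv
    have h2 := s2_nonneg v
    have e : alpha = 3 / 2 := rfl
    simp only [e]
    nlinarith [mul_nonneg (sq_nonneg lam) h2]
  · intro z _
    positivity
  · intro v hv
    have h1 := hs2le v hv
    have h2 := s2_nonneg v
    have e : beta = 3 / 2 := rfl
    simp only [e]
    have h4 : 0 ≤ lam ^ 2 * s2 v := by positivity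
    have h5 : lam ^ 2 * s2 v ≤ 1 / 5 * 3 := by nlinarith [sq_nonneg lam]
    nlinarith
  · intro z hz
    apply mul_nonneg h3
    have hC := C_nonneg z hz
    simp only at hC
    have hs2z : s2 z = fa z ^ 2 + fb z ^ 2 + fc z ^ 2 := s2_fourier z z hz.1 hz.1
    rw [hs2z]
    exact hC
  · intro i
    have e : kk = 7 / 80 := rfl
    fin_cases i <;> simp [Lk, fa, fb, fc, s2, vertex, Fin.sum_univ_four, e] <;> norm_num
  · intro v hv
    simp only [Lk]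
    rw [fa_smul, fb_smul, fc_smul, s2_smul]
    have hk := kk_nonneg
    have hl1 : lam ≤ 1 := hl.trans Lam_lt.le
    have hq : 0 ≤ s2 v ^ 2 := sq_nonneg _
    have : kk * (lam ^ 4 * s2 v ^ 2) ≤ kk * (lam ^ 3 * s2 v ^ 2) := by
      apply mul_le_mul_of_nonneg_left _ hk
      apply mul_le_mul_of_nonneg_right _ hq
      nlinarith [pow_nonneg h0 3]
    nlinarith
  · intro z v hz hv
    exact key_I z v hz hv lam h0 hl
  · intro z v hz hv
    exact key_M z v hz hv lam h0 hl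

end

end Vale.Agent.P154q4.D5
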