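import Vale.Agent.P154q4.TMSound
import Vale.Agent.P154q4.D5.Mnn.F0

namespace Vale.Agent.P154q4.D5

open Vale.Agent.P154q4.TMC Vale.Agent.P154q4.TMS Mnn

set_option maxRecDepth 1000000 in
theorem covMnn : Cov DMnn ⟨0, 50331648, 0, 1864136, 0, 5592406⟩ ⟨0, 50331648, 0, 1864136, 0, 5592406⟩ :=
  (chkRoot_sound _ _ _ _ c0)

end Vale.Agent.P154q4.D5
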