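import Vale.Agent.P154q4.D5.Assemble
import Vale.Agent.P154q4.GW

/-!
Galton-Watson trees: the pointwise inequalities of the certificate hold for all `λ ≤ Lam`, and the
number of children does not enter them.
-/

open Filter Topology Finset BigOperators
open Vale.Agent.P154 Vale.Agent.P154q4 Vale.Agent.P154q4.TMC Vale.Agent.P154q4.TMS

namespace Vale.Agent.P154q4.D5

noncomputable section

/-- Offspring law of full support with mean `d ≥ 5`. -/
theorem final_gw {off : ℕ → ℝ} (hoff : ∀ N, 0 < off N) (hsum : HasSum off 1) {d lam : ℝ}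
    (hd : 5 ≤ d) (hm : HasSum (fun N : ℕ => off N * (N : ℝ)) d) (h0 : 0 ≤ lam)
    (hdl : d * lam ^ 2 ≤ 1) : Tendsto (gwError 4 off lam) atTop (𝓝 0) := by
  have hsq : lam ^ 2 ≤ 1 / 5 := by nlinarith [sq_nonneg lam]
  have hl : lam ≤ Lam := by
    rw [Lam]; nlinarith [sq_nonneg lam]
  have h1 : lam < 1 := lt_of_le_of_lt hl Lam_lt
  have hs2le : ∀ v, Msg v → s2 v ≤ 3 := by
    intro v hv
    rw [s2_fourier v v hv.1 hv.1]
    exact (reg_facts v hv).1
  have h3 : 0 ≤ lam ^ 3 := by positivity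
  refine GW4.gw_of_cone hoff hsum hm h0 h1 hdl (Lk kk)
    (fun v => 1 - alpha * lam ^ 2 * s2 v)
    (fun z => lam ^ 3 * (1 - bb * s2 z) ^ 2)
    (fun v => 4 * (lam ^ 2 * s2 v) - beta * (lam ^ 2 * s2 v) ^ 2)
    (fun z => lam ^ 3 * Cz (s2 z) (tOf z) (eOf z))
    (mm * lam ^ 2) (lam ^ 3) ?_ ?_ h3 2 1 12 ?_ ?_ ?_ ?_ ?_ ?_ ?_ ?_ ?_ ?_ ?_ ?_
  · have : (0 : ℝ) ≤ mm := by norm_num [mm]
    positivity
  · intro h
    have : (0 : ℝ) < mm := by norm_num [mm]
    positivity
  · intro v hv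
    obtain ⟨hp3, -, -, -, -, h27⟩ := reg_facts v hv
    have hs : s2 v = pOf v := s2_fourier v v hv.1 hv.1
    have hp0 := pOf_nonneg v
    have h27' : pOf v ^ 3 ≤ 27 := by
      have := pow_le_pow_left₀ hp0 hp3 3
      norm_num at this
      exact this
    have ht : tOf v ^ 2 ≤ 1 := by linarith
    have ht1 : tOf v ≤ 1 := by nlinarith
    have ht2 : -1 ≤ tOf v := by nlinarith
    have e : fa v * fb v * fc v = tOf v := rfl
    have hk : kk = 7 / 80 := rfl
    simp only [Lk]
    rw [e, hs, hk, abs_le]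
    constructor <;> nlinarith
  · intro v hv
    have h2 := s2_nonneg v
    have e : alpha = 3 / 2 := rfl
    simp only [e]
    nlinarith [mul_nonneg (sq_nonneg lam) h2]
  · intro v hv
    have h2b := hs2le v hv
    have h2 := s2_nonneg v
    have e : beta = 3 / 2 := rfl
    simp only [e]
    have h4 : 0 ≤ lam ^ 2 * s2 v := by positivity
    have h5 : lam ^ 2 * s2 v ≤ 3 := by nlinarith [sq_nonneg lam]
    nlinarith [sq_nonneg (lam ^ 2 * s2 v)]
  · intro v hv
    have h1 := hs2le v hv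
    have h2 := s2_nonneg v
    have e : alpha = 3 / 2 := rfl
    simp only [e]
    nlinarith [mul_nonneg (sq_nonneg lam) h2]
  · intro z _
    positivity
  · intro v hv
    have h1 := hs2le v hv
    have h2 := s2_nonneg v
    have e : beta = 3 / 2 := rfl
    simp only [e]
    have h4 : 0 ≤ lam ^ 2 * s2 v := by positivity
    have h5 : lam ^ 2 * s2 v ≤ 1 / 5 * 3 := by nlinarith [sq_nonneg lam]
    nlinarith
  · intro z hz
    apply mul_nonneg h3
    have hC := C_nonneg z hz
    simp only at hC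
    have hs2z : s2 z = fa z ^ 2 + fb z ^ 2 + fc z ^ 2 := s2_fourier z z hz.1 hz.1
    rw [hs2z]
    exact hC
  · simp [Lk, fa, fb, fc, s2]
  · intro i
    have e : kk = 7 / 80 := rfl
    fin_cases i <;> simp [Lk, fa, fb, fc, s2, vertex, Fin.sum_univ_four, e] <;> norm_num
  · intro v hv
    simp only [Lk]
    rw [fa_smul, fb_smul, fc_smul, s2_smul]
    have hk := kk_nonneg
    have hl1 : lam ≤ 1 := hl.trans Lam_lt.le
    have hq : 0 ≤ s2 v ^ 2 := sq_nonneg _
    have : kk * (lam ^ 4 * s2 v ^ 2) ≤ kk * (lam ^ 3 * s2 v ^ 2) := by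
      apply mul_le_mul_of_nonneg_left _ hk
      apply mul_le_mul_of_nonneg_right _ hq
      nlinarith [pow_nonneg h0 3]
    nlinarith
  · intro z v hz hv
    exact key_I z v hz hv lam h0 hl
  · intro z v hz hv
    exact key_M z v hz hv lam h0 hl

/-- Poisson offspring law of mean `d ≥ 5`. -/
theorem final_poisson {d lam : ℝ} (hd : 5 ≤ d) (h0 : 0 ≤ lam) (hdl : d * lam ^ 2 ≤ 1) :
    Tendsto (gwError 4 (poissonOff d) lam) atTop (𝓝 0) :=
  final_gw (GW4.poissonOff_pos (by linarith)) (GW4.poissonOff_hasSum d) hd (GW4.poissonOff_mean d) h0 hdl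

end

end Vale.Agent.P154q4.D5
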